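import Mathlib.MeasureTheory.Measure.Hausdorff
import Vale.Agent.P210.TP.Props
import Vale.Agent.P234.Bd3.B2

open Set Filter MeasureTheory Bundle
open scoped Topology RealInnerProductSpace Manifold ContDiff

set_option maxSynthPendingDepth 3

namespace Vale.Agent.P210.R2.H53.Stmt

open Vale.Agent.P210.TP

/-- COV -/
def COV : Prop :=
  ∀ (n D : ℕ), 2 ≤ n → ∃ ε : ℝ, 0 < ε ∧ ∀ (X : Type) [MetricSpace X] (r R : ℝ), 0 < r →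
    100 * n * r ≤ R →
    (∀ (q : X) (s : Finset X), (∀ x ∈ s, dist x q ≤ 8 * R) →
      (∀ x ∈ s, ∀ y ∈ s, x ≠ y → R ≤ dist x y) → s.card ≤ D) →
    (∀ (q : X) (s : Finset X), (∀ x ∈ s, dist x q ≤ 8 * R) →
      (∀ x ∈ s, ∀ y ∈ s, x ≠ y → r ≤ dist x y) → (s.card : ℝ) ≤ ε * (R / r) ^ (n - 1)) →
    ∃ (V : Type) (lam : V → X → ℝ), Bary X V (n - 2) lam ∧
      ∀ x y, (∀ v, lam v x = lam v y) → dist x y ≤ 6 * R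

/-- ITER -/
def ITER : Prop :=
  ∀ (X : Type) [MetricSpace X] (κ T : ℝ) (L k : ℕ), 0 < κ → κ ≤ 1 / 2 → 0 < T →
    (∀ j < k, ∀ (q : X) (s : Finset X), (∀ x ∈ s, dist x q ≤ κ ^ j * T) →
      (∀ x ∈ s, ∀ y ∈ s, x ≠ y → κ * (κ ^ j * T) ≤ dist x y) → s.card ≤ L) →
    ∀ (q : X) (s : Finset X), (∀ x ∈ s, dist x q ≤ T) →
      (∀ x ∈ s, ∀ y ∈ s, x ≠ y → 3 * (κ ^ k * T) ≤ dist x y) → s.card ≤ L ^ k

/-- LIN -/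
def LIN : Prop :=
  ∀ n : ℕ, 3 ≤ n → ∃ κ : ℝ, 0 < κ ∧ κ ≤ 1 / 8 ∧ ∃ L : ℕ, 2 * ((L : ℝ) + 1) * κ ^ (n - 1) ≤ 1 ∧
    ∃ a : ℝ, 0 < a ∧ ∀ (V : Type) [NormedAddCommGroup V] [InnerProductSpace ℝ V]
      [FiniteDimensional ℝ V], Module.finrank ℝ V = n →
      ∀ (K : V → V → ℝ) (B : V → V →ₗ[ℝ] V →ₗ[ℝ] ℝ) (δ : ℝ), 0 ≤ δ → δ ≤ a →
      (∀ u v, K u v = B u v v) → (∀ u v, K u v = K v u) → (∀ u, K u u = 0) →
      (∀ u v, -δ * (‖u‖ ^ 2 * ‖v‖ ^ 2 - ⟪u, v⟫ ^ 2) ≤ K u v) →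
      (∀ b : OrthonormalBasis (Fin n) ℝ V, 1 ≤ ∑ i, ∑ j, K (b i) (b j)) →
      ∀ (N : ℕ) (u : Fin N → V) (d : Fin N → ℝ) (t : ℝ), 0 < t →
      (∀ j, ‖u j‖ = 1) → (∀ j, 0 ≤ d j ∧ d j ≤ 2 * t) →
      (∀ j, ∀ b : OrthonormalBasis (Fin n) ℝ V, ∑ i, K (b i) (u j) ≤ a) →
      (∀ i j, i ≠ j → κ * t / 2 ≤ ‖d i • u i - d j • u j‖) → N ≤ L

/-- MEAS -/
def MEAS : Prop :=
  ∀ (n L : ℕ) (κ : ℝ), 0 < κ → κ ≤ 1 → ∃ θ : ℝ, 0 < θ ∧ θ ≤ 1 / 8 ∧ ∃ ε : ℝ, 0 < ε ∧ ε ≤ 1 / 8 ∧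
    ∃ C : ℝ, 0 < C ∧ ∀ (X : Type) [MetricSpace X] [ProperSpace X] [MeasurableSpace X]
      [BorelSpace X] (μ : Measure X) (q : X) (t A : ℝ) (N : ℕ) (p : Fin N → X)
      (f : Fin N → X → ℝ), 0 < t → 0 < A → N ≤ L →
      (∀ x : X, ∀ s > 0, 0 < μ (Metric.closedBall x s) ∧ μ (Metric.closedBall x s) < ⊤) →
      (∀ (S : Set X) (g : X → X) (Λ : ℝ), 0 ≤ Λ →
        (∀ x ∈ S, ∀ y ∈ S, dist (g x) (g y) ≤ Λ * dist x y) →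
        μ (g '' S) ≤ ENNReal.ofReal Λ ^ n * μ S) →
      (∀ (x y : X) (s : ℝ), s ∈ Icc (0 : ℝ) 1 →
        ∃ z, dist x z = s * dist x y ∧ dist z y = (1 - s) * dist x y) →
      (∀ (o x y x' y' : X) (s : ℝ), s ∈ Ioc (0 : ℝ) 1 → dist o q ≤ 4 * t → dist x q ≤ 4 * t →
        dist y q ≤ 4 * t → dist o x' = s * dist o x → dist x' x = (1 - s) * dist o x →
        dist o y' = s * dist o y → dist y' y = (1 - s) * dist o y →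
        s * (1 - ε) * dist x y ≤ dist x' y') →
      (∀ j, κ * t / 2 ≤ dist (p j) q ∧ dist (p j) q ≤ t) →
      (∀ j x, 0 ≤ f j x) →
      (∀ j, ContinuousOn (f j) {z | ∃ w, dist w q ≤ κ * t / 4 ∧ ∃ s ∈ Icc (1 / 2 : ℝ) (1 - θ),
        dist (p j) z = s * dist (p j) w ∧ dist z w = (1 - s) * dist (p j) w}) →
      (∀ j, ∀ w, dist w q ≤ κ * t / 4 → ∀ γ : ℝ → X, γ 0 = p j → γ 1 = w →
        (∀ s ∈ Icc (0 : ℝ) 1, ∀ s' ∈ Icc (0 : ℝ) 1,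
          dist (γ s) (γ s') = |s - s'| * dist (p j) w) →
        ∫ s in Icc (1 - 4 * θ) (1 - θ), f j (γ s) ≤ A) →
      ∃ z, dist z q ≤ κ * t / 2 ∧ ∀ j, f j z ≤ C * A ∧ ∃ w, dist w q ≤ κ * t / 4 ∧
        ∃ s ∈ Icc (1 / 2 : ℝ) (1 - θ),
          dist (p j) z = s * dist (p j) w ∧ dist z w = (1 - s) * dist (p j) w

/-- HAUS -/
def HAUS : Prop :=
  ∀ (n : ℕ) (M : Type) [MetricSpace M] [ChartedSpace (EuclideanSpace ℝ (Fin n)) M]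
    [RiemannianBundle (fun x : M => TangentSpace 𝓘(ℝ, EuclideanSpace ℝ (Fin n)) x)]
    [IsManifold 𝓘(ℝ, EuclideanSpace ℝ (Fin n)) ∞ M]
    [IsContMDiffRiemannianBundle 𝓘(ℝ, EuclideanSpace ℝ (Fin n)) ∞ (EuclideanSpace ℝ (Fin n))
      (fun x : M => TangentSpace 𝓘(ℝ, EuclideanSpace ℝ (Fin n)) x)]
    [IsRiemannianManifold 𝓘(ℝ, EuclideanSpace ℝ (Fin n)) M] [ProperSpace M]
    [MeasurableSpace M] [BorelSpace M] (x : M) (s : ℝ), 0 < s →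
    0 < (Measure.hausdorffMeasure (n : ℝ) : Measure M) (Metric.closedBall x s) ∧
      (Measure.hausdorffMeasure (n : ℝ) : Measure M) (Metric.closedBall x s) < ⊤

/-- Christoffel symbol of `G` at `z` -/
def IsChr {E : Type} [NormedAddCommGroup E] [NormedSpace ℝ E] (G : E → E →L[ℝ] E →L[ℝ] ℝ) (z : E)
    (Γ : E → E → E) : Prop :=
  ∀ u v w, 2 * G z (Γ u v) w = fderiv ℝ G z u v w + fderiv ℝ G z v u w - fderiv ℝ G z w u v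

/-- numerator of the sectional curvature -/
noncomputable def secN {E : Type} [NormedAddCommGroup E] [NormedSpace ℝ E]
    (G : E → E →L[ℝ] E →L[ℝ] ℝ) (z : E) (Γ : E → E → E) (a b : E) : ℝ :=
  -(fderiv ℝ (fderiv ℝ G) z a a b b + fderiv ℝ (fderiv ℝ G) z b b a a
      - 2 * fderiv ℝ (fderiv ℝ G) z b a a b) / 2
    + G z (Γ a b) (Γ a b) - G z (Γ a a) (Γ b b)

/-- INV -/
def INV : Prop :=
  ∀ (E : Type) [NormedAddCommGroup E] [NormedSpace ℝ E] [FiniteDimensional ℝ E]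
    (G G' : E → E →L[ℝ] E →L[ℝ] ℝ) (τ : E → E) (z : E) (Γ Γ' : E → E → E),
    ContDiffAt ℝ ∞ τ z → ContDiffAt ℝ ∞ G (τ z) → ContDiffAt ℝ ∞ G' z →
    (∀ᶠ y in 𝓝 (τ z), ∀ v w, G y v w = G y w v) → (∀ v, v ≠ 0 → 0 < G (τ z) v v) →
    Function.Bijective (fderiv ℝ τ z) →
    (∀ᶠ y in 𝓝 z, ∀ v w, G' y v w = G (τ y) (fderiv ℝ τ y v) (fderiv ℝ τ y w)) →
    IsChr G' z Γ' → IsChr G (τ z) Γ →
    (∀ u v, fderiv ℝ τ z (Γ' u v) =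
      fderiv ℝ (fderiv ℝ τ) z u v + Γ (fderiv ℝ τ z u) (fderiv ℝ τ z v)) ∧
    ∀ a b, secN G' z Γ' a b = secN G (τ z) Γ (fderiv ℝ τ z a) (fderiv ℝ τ z b)

end Vale.Agent.P210.R2.H53.Stmt
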