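import Vale.Agent.P210.R2.H53.RDefs

open scoped Manifold ContDiff Topology Bundle ENNReal NNReal
open Set Metric Filter Bundle IsManifold MeasureTheory Manifold Asymptotics

set_option maxSynthPendingDepth 3

noncomputable section

namespace Vale.Agent.P210.R2.H53

/-- every finite cover of `A` by balls of radii at least `ρ` has `∑ r ^ (n - 1) ≥ a` -/
def HCge {X : Type} [MetricSpace X] (n : ℕ) (ρ : ℝ) (A : Set X) (a : ℝ) : Prop :=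
  ∀ S : Finset (X × ℝ), (∀ c ∈ S, ρ ≤ c.2) → A ⊆ ⋃ c ∈ S, closedBall c.1 c.2 →
    a ≤ ∑ c ∈ S, c.2 ^ (n - 1)

section Mfd

variable (E : Type) [NormedAddCommGroup E] [NormedSpace ℝ E]
  {M : Type} [MetricSpace M] [ChartedSpace E M]
  [RiemannianBundle (fun x : M => TangentSpace 𝓘(ℝ, E) x)] [MeasurableSpace M]

/-- the Laplacian of the distance to `p` has mass at most `a` on the ball `B(y, s)` -/
def LapM (μ : Measure M) (p y : M) (s a : ℝ) : Prop :=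
  ∀ w : M → ℝ, LC w → (∀ q, |w q| ≤ 1) → (∀ q, s ≤ dist q y → w q = 0) →
    ∫ q, Gam E (fun q => dist p q) w q ∂μ ≤ a

/-- `p` is a pole for the ball `B(y, r)` -/
def Pole (μ : Measure M) (K η : ℝ) (p y : M) (r : ℝ) : Prop :=
  r ≤ η * dist p y ∧ K * r * dist p y ≤ η ∧ LapM E μ p y (16 * r) (η * μ.real (ball y r) / r)

/-- the inner product of the gradients of the distances to `p`, `p'` is nearly `σ` on `B(y, s)` -/
def GrN (μ : Measure M) (p p' y : M) (s σ a : ℝ) : Prop :=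
  ∫ q in ball y s, |Gam E (fun q => dist p q) (fun q => dist p' q) q - σ| ∂μ ≤ a

end Mfd

namespace Stmt

/-- the standing assumptions with dimension `n`, measure `μ`, `Ric ≥ -K` -/
def ForK (n : ℕ) (P : ∀ (E : Type) [NormedAddCommGroup E] [NormedSpace ℝ E]
    [FiniteDimensional ℝ E] [MeasurableSpace E] [BorelSpace E]
    (M : Type) [MetricSpace M] [ChartedSpace E M]
    [RiemannianBundle (fun x : M => TangentSpace 𝓘(ℝ, E) x)]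
    [IsManifold 𝓘(ℝ, E) ∞ M]
    [IsContMDiffRiemannianBundle 𝓘(ℝ, E) ∞ E (fun x : M => TangentSpace 𝓘(ℝ, E) x)]
    [IsRiemannianManifold 𝓘(ℝ, E) M] [MeasurableSpace M] [BorelSpace M] [ProperSpace M],
    Measure M → ℝ → Prop) : Prop :=
  ForR fun E _ _ _ _ _ M _ _ _ _ _ _ _ _ _ => Module.finrank ℝ E = n →
    ∀ (μ : Measure M) (K : ℝ), IsVol E μ → 0 < K → RicGE E M (-K) → P E M μ K

/-- CALD: more calculus: smooth functions are locally Lipschitz, smooth cutoffs, chain rule for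
monotone Lipschitz functions -/
def CALD : Prop := ForR fun E _ _ _ _ _ M _ _ _ _ _ _ _ _ _ =>
  (∀ u : M → ℝ, TF E u → LocallyLipschitz u) ∧
  (∀ S U : Set M, IsCompact S → IsOpen U → S ⊆ U → ∃ χ : M → ℝ, TF E χ ∧
    (∀ p, 0 ≤ χ p ∧ χ p ≤ 1) ∧ (∀ᶠ p in 𝓝ˢ S, χ p = 1) ∧ tsupport χ ⊆ U) ∧
  (∀ (φ : ℝ → ℝ) (C : ℝ≥0) (u : M → ℝ) (p : M), Monotone φ → LipschitzWith C φ →
    MDifferentiableAt 𝓘(ℝ, E) 𝓘(ℝ, ℝ) u p → ∃ l : ℝ, 0 ≤ l ∧ l ≤ C ∧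
      ∀ w : M → ℝ, Gam E (fun q => φ (u q)) w p = l * Gam E u w p)

/-- WLCP: pointwise second order upper bounds for `dist x ^ 2 / 2` in charts -/
def WLCP : Prop := ForR fun E _ _ _ _ _ M _ _ _ _ _ _ _ _ _ =>
  ∀ K : ℝ, 0 < K → RicGE E M (-K) → ∀ x : M, ∀ e ∈ maximalAtlas 𝓘(ℝ, E) ∞ M, ∀ z₀ ∈ e.target,
    e.symm z₀ ≠ x → ∃ r > 0, ∃ C : ℝ, ball z₀ (2 * r) ⊆ e.target ∧
    (∀ z v : E, ‖z - z₀‖ < r → ‖v‖ < r → dist x (e.symm (z + v)) ^ 2 / 2 +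
      dist x (e.symm (z - v)) ^ 2 / 2 ≤ 2 * (dist x (e.symm z) ^ 2 / 2) + C * ‖v‖ ^ 2) ∧
    ∀ z : E, ‖z - z₀‖ < r → DifferentiableAt ℝ (fun w => dist x (e.symm w) ^ 2 / 2) z →
      ∃ B : E →L[ℝ] E →L[ℝ] ℝ, (∀ v w, B v w = B w v) ∧
      (∀ v : E, ∀ ε > 0, ∀ᶠ h in 𝓝[>] (0 : ℝ), dist x (e.symm (z + h • v)) ^ 2 / 2 +
        dist x (e.symm (z - h • v)) ^ 2 / 2 ≤
          2 * (dist x (e.symm z) ^ 2 / 2) + h ^ 2 * (B v v + ε)) ∧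
      ∀ b : Module.Basis (Fin (Module.finrank ℝ E)) ℝ E,
        (∀ i j, chartG e z (b i) (b j) = if i = j then 1 else 0) →
        ∑ i, (B (b i) (b i) - fderiv ℝ (fun w => dist x (e.symm w) ^ 2 / 2) z
          (chris (chartG e) z (b i) (b i))) ≤
          Module.finrank ℝ E + K * dist x (e.symm z) ^ 2

/-- MCP: measure contraction -/
def MCP : Prop := ∀ n : ℕ, 2 ≤ n → ForK n fun _ _ _ _ _ _ _ _ _ _ _ _ _ _ _ _ μ K =>
  ∀ x R lam A, 0 < R → 0 < lam → lam ≤ 1 → IsCompact A → A ⊆ closedBall x R →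
    μ.real A ≤ lam⁻¹ ^ n * Real.exp (K * R ^ 2) *
      μ.real {w | ∃ z ∈ A, dist x w = lam * dist x z ∧ dist w z = (1 - lam) * dist x z}

/-- BG: volume comparison -/
def BG : Prop := ∀ n : ℕ, 2 ≤ n → ForK n fun _ _ _ _ _ _ M _ _ _ _ _ _ _ _ _ μ K =>
  ∀ (x : M) (s t : ℝ), 0 < s → s ≤ t →
    μ.real (ball x t) ≤ (t / s) ^ n * Real.exp (K * t ^ 2) * μ.real (ball x s)

/-- SEG: the segment inequality with one fixed end point -/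
def SEG : Prop := ∀ n : ℕ, 2 ≤ n → ForK n fun E _ _ _ _ _ M _ _ _ _ _ _ _ _ _ μ K =>
  ∀ (x : M) (R lam : ℝ) (u h : M → ℝ) (B : Set M), 0 < R → 0 < lam → lam ≤ 1 → TF E u →
    LipschitzWith 1 h → MeasurableSet B → B ⊆ closedBall x R →
    ∫ z in B, |(1 - lam) * dist x z * Gam E u (fun q => dist x q) z - (h z - h x)| ∂μ ≤
      lam * R * μ.real B + ∫ z in B, |u z - h z| ∂μ + lam⁻¹ ^ n * Real.exp (K * R ^ 2) *
        (∫ z in closedBall x R, |u z - h z| ∂μ + R ^ 2 * ∫ z in closedBall x R, √(HS E 0 u z) ∂μ)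

/-- MASS: bound of the total mass of the Laplacian of a distance -/
def MASS : Prop := ∀ n : ℕ, 2 ≤ n → ∃ C : ℝ, 0 < C ∧
  ForK n fun E _ _ _ _ _ M _ _ _ _ _ _ _ _ _ μ K =>
  ∀ (x y : M) (r κ : ℝ), 0 < r → 0 < κ → κ ≤ 1 → K * r ^ 2 ≤ 1 → dist x y ≤ 2 * r →
    ∀ (Z : Finset M) (t a : M → ℝ), (∀ z ∈ Z, 0 < t z ∧ t z ≤ r ∧ dist z y ≤ r ∧
      κ * r + t z ≤ dist x z ∧ ¬ LapM E μ x z (t z) (a z)) →
    (∀ z ∈ Z, ∀ z' ∈ Z, z ≠ z' → t z + t z' ≤ dist z z') →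
    ∑ z ∈ Z, a z ≤ C * μ.real (ball y r) / (κ * r)

/-- CONI: the vertex of an almost conical ball is a pole -/
def CONI : Prop := ∀ n : ℕ, 2 ≤ n → ∀ Ψ > 0, ∃ c > 0, ∀ lam > 0, ∃ e > 0,
  ForK n fun E _ _ _ _ _ M _ _ _ _ _ _ _ _ _ μ K =>
  ∀ (x z : M) (T t : ℝ), 0 < T → K * T ^ 2 ≤ e →
    μ.real (ball x (lam * T)) ≤ (1 + e) * lam ^ n * μ.real (ball x T) →
    dist x z ≤ T / 4 → lam * T ≤ t → t ≤ c * dist x z → Pole E μ K Ψ x z t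

/-- AN: smoothing of the distance to a pole -/
def AN : Prop := ∀ n : ℕ, 2 ≤ n → ∀ Ψ > 0, ∃ η > 0,
  ForK n fun E _ _ _ _ _ M _ _ _ _ _ _ _ _ _ μ K =>
  ∀ (p y : M) (r : ℝ), 0 < r → K * r ^ 2 ≤ η → Pole E μ K η p y r → ∃ u : M → ℝ, TF E u ∧
    ∫ q in ball y (4 * r), |u q - dist p q| ∂μ ≤ Ψ * r * μ.real (ball y r) ∧
    ∫ q in ball y (4 * r), Gam E (fun q => u q - dist p q) (fun q => u q - dist p q) q ∂μ ≤
      Ψ * μ.real (ball y r) ∧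
    r ^ 2 * ∫ q in ball y (4 * r), HS E 0 u q ∂μ ≤ Ψ * μ.real (ball y r)

/-- SLOPE: inner products of gradients of distances and slopes -/
def SLOPE : Prop := ∀ n : ℕ, 2 ≤ n → ∀ Ψ > 0, ∃ c > 0, ∀ lam > 0, ∃ η > 0,
  ForK n fun E _ _ _ _ _ M _ _ _ _ _ _ _ _ _ μ K =>
  ∀ (p y x z : M) (r s : ℝ), 0 < r → K * r ^ 2 ≤ η → Pole E μ K η p y r → dist x y ≤ r →
    dist z y ≤ r → lam * r ≤ s → s ≤ c * dist x z →
    GrN E μ p x z (4 * s) ((dist p z - dist p x) / dist x z) (Ψ * μ.real (ball z s))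

/-- END: scalar curvature excludes `n - 1` almost orthogonal poles -/
def END : Prop := ∀ n : ℕ, 3 ≤ n → ∃ η > 0, ∃ L > 0,
  ForK n fun E _ _ _ _ _ M _ _ _ _ _ _ _ _ _ μ K => ScalGE E M 1 →
  ∀ (y : M) (r : ℝ) (p : Fin (n - 1) → M), L ≤ r → K * r ^ 2 ≤ η →
    (∀ i, Pole E μ K η (p i) y r) →
    (∀ i j, i ≠ j → ∃ σ : ℝ, |σ| ≤ 1 / (16 * n) ∧
      GrN E μ (p i) (p j) y (4 * r) σ (η * μ.real (ball y r))) → False

/-- CONTENT: the content of large balls is small -/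
def CONTENT : Prop := ∀ n : ℕ, 3 ≤ n → ∀ ε > 0, ∃ R > 0, ∃ δ > 0,
  ForK n fun E _ _ _ _ _ M _ _ _ _ _ _ _ _ _ _ K => K ≤ δ → ScalGE E M 1 →
  ∀ y : M, ¬ HCge n 1 (closedBall y R) (ε * R ^ (n - 1))

/-- COVC: the width from small content (metric spaces) -/
def COVC : Prop := ∀ n D : ℕ, 3 ≤ n → ∃ ε > 0, ∃ C : ℝ, ∀ (X : Type) [MetricSpace X]
  [ProperSpace X] (R : ℝ), 0 < R →
  (∀ (x : X) (s : Finset X), (∀ y ∈ s, dist y x ≤ 8 * R) →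
    (∀ y ∈ s, ∀ z ∈ s, y ≠ z → R ≤ dist y z) → s.card ≤ D) →
  (∀ x : X, ¬ HCge n 1 (closedBall x (8 * R)) (ε * R ^ (n - 1))) →
  UrysohnWidthLE X (n - 2) (C * R)

/-- FINALR: the theorem -/
def FINALR : Prop := ∀ n : ℕ, 3 ≤ n → ∃ δ > 0, ∃ C : ℝ, ForAll fun E _ _ _ M _ _ _ _ _ _ =>
  Module.finrank ℝ E = n → CompleteSpace M → RicGE E M (-δ) → ScalGE E M 1 →
    UrysohnWidthLE M (n - 2) C

end Stmt

end Vale.Agent.P210.R2.H53
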