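import Vale.Agent.P234.MathlibUsed
import Vale.Agent.P210.Defs

open scoped Manifold ContDiff Topology
open Bundle IsManifold

noncomputable section

namespace Vale.Agent.P210.R2.H53

variable {E : Type*} [NormedAddCommGroup E] [NormedSpace ℝ E]
  {M : Type*} [MetricSpace M] [ChartedSpace E M]

section metric

variable [RiemannianBundle (fun x : M => TangentSpace 𝓘(ℝ, E) x)]

/-- The Riemannian metric of `M` in the chart `e`: `g_z(v, w)` for `z` in the target. -/
def chartMetric (e : OpenPartialHomeomorph M E) (z v w : E) : ℝ :=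
  inner ℝ (mfderiv 𝓘(ℝ, E) 𝓘(ℝ, E) e.symm z v : TangentSpace 𝓘(ℝ, E) (e.symm z))
    (mfderiv 𝓘(ℝ, E) 𝓘(ℝ, E) e.symm z w : TangentSpace 𝓘(ℝ, E) (e.symm z))

/-- `Γ` is the Christoffel symbol (Levi-Civita connection) at the point `z` of the chart `e`
(Koszul formula). -/
def IsChristoffel (e : OpenPartialHomeomorph M E) (z : E) (Γ : E → E → E) : Prop :=
  ∀ u v w : E, 2 * chartMetric e z (Γ u v) w =
    fderiv ℝ (fun y => chartMetric e y v w) z u + fderiv ℝ (fun y => chartMetric e y u w) z v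
      - fderiv ℝ (fun y => chartMetric e y u v) z w

/-- The curvature `Rm(a, b, b, a)` (numerator of the sectional curvature of the plane spanned
by `a, b`) at the point `z` of the chart `e`. -/
def sectNum (e : OpenPartialHomeomorph M E) (z : E) (Γ : E → E → E) (a b : E) : ℝ :=
  -(fderiv ℝ (fun y => fderiv ℝ (fun x => chartMetric e x b b) y a) z a
      + fderiv ℝ (fun y => fderiv ℝ (fun x => chartMetric e x a a) y b) z b
      - 2 * fderiv ℝ (fun y => fderiv ℝ (fun x => chartMetric e x a b) y a) z b) / 2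
    + chartMetric e z (Γ a b) (Γ a b) - chartMetric e z (Γ a a) (Γ b b)

variable (E M) in
/-- All sectional curvatures are at least `κ`. -/
def SecGE [IsManifold 𝓘(ℝ, E) ∞ M] (κ : ℝ) : Prop :=
  ∀ e ∈ maximalAtlas 𝓘(ℝ, E) ∞ M, ∀ z ∈ e.target, ∃ Γ, IsChristoffel e z Γ ∧
    ∀ a b : E, κ * (chartMetric e z a a * chartMetric e z b b - chartMetric e z a b ^ 2) ≤
      sectNum e z Γ a b

variable (E M) in
/-- The scalar curvature is at least `σ`. -/
def ScalGE [IsManifold 𝓘(ℝ, E) ∞ M] (σ : ℝ) : Prop :=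
  ∀ e ∈ maximalAtlas 𝓘(ℝ, E) ∞ M, ∀ z ∈ e.target, ∃ Γ, IsChristoffel e z Γ ∧
    ∀ b : Module.Basis (Fin (Module.finrank ℝ E)) ℝ E,
      (∀ i j, chartMetric e z (b i) (b j) = if i = j then 1 else 0) →
      σ ≤ ∑ i, ∑ j, sectNum e z Γ (b i) (b j)

end metric

/-- There is a continuous map from `X` to a simplicial complex of dimension at most `d` all of
whose fibres have diameter at most `C`. -/
def UrysohnWidthLE (X : Type*) [MetricSpace X] (d : ℕ) (C : ℝ) : Prop :=
  ∃ (V : Type) (K : PreAbstractSimplicialComplex V) (f : X → Realization K),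
    (∀ s ∈ K.faces, s.card ≤ d + 1) ∧ Continuous f ∧ ∀ x y : X, f x = f y → dist x y ≤ C

end Vale.Agent.P210.R2.H53
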