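import Vale.Agent.P234.Bd3.B2

set_option linter.all false

open scoped ContDiff Topology
open Set Metric Filter

set_option maxSynthPendingDepth 3

noncomputable section

namespace Vale.Agent.P210.R2.H53

variable {E : Type*} [NormedAddCommGroup E] [NormedSpace ℝ E]

/-- Koszul expression of a metric `G` on a vector space. -/
def koszul (G : E → E →L[ℝ] E →L[ℝ] ℝ) (z u v w : E) : ℝ :=
  fderiv ℝ G z u v w + fderiv ℝ G z v u w - fderiv ℝ G z w u v

/-- Koszul expression as a continuous multilinear map. -/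
def koszulL (G : E → E →L[ℝ] E →L[ℝ] ℝ) (z : E) : E →L[ℝ] E →L[ℝ] E →L[ℝ] ℝ :=
  fderiv ℝ G z + (fderiv ℝ G z).flip -
    ((ContinuousLinearMap.flipₗᵢ ℝ E E ℝ).toContinuousLinearEquiv.toContinuousLinearMap).comp
      (fderiv ℝ G z).flip

theorem koszulL_apply (G : E → E →L[ℝ] E →L[ℝ] ℝ) (z u v w : E) :
    koszulL G z u v w = koszul G z u v w := by
  simp [koszulL, koszul]

/-- Christoffel symbol. -/
def chris (G : E → E →L[ℝ] E →L[ℝ] ℝ) (z : E) : E →L[ℝ] E →L[ℝ] E :=
  (1/2 : ℝ) • (ContinuousLinearMap.compL ℝ E (E →L[ℝ] ℝ) E (ContinuousLinearMap.inverse (G z))).comp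
    (koszulL G z)

/-- A Riemannian metric on an open set. -/
structure LocalRiem (G : E → E →L[ℝ] E →L[ℝ] ℝ) (U : Set E) : Prop where
  isOpen : IsOpen U
  smooth : ContDiffOn ℝ ∞ G U
  symm : ∀ z ∈ U, ∀ v w, G z v w = G z w v
  pos : ∀ z ∈ U, ∀ v, v ≠ 0 → 0 < G z v v

/-- The Riemannian curvature numerator `Rm(a,b,b,a)` of `G`. -/
def secG (G : E → E →L[ℝ] E →L[ℝ] ℝ) (z a b : E) : ℝ :=
  -(fderiv ℝ (fderiv ℝ G) z a a b b + fderiv ℝ (fderiv ℝ G) z b b a a
      - 2 * fderiv ℝ (fderiv ℝ G) z b a a b) / 2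
    + G z (chris G z a b) (chris G z a b) - G z (chris G z a a) (chris G z b b)

variable [FiniteDimensional ℝ E] {G : E → E →L[ℝ] E →L[ℝ] ℝ} {U : Set E} {z : E}

theorem isInvertible_of_pos (hpos : ∀ v, v ≠ 0 → 0 < G z v v) : (G z).IsInvertible := by
  have hinj : Function.Injective (G z : E →ₗ[ℝ] (E →L[ℝ] ℝ)) := by
    rw [injective_iff_map_eq_zero]
    intro v hv
    by_contra hne
    have := hpos v hne
    have h0 : G z v v = 0 := by
      have : (G z : E →ₗ[ℝ] (E →L[ℝ] ℝ)) v = G z v := rfl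
      rw [← this, hv]; rfl
    linarith only [this, h0]
  have hfin : Module.finrank ℝ E = Module.finrank ℝ (E →L[ℝ] ℝ) := by
    rw [← (LinearMap.toContinuousLinearMap (𝕜 := ℝ) (E := E) (F' := ℝ)).finrank_eq]
    simp
  have : FiniteDimensional ℝ (E →L[ℝ] ℝ) := inferInstance
  refine ⟨(LinearEquiv.ofInjectiveOfFinrankEq _ hinj hfin).toContinuousLinearEquiv, ?_⟩
  ext v w
  rfl

theorem chris_spec_of_pos (hpos : ∀ v, v ≠ 0 → 0 < G z v v) (u v w : E) :
    2 * G z (chris G z u v) w = koszul G z u v w := by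
  obtain ⟨T, hT⟩ := isInvertible_of_pos hpos
  have h1 : chris G z u v = (1/2 : ℝ) • T.symm (koszulL G z u v) := by
    simp only [chris, ← hT, ContinuousLinearMap.inverse_equiv]
    rfl
  rw [h1, ← koszulL_apply]
  rw [map_smul, ← hT]
  simp

theorem eq_chris_of_pos (hpos : ∀ v, v ≠ 0 → 0 < G z v v) (u v c : E)
    (hc : ∀ w, 2 * G z c w = koszul G z u v w) : c = chris G z u v := by
  by_contra hne
  have h1 := hpos (c - chris G z u v) (sub_ne_zero.2 hne)
  have h2 := hc (c - chris G z u v)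
  have h3 := chris_spec_of_pos hpos u v (c - chris G z u v)
  have : G z (c - chris G z u v) (c - chris G z u v) = 0 := by
    rw [map_sub (G z), sub_apply]
    linarith only [h2, h3]
  linarith only [h1, this]

namespace LocalRiem

theorem chris_spec (h : LocalRiem G U) (hz : z ∈ U) (u v w : E) :
    2 * G z (chris G z u v) w = koszul G z u v w :=
  chris_spec_of_pos (h.pos z hz) u v w

omit [FiniteDimensional ℝ E] in
theorem differentiableAt (h : LocalRiem G U) (hz : z ∈ U) : DifferentiableAt ℝ G z :=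
  (h.smooth.contDiffAt (h.isOpen.mem_nhds hz)).differentiableAt (by simp)

omit [FiniteDimensional ℝ E] in
theorem contDiffOn_fderiv (h : LocalRiem G U) : ContDiffOn ℝ ∞ (fderiv ℝ G) U :=
  h.smooth.fderiv_of_isOpen h.isOpen (by simp)

omit [FiniteDimensional ℝ E] in
theorem differentiableAt_fderiv (h : LocalRiem G U) (hz : z ∈ U) :
    DifferentiableAt ℝ (fderiv ℝ G) z :=
  (h.contDiffOn_fderiv.contDiffAt (h.isOpen.mem_nhds hz)).differentiableAt (by simp)

omit [FiniteDimensional ℝ E] in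
theorem hasFDerivAt_apply (h : LocalRiem G U) (hz : z ∈ U) (v w : E) :
    HasFDerivAt (fun y => G y v w) (((fderiv ℝ G z).flip v).flip w) z := by
  have := ((h.differentiableAt hz).hasFDerivAt.clm_apply (hasFDerivAt_const v z)).clm_apply
    (hasFDerivAt_const w z)
  convert! this using 1
  ext u
  simp

omit [FiniteDimensional ℝ E] in
theorem hasFDerivAt_fderiv_apply (h : LocalRiem G U) (hz : z ∈ U) (u v w : E) :
    HasFDerivAt (fun y => fderiv ℝ G y u v w)
      ((((fderiv ℝ (fderiv ℝ G) z).flip u).flip v).flip w) z := by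
  have := (((h.differentiableAt_fderiv hz).hasFDerivAt.clm_apply (hasFDerivAt_const u z)).clm_apply
    (hasFDerivAt_const v z)).clm_apply (hasFDerivAt_const w z)
  convert! this using 1
  ext x
  simp

omit [FiniteDimensional ℝ E] in
theorem fderiv_symm (h : LocalRiem G U) (hz : z ∈ U) (u v w : E) :
    fderiv ℝ G z u v w = fderiv ℝ G z u w v := by
  have h3 : (fun y => G y v w) =ᶠ[𝓝 z] (fun y => G y w v) := by
    filter_upwards [h.isOpen.mem_nhds hz] with y hy using h.symm y hy v w
  have h4 := ((h.hasFDerivAt_apply hz v w).congr_of_eventuallyEq h3.symm).unique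
    (h.hasFDerivAt_apply hz w v)
  have := congrArg (fun T => T u) h4
  simpa using this

theorem chris_symm (h : LocalRiem G U) (hz : z ∈ U) (u v : E) :
    chris G z u v = chris G z v u := by
  refine eq_chris_of_pos (h.pos z hz) v u _ (fun w => ?_)
  rw [h.chris_spec hz, koszul, koszul, h.fderiv_symm hz w u v]
  ring

/-- metric compatibility -/
theorem fderiv_eq (h : LocalRiem G U) (hz : z ∈ U) (u v w : E) :
    fderiv ℝ G z u v w = G z (chris G z u v) w + G z v (chris G z u w) := by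
  have h1 := h.chris_spec hz u v w
  have h2 := h.chris_spec hz u w v
  rw [h.symm z hz v]
  simp only [koszul] at h1 h2
  have e1 := h.fderiv_symm hz u v w
  have e2 := h.fderiv_symm hz v u w
  have e3 := h.fderiv_symm hz w u v
  linarith only [h1, h2, e1, e2, e3]

omit [FiniteDimensional ℝ E] in
theorem fderiv2_comm (h : LocalRiem G U) (hz : z ∈ U) (u v : E) :
    fderiv ℝ (fderiv ℝ G) z u v = fderiv ℝ (fderiv ℝ G) z v u := by
  have hs : IsSymmSndFDerivAt ℝ G z :=
    (h.smooth.contDiffAt (h.isOpen.mem_nhds hz)).isSymmSndFDerivAt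
      (by simpa using! (WithTop.coe_le_coe.2 le_top : ((2 : ℕ∞) : WithTop ℕ∞) ≤ ((⊤ : ℕ∞) : WithTop ℕ∞)))
  exact hs.eq u v

omit [FiniteDimensional ℝ E] in
theorem fderiv2_symm (h : LocalRiem G U) (hz : z ∈ U) (u v a b : E) :
    fderiv ℝ (fderiv ℝ G) z u v a b = fderiv ℝ (fderiv ℝ G) z u v b a := by
  have h3 : (fun y => fderiv ℝ G y v a b) =ᶠ[𝓝 z] (fun y => fderiv ℝ G y v b a) := by
    filter_upwards [h.isOpen.mem_nhds hz] with y hy using h.fderiv_symm hy v a b
  have h4 := ((h.hasFDerivAt_fderiv_apply hz v a b).congr_of_eventuallyEq h3.symm).unique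
    (h.hasFDerivAt_fderiv_apply hz v b a)
  have := congrArg (fun T => T u) h4
  simpa using this

theorem contDiffOn_koszulL (h : LocalRiem G U) : ContDiffOn ℝ ∞ (koszulL G) U := by
  have h1 := h.contDiffOn_fderiv
  have hflip : ContDiffOn ℝ ∞ (fun z => (fderiv ℝ G z).flip) U :=
    (ContinuousLinearMap.flipₗᵢ ℝ E E (E →L[ℝ] ℝ)).contDiff.comp_contDiffOn h1
  exact (h1.add hflip).sub (contDiffOn_const.clm_comp hflip)

theorem contDiffOn_chris (h : LocalRiem G U) : ContDiffOn ℝ ∞ (chris G) U := by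
  have : CompleteSpace E := FiniteDimensional.complete ℝ E
  have hinv : ContDiffOn ℝ ∞ (fun z => ContinuousLinearMap.inverse (G z)) U := by
    intro z hz
    obtain ⟨T, hT⟩ := isInvertible_of_pos (h.pos z hz)
    have h1 : ContDiffAt ℝ ∞ ContinuousLinearMap.inverse (G z) := by
      rw [← hT]; exact contDiffAt_map_inverse T
    exact (h1.comp z (h.smooth.contDiffAt (h.isOpen.mem_nhds hz))).contDiffWithinAt
  have h2 : ContDiffOn ℝ ∞ (fun z => ContinuousLinearMap.compL ℝ E (E →L[ℝ] ℝ) E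
      (ContinuousLinearMap.inverse (G z))) U :=
    (ContinuousLinearMap.contDiff _).comp_contDiffOn hinv
  exact (h2.clm_comp h.contDiffOn_koszulL).const_smul (1/2 : ℝ)

theorem hasFDerivAt_chris (h : LocalRiem G U) (hz : z ∈ U) :
    HasFDerivAt (chris G) (fderiv ℝ (chris G) z) z :=
  ((h.contDiffOn_chris.contDiffAt (h.isOpen.mem_nhds hz)).differentiableAt (by simp)).hasFDerivAt

/-- differentiated Koszul formula -/
theorem fderiv_chris (h : LocalRiem G U) (hz : z ∈ U) (u v w y : E) :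
    2 * G z (fderiv ℝ (chris G) z u v w) y =
      fderiv ℝ (fderiv ℝ G) z u v w y + fderiv ℝ (fderiv ℝ G) z u w v y
        - fderiv ℝ (fderiv ℝ G) z u y v w
        - 2 * G z (chris G z u (chris G z v w)) y - 2 * G z (chris G z v w) (chris G z u y) := by
  have h1 : (fun x => 2 * G x (chris G x v w) y) =ᶠ[𝓝 z]
      (fun x => fderiv ℝ G x v w y + fderiv ℝ G x w v y - fderiv ℝ G x y v w) := by
    filter_upwards [h.isOpen.mem_nhds hz] with x hx using h.chris_spec hx v w y
  have h2 : HasFDerivAt (fun x => 2 * G x (chris G x v w) y) _ z :=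
    (((h.differentiableAt hz).hasFDerivAt.clm_apply
      (((h.hasFDerivAt_chris hz).clm_apply (hasFDerivAt_const v z)).clm_apply
        (hasFDerivAt_const w z))).clm_apply (hasFDerivAt_const y z)).const_mul 2
  have h3 := ((h.hasFDerivAt_fderiv_apply hz v w y).add
    (h.hasFDerivAt_fderiv_apply hz w v y)).sub (h.hasFDerivAt_fderiv_apply hz y v w)
  have h4 := (h2.congr_of_eventuallyEq h1.symm).unique h3
  have h5 := congrArg (fun T => T u) h4
  simp at h5
  have h6 := h.fderiv_eq hz u (chris G z v w) y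
  linarith only [h5, h6]

end LocalRiem

end Vale.Agent.P210.R2.H53
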