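import Mathlib.Geometry.Manifold.ContMDiffMFDeriv
import Vale.Agent.P210.R2.H53.Loc
import Vale.Agent.P210.R2.H53.Defs

set_option linter.all false

open scoped Manifold ContDiff Topology Bundle ENNReal
open Set Metric Filter Bundle IsManifold MeasureTheory Manifold

set_option maxSynthPendingDepth 3

noncomputable section

namespace Vale.Agent.P210.R2.H53

section Mid

/-- approximate midpoints (length space) -/
def ApproxMid (X : Type*) [MetricSpace X] : Prop :=
  ∀ x y : X, ∀ s : ℝ, 0 ≤ s → s ≤ dist x y → ∀ ε > 0, ∃ z : X, dist x z = s ∧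
    dist z y ≤ dist x y - s + ε

section

variable {X : Type*} [MetricSpace X]

/-- enlarging a compact ball -/
lemma hr_enlarge [LocallyCompactSpace X] (h : ApproxMid X) (x : X) {r : ℝ} (hr : 0 ≤ r)
    (hc : IsCompact (closedBall x r)) : ∃ r' > r, IsCompact (closedBall x r') := by
  obtain ⟨K, hK, hKi⟩ := exists_compact_superset hc
  obtain ⟨δ, hδ, hδ'⟩ := hc.exists_cthickening_subset_open isOpen_interior hKi
  refine ⟨r + δ / 2, by linarith only [hδ], ?_⟩
  refine hK.of_isClosed_subset isClosed_closedBall ?_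
  intro z hz
  refine interior_subset (hδ' ?_)
  rw [mem_closedBall, dist_comm] at hz
  rcases le_total (dist x z) r with h1 | h1
  · exact self_subset_cthickening _ (by rwa [mem_closedBall, dist_comm])
  · obtain ⟨w, hw1, hw2⟩ := h x z r hr h1 (δ / 2) (by positivity)
    have hw : w ∈ closedBall x r := by rw [mem_closedBall, dist_comm, hw1]
    refine mem_cthickening_of_dist_le z w δ _ hw ?_
    rw [dist_comm]
    linarith only [hz, hw2]

/-- limits of compact balls -/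
lemma hr_limit [CompleteSpace X] (h : ApproxMid X) (x : X) {r : ℝ} (hr : 0 < r)
    (hc : ∀ r' < r, IsCompact (closedBall x r')) : IsCompact (closedBall x r) := by
  refine isCompact_iff_totallyBounded_isComplete.2 ⟨?_, isClosed_closedBall.isComplete⟩
  rw [Metric.totallyBounded_iff]
  intro ε hε
  set r' : ℝ := max (r - ε / 4) 0 with hr'
  have hr'r : r' < r := max_lt (by linarith only [hε]) hr
  have hr'0 : 0 ≤ r' := le_max_right _ _
  have hr'1 : r - ε / 4 ≤ r' := le_max_left _ _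
  obtain ⟨t, ht, htc⟩ := Metric.totallyBounded_iff.1 (hc r' hr'r).totallyBounded (ε / 2)
    (by positivity)
  refine ⟨t, ht, ?_⟩
  intro z hz
  rw [mem_closedBall, dist_comm] at hz
  obtain ⟨w, hw, hwz⟩ : ∃ w ∈ closedBall x r', dist w z < ε / 2 := by
    rcases le_total (dist x z) r' with h1 | h1
    · exact ⟨z, by rwa [mem_closedBall, dist_comm], by rw [dist_self]; positivity⟩
    · obtain ⟨w, hw1, hw2⟩ := h x z r' hr'0 h1 (ε / 8) (by positivity)
      exact ⟨w, by rw [mem_closedBall, dist_comm, hw1], by linarith only [hr'r, hr'1, hz, hw2]⟩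
  obtain ⟨y, hy, hwy⟩ := mem_iUnion₂.1 (htc hw)
  refine mem_iUnion₂.2 ⟨y, hy, ?_⟩
  rw [mem_ball] at hwy ⊢
  have := dist_triangle z w y
  rw [dist_comm z w] at this
  linarith only [hwz, hwy, this]

lemma hr_all [CompleteSpace X] [LocallyCompactSpace X] (h : ApproxMid X) (x : X) (r : ℝ) :
    IsCompact (closedBall x r) := by
  by_contra hcon
  set S : Set ℝ := {r | 0 ≤ r ∧ IsCompact (closedBall x r)} with hS
  have h0 : (0:ℝ) ∈ S := ⟨le_rfl, by simp⟩
  have hdown : ∀ r₁ r₂, r₁ ≤ r₂ → IsCompact (closedBall x r₂) → IsCompact (closedBall x r₁) :=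
    fun r₁ r₂ h12 hc => hc.of_isClosed_subset isClosed_closedBall (closedBall_subset_closedBall h12)
  have hbdd : BddAbove S := by
    refine ⟨r, fun s hs => ?_⟩
    by_contra hlt
    exact hcon (hdown r s (not_le.1 hlt).le hs.2)
  set R : ℝ := sSup S with hR
  have hR0 : 0 ≤ R := le_csSup hbdd h0
  have hlt : ∀ r' < R, IsCompact (closedBall x r') := by
    intro r' hr'
    obtain ⟨s, hs, hs'⟩ := exists_lt_of_lt_csSup ⟨0, h0⟩ hr'
    exact hdown r' s hs'.le hs.2
  have hRS : IsCompact (closedBall x R) := by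
    rcases hR0.eq_or_lt with h1 | h1
    · rw [← h1]; exact h0.2
    · exact hr_limit h x h1 hlt
  obtain ⟨r', hr', hc'⟩ := hr_enlarge h x hR0 hRS
  have : r' ≤ R := le_csSup hbdd ⟨hR0.trans hr'.le, hc'⟩
  linarith only [hr', this]

end

/-- Hopf-Rinow-Cohn-Vossen -/
theorem properSpace_of_complete_of_approxMid {X : Type*} [MetricSpace X] [CompleteSpace X]
    [LocallyCompactSpace X] (h : ApproxMid X) : ProperSpace X :=
  ⟨fun x r => hr_all h x r⟩

theorem exists_mid {X : Type*} [MetricSpace X] [ProperSpace X] (h : ApproxMid X) (x y : X)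
    (s : ℝ) (hs : 0 ≤ s) (hsd : s ≤ dist x y) :
    ∃ z : X, dist x z = s ∧ dist z y = dist x y - s := by
  have hcomp : IsCompact (sphere x s) := isCompact_sphere x s
  obtain ⟨z₀, hz₀, -⟩ := h x y s hs hsd 1 one_pos
  obtain ⟨z, hz, hmin⟩ := hcomp.exists_isMinOn (f := fun z => dist z y)
    ⟨z₀, by rw [mem_sphere, dist_comm, hz₀]⟩ (by fun_prop)
  rw [mem_sphere, dist_comm] at hz
  refine ⟨z, hz, le_antisymm ?_ ?_⟩
  · refine le_of_forall_pos_le_add fun ε hε => ?_
    obtain ⟨w, hw1, hw2⟩ := h x y s hs hsd ε hε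
    exact (hmin (by rw [mem_sphere, dist_comm, hw1] : w ∈ sphere x s)).trans hw2
  · have := dist_triangle x z y
    linarith only [hz, this]


end Mid

section Chart

variable {E : Type*} [NormedAddCommGroup E] [NormedSpace ℝ E]
  {M : Type*} [MetricSpace M] [ChartedSpace E M]
  [RiemannianBundle (fun x : M => TangentSpace 𝓘(ℝ, E) x)]

/-- The metric in a chart as a bilinear form. -/
def chartG (e : OpenPartialHomeomorph M E) (z : E) : E →L[ℝ] E →L[ℝ] ℝ :=
  ContinuousLinearMap.bilinearComp (innerSL ℝ (E := TangentSpace 𝓘(ℝ, E) (e.symm z)))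
    (mfderiv 𝓘(ℝ, E) 𝓘(ℝ, E) e.symm z) (mfderiv 𝓘(ℝ, E) 𝓘(ℝ, E) e.symm z)

theorem chartG_apply (e : OpenPartialHomeomorph M E) (z v w : E) :
    chartG e z v w = chartMetric e z v w := rfl

variable [FiniteDimensional ℝ E] [IsManifold 𝓘(ℝ, E) ∞ M]
  [IsContMDiffRiemannianBundle 𝓘(ℝ, E) ∞ E (fun x : M => TangentSpace 𝓘(ℝ, E) x)]

set_option backward.isDefEq.respectTransparency false in
theorem contDiffOn_chartMetric {e : OpenPartialHomeomorph M E}
    (he : e ∈ maximalAtlas 𝓘(ℝ, E) ∞ M) (v w : E) :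
    ContDiffOn ℝ ∞ (fun z => chartMetric e z v w) e.target := by
  have h1 : ContMDiffOn 𝓘(ℝ, E) 𝓘(ℝ, E) ∞ e.symm e.target :=
    contMDiffOn_symm_of_mem_maximalAtlas he
  have key : ∀ v : E, ContMDiffOn 𝓘(ℝ, E) 𝓘(ℝ, E).tangent ∞
      (fun z : E => (⟨e.symm z, mfderiv 𝓘(ℝ, E) 𝓘(ℝ, E) e.symm z v⟩ : TangentBundle 𝓘(ℝ, E) M))
      e.target := by
    intro v z hz
    have h2 : ContMDiffOn 𝓘(ℝ, E).tangent 𝓘(ℝ, E).tangent ∞
        (tangentMapWithin 𝓘(ℝ, E) 𝓘(ℝ, E) e.symm e.target) (Bundle.TotalSpace.proj ⁻¹' e.target) :=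
      h1.contMDiffOn_tangentMapWithin (by simp) e.open_target.uniqueMDiffOn
    have h3 : ContMDiff 𝓘(ℝ, E) 𝓘(ℝ, E).tangent ∞
        (fun z : E => (⟨z, v⟩ : TangentBundle 𝓘(ℝ, E) E)) :=
      contMDiff_vectorSpace_iff_contDiff (V := fun z : E => (v : TangentSpace 𝓘(ℝ, E) z)) |>.2
        contDiff_const
    have h4 := h2.comp (h3.contMDiffOn (s := e.target)) (fun z hz => hz)
    refine (h4 z hz).congr (fun y hy => ?_) ?_
    · simp only [Function.comp, tangentMapWithin]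
      rw [mfderivWithin_of_isOpen e.open_target hy]
    · simp only [Function.comp, tangentMapWithin]
      rw [mfderivWithin_of_isOpen e.open_target hz]
  have h5 := ContMDiffOn.inner_bundle (IB := 𝓘(ℝ, E)) (IM := 𝓘(ℝ, E)) (n := ∞) (F := E)
    (E := fun x : M => TangentSpace 𝓘(ℝ, E) x) (b := fun z : E => e.symm z)
    (v := fun z : E => mfderiv 𝓘(ℝ, E) 𝓘(ℝ, E) e.symm z v)
    (w := fun z : E => mfderiv 𝓘(ℝ, E) 𝓘(ℝ, E) e.symm z w) (key v) (key w)
  exact contMDiffOn_iff_contDiffOn.1 h5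

theorem contDiffOn_chartG {e : OpenPartialHomeomorph M E}
    (he : e ∈ maximalAtlas 𝓘(ℝ, E) ∞ M) : ContDiffOn ℝ ∞ (chartG e) e.target := by
  rw [contDiffOn_clm_apply]
  intro v
  rw [contDiffOn_clm_apply]
  intro w
  exact contDiffOn_chartMetric he v w

theorem mdifferentiable_chart {e : OpenPartialHomeomorph M E}
    (he : e ∈ maximalAtlas 𝓘(ℝ, E) ∞ M) : e.MDifferentiable 𝓘(ℝ, E) 𝓘(ℝ, E) :=
  ⟨(contMDiffOn_of_mem_maximalAtlas he).mdifferentiableOn (by simp),
    (contMDiffOn_symm_of_mem_maximalAtlas he).mdifferentiableOn (by simp)⟩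

theorem mfderiv_symm_injective {e : OpenPartialHomeomorph M E}
    (he : e ∈ maximalAtlas 𝓘(ℝ, E) ∞ M) {z : E} (hz : z ∈ e.target) :
    Function.Injective (mfderiv 𝓘(ℝ, E) 𝓘(ℝ, E) e.symm z) := by
  have h := (mdifferentiable_chart he).comp_symm_deriv hz
  intro v w hvw
  have := congrArg (fun T => T v) h
  have h2 := congrArg (fun T => T w) h
  simp only [ContinuousLinearMap.comp_apply] at this h2
  rw [hvw] at this
  exact this.symm.trans h2

theorem chartG_symm (e : OpenPartialHomeomorph M E) (z v w : E) :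
    chartG e z v w = chartG e z w v := by
  rw [chartG_apply, chartG_apply, chartMetric, chartMetric]
  exact real_inner_comm _ _

theorem chartG_pos {e : OpenPartialHomeomorph M E}
    (he : e ∈ maximalAtlas 𝓘(ℝ, E) ∞ M) {z : E} (hz : z ∈ e.target) (v : E) (hv : v ≠ 0) :
    0 < chartG e z v v := by
  rw [chartG_apply, chartMetric]
  apply real_inner_self_pos.2
  intro h0
  apply hv
  exact mfderiv_symm_injective he hz (h0.trans (map_zero _).symm)

theorem fderiv_chartMetric {e : OpenPartialHomeomorph M E}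
    (he : e ∈ maximalAtlas 𝓘(ℝ, E) ∞ M) {z : E} (hz : z ∈ e.target) (u v w : E) :
    fderiv ℝ (fun y => chartMetric e y v w) z u = fderiv ℝ (chartG e) z u v w := by
  have hd : DifferentiableAt ℝ (chartG e) z :=
    ((contDiffOn_chartG he).contDiffAt (e.open_target.mem_nhds hz)).differentiableAt (by simp)
  have := (hd.hasFDerivAt.clm_apply (hasFDerivAt_const v z)).clm_apply
    (hasFDerivAt_const w z)
  have h2 : HasFDerivAt (fun y => chartMetric e y v w)
    (((fderiv ℝ (chartG e) z).flip v).flip w) z := by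
    convert! this using 1
    ext x
    simp
  rw [h2.fderiv]
  simp

theorem fderiv2_chartMetric {e : OpenPartialHomeomorph M E}
    (he : e ∈ maximalAtlas 𝓘(ℝ, E) ∞ M) {z : E} (hz : z ∈ e.target) (u v a b : E) :
    fderiv ℝ (fun y => fderiv ℝ (fun x => chartMetric e x a b) y v) z u
      = fderiv ℝ (fderiv ℝ (chartG e)) z u v a b := by
  have hd : DifferentiableAt ℝ (fderiv ℝ (chartG e)) z :=
    (((contDiffOn_chartG he).fderiv_of_isOpen e.open_target (m := ∞) (by simp)).contDiffAt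
      (e.open_target.mem_nhds hz)).differentiableAt (by simp)
  have h1 : (fun y => fderiv ℝ (fun x => chartMetric e x a b) y v) =ᶠ[𝓝 z]
      (fun y => fderiv ℝ (chartG e) y v a b) := by
    filter_upwards [e.open_target.mem_nhds hz] with y hy using fderiv_chartMetric he hy v a b
  have := ((hd.hasFDerivAt.clm_apply (hasFDerivAt_const v z)).clm_apply
    (hasFDerivAt_const a z)).clm_apply (hasFDerivAt_const b z)
  have h2 : HasFDerivAt (fun y => fderiv ℝ (chartG e) y v a b)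
    ((((fderiv ℝ (fderiv ℝ (chartG e)) z).flip v).flip a).flip b) z := by
    convert! this using 1
    ext x
    simp
  rw [h1.fderiv_eq, h2.fderiv]
  simp

theorem isChristoffel_eq {e : OpenPartialHomeomorph M E}
    (he : e ∈ maximalAtlas 𝓘(ℝ, E) ∞ M) {z : E} (hz : z ∈ e.target) {Γ : E → E → E}
    (hΓ : IsChristoffel e z Γ) (u v : E) : Γ u v = chris (chartG e) z u v := by
  refine eq_chris_of_pos (fun v hv => chartG_pos he hz v hv) u v _ (fun w => ?_)
  have := hΓ u v w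
  rw [fderiv_chartMetric he hz, fderiv_chartMetric he hz, fderiv_chartMetric he hz] at this
  exact this

theorem sectNum_eq {e : OpenPartialHomeomorph M E}
    (he : e ∈ maximalAtlas 𝓘(ℝ, E) ∞ M) {z : E} (hz : z ∈ e.target) {Γ : E → E → E}
    (hΓ : IsChristoffel e z Γ) (a b : E) :
    sectNum e z Γ a b = secG (chartG e) z a b := by
  simp only [sectNum, secG, isChristoffel_eq he hz hΓ]
  rw [fderiv2_chartMetric he hz, fderiv2_chartMetric he hz, fderiv2_chartMetric he hz]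
  rfl


end Chart

section Dist

variable {E : Type*} [NormedAddCommGroup E] [NormedSpace ℝ E] [FiniteDimensional ℝ E]
  {M : Type*} [MetricSpace M] [ChartedSpace E M]
  [IsManifold 𝓘(ℝ, E) ∞ M]
  [RiemannianBundle (fun x : M => TangentSpace 𝓘(ℝ, E) x)]
  [IsContMDiffRiemannianBundle 𝓘(ℝ, E) ∞ E (fun x : M => TangentSpace 𝓘(ℝ, E) x)]

omit [FiniteDimensional ℝ E] [RiemannianBundle (fun x : M => TangentSpace 𝓘(ℝ, E) x)]
  [IsContMDiffRiemannianBundle 𝓘(ℝ, E) ∞ E (fun x : M => TangentSpace 𝓘(ℝ, E) x)] in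
/-- Transition maps are smooth. -/
theorem transition_real {e e' : OpenPartialHomeomorph M E}
    (he : e ∈ maximalAtlas 𝓘(ℝ, E) ∞ M) (he' : e' ∈ maximalAtlas 𝓘(ℝ, E) ∞ M) :
    ContDiffOn ℝ ∞ (e' ∘ e.symm) (e.symm.trans e').source := by
  have h := compatible_of_mem_maximalAtlas he he'
  rw [contDiffGroupoid, mem_groupoid_of_pregroupoid] at h
  have h2 := h.1
  simpa [contDiffPregroupoid] using! h2

/-- the metric at a point, on the model space -/
def innerAt (x : M) (v w : E) : ℝ :=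
  inner ℝ (show TangentSpace 𝓘(ℝ, E) x from v) (show TangentSpace 𝓘(ℝ, E) x from w)

/-- derivative of the inverse chart as an endomorphism of the model space -/
def dsymm (e : OpenPartialHomeomorph M E) (z : E) : E →L[ℝ] E :=
  mfderiv 𝓘(ℝ, E) 𝓘(ℝ, E) e.symm z

theorem chartG_eq_innerAt (e : OpenPartialHomeomorph M E) (z v w : E) :
    chartG e z v w = innerAt (e.symm z) (dsymm e z v) (dsymm e z w) := rfl

theorem chartG_change {e e' : OpenPartialHomeomorph M E}
    (her : e ∈ maximalAtlas 𝓘(ℝ, E) ∞ M) (her' : e' ∈ maximalAtlas 𝓘(ℝ, E) ∞ M) {x : M}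
    (hx : x ∈ e.source) (hx' : x ∈ e'.source) (v w : E) :
    chartG e' (e' x) (fderiv ℝ (e' ∘ e.symm) (e x) v) (fderiv ℝ (e' ∘ e.symm) (e x) w)
      = chartG e (e x) v w := by
  have hz : e x ∈ e.target := e.map_source hx
  have hzV : e x ∈ (e.symm ≫ₕ e').source := by simp [hx, hx']
  have h1 : e.symm =ᶠ[𝓝 (e x)] e'.symm ∘ (e' ∘ e.symm) := by
    filter_upwards [(e.symm ≫ₕ e').open_source.mem_nhds hzV] with y hy
    have : e.symm y ∈ e'.source := by simpa using hy.2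
    simp [e'.left_inv this]
  have hd : DifferentiableAt ℝ (e' ∘ e.symm) (e x) :=
    ((transition_real her her').contDiffAt
      ((e.symm ≫ₕ e').open_source.mem_nhds hzV)).differentiableAt (by simp)
  have hpt : (e' ∘ e.symm) (e x) = e' x := by simp [e.left_inv hx]
  have h3 : MDifferentiableAt 𝓘(ℝ, E) 𝓘(ℝ, E) e'.symm ((e' ∘ e.symm) (e x)) := by
    rw [hpt]
    exact ((contMDiffOn_symm_of_mem_maximalAtlas her').contMDiffAt
      (e'.open_target.mem_nhds (e'.map_source hx'))).mdifferentiableAt (by simp)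
  have h2 : dsymm e (e x) = (dsymm e' (e' x)).comp (fderiv ℝ (e' ∘ e.symm) (e x)) := by
    have h4 := mfderiv_comp (e x) h3 hd.mdifferentiableAt
    rw [hpt, mfderiv_eq_fderiv] at h4
    exact (h1.mfderiv_eq).trans h4
  have hv : ∀ v : E, dsymm e (e x) v = dsymm e' (e' x) (fderiv ℝ (e' ∘ e.symm) (e x) v) := by
    intro v
    rw [h2]; rfl
  have hp : e.symm (e x) = e'.symm (e' x) := by rw [e.left_inv hx, e'.left_inv hx']
  rw [chartG_eq_innerAt, chartG_eq_innerAt, hv, hv, hp]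


variable [IsRiemannianManifold 𝓘(ℝ, E) M]

theorem norm_mfderiv_symm (e : OpenPartialHomeomorph M E) (z v : E) :
    ‖mfderiv 𝓘(ℝ, E) 𝓘(ℝ, E) e.symm z v‖ = √(chartG e z v v) := by
  rw [norm_eq_sqrt_real_inner]
  rfl

set_option backward.isDefEq.respectTransparency false in
theorem enorm_mfderivWithin_comp {e : OpenPartialHomeomorph M E}
    (he : e ∈ maximalAtlas 𝓘(ℝ, E) ∞ M) {c : ℝ → E} {s : Set ℝ} {t : ℝ} {c' : E}
    (hs : UniqueDiffWithinAt ℝ s t)
    (hc : HasDerivWithinAt c c' s t) (hct : c t ∈ e.target) :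
    ‖mfderivWithin 𝓘(ℝ, ℝ) 𝓘(ℝ, E) (e.symm ∘ c) s t 1‖ₑ
      = ENNReal.ofReal (√(chartG e (c t) c' c')) := by
  have h1 : mfderivWithin 𝓘(ℝ, ℝ) 𝓘(ℝ, E) (e.symm ∘ c) s t =
      (mfderiv 𝓘(ℝ, E) 𝓘(ℝ, E) e.symm (c t)).comp (mfderivWithin 𝓘(ℝ, ℝ) 𝓘(ℝ, E) c s t) := by
    apply mfderiv_comp_mfderivWithin
    · exact ((contMDiffOn_symm_of_mem_maximalAtlas he).contMDiffAt
        (e.open_target.mem_nhds hct)).mdifferentiableAt (by simp)
    · exact hc.differentiableWithinAt.mdifferentiableWithinAt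
    · rw [uniqueMDiffWithinAt_iff_uniqueDiffWithinAt]
      exact hs
  have h2 : mfderivWithin 𝓘(ℝ, ℝ) 𝓘(ℝ, E) (e.symm ∘ c) s t 1 =
      (mfderiv 𝓘(ℝ, E) 𝓘(ℝ, E) e.symm (c t)) (mfderivWithin 𝓘(ℝ, ℝ) 𝓘(ℝ, E) c s t 1) :=
    congr($h1 1)
  have h3 : mfderivWithin 𝓘(ℝ, ℝ) 𝓘(ℝ, E) c s t 1 = c' := by
    rw [mfderivWithin_eq_fderivWithin, hc.hasFDerivWithinAt.fderivWithin hs]
    exact one_smul ℝ c'
  rw [h2, h3, ← norm_mfderiv_symm, ofReal_norm]

theorem dist_le_chart {e : OpenPartialHomeomorph M E}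
    (he : e ∈ maximalAtlas 𝓘(ℝ, E) ∞ M) {c c' : ℝ → E} {a b : ℝ} (hab : a ≤ b)
    (hc : ∀ t ∈ Icc a b, HasDerivWithinAt c (c' t) (Icc a b) t)
    (hc' : ContinuousOn c' (Icc a b)) (hct : ∀ t ∈ Icc a b, c t ∈ e.target) :
    dist (e.symm (c a)) (e.symm (c b)) ≤ ∫ t in a..b, √(chartG e (c t) (c' t) (c' t)) := by
  rcases hab.eq_or_lt with rfl | hlt
  · simp
  have hud : UniqueDiffOn ℝ (Icc a b) := uniqueDiffOn_Icc hlt
  have hcd : ContDiffOn ℝ 1 c (Icc a b) := by
    rw [contDiffOn_one_iff_derivWithin hud]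
    refine ⟨fun t ht => (hc t ht).differentiableWithinAt, ?_⟩
    exact hc'.congr (fun t ht => (hc t ht).derivWithin (hud t ht))
  have hγ : ContMDiffOn 𝓘(ℝ, ℝ) 𝓘(ℝ, E) 1 (e.symm ∘ c) (Icc a b) :=
    ((contMDiffOn_symm_of_mem_maximalAtlas he).of_le (by simp)).comp
      (contMDiffOn_iff_contDiffOn.2 hcd) hct
  have h1 := riemannianEDist_le_pathELength (I := 𝓘(ℝ, E)) hγ rfl rfl hab
  rw [← IsRiemannianManifold.out (I := 𝓘(ℝ, E)), pathELength_eq_lintegral_mfderivWithin_Icc] at h1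
  have h2 : ∀ t ∈ Icc a b, ‖mfderivWithin 𝓘(ℝ, ℝ) 𝓘(ℝ, E) (e.symm ∘ c) (Icc a b) t 1‖ₑ
      = ENNReal.ofReal (√(chartG e (c t) (c' t) (c' t))) := by
    intro t ht
    exact enorm_mfderivWithin_comp he (hud t ht) (hc t ht) (hct t ht)
  rw [setLIntegral_congr_fun measurableSet_Icc h2] at h1
  have hcont : ContinuousOn (fun t => √(chartG e (c t) (c' t) (c' t))) (Icc a b) := by
    have hcc : ContinuousOn c (Icc a b) := fun t ht => (hc t ht).continuousWithinAt
    have hG : ContinuousOn (fun t => chartG e (c t)) (Icc a b) :=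
      (contDiffOn_chartG he).continuousOn.comp hcc hct
    exact ((hG.clm_apply hc').clm_apply hc').sqrt
  have hint : IntegrableOn (fun t => √(chartG e (c t) (c' t) (c' t))) (Icc a b) :=
    hcont.integrableOn_Icc
  rw [← ofReal_integral_eq_lintegral_ofReal hint (ae_of_all _ fun t => Real.sqrt_nonneg _),
    edist_dist, ENNReal.ofReal_le_ofReal_iff (integral_nonneg fun t => Real.sqrt_nonneg _),
    integral_Icc_eq_integral_Ioc, ← intervalIntegral.integral_of_le hab] at h1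
  exact h1

theorem pathELength_eq_chart {e : OpenPartialHomeomorph M E}
    (he : e ∈ maximalAtlas 𝓘(ℝ, E) ∞ M) {c c' : ℝ → E} {a b : ℝ} (hab : a < b)
    (hc : ∀ t ∈ Icc a b, HasDerivWithinAt c (c' t) (Icc a b) t)
    (hc' : ContinuousOn c' (Icc a b)) (hct : ∀ t ∈ Icc a b, c t ∈ e.target) :
    pathELength 𝓘(ℝ, E) (e.symm ∘ c) a b
      = ENNReal.ofReal (∫ t in a..b, √(chartG e (c t) (c' t) (c' t))) := by
  have hud : UniqueDiffOn ℝ (Icc a b) := uniqueDiffOn_Icc hab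
  rw [pathELength_eq_lintegral_mfderivWithin_Icc]
  have h2 : ∀ t ∈ Icc a b, ‖mfderivWithin 𝓘(ℝ, ℝ) 𝓘(ℝ, E) (e.symm ∘ c) (Icc a b) t 1‖ₑ
      = ENNReal.ofReal (√(chartG e (c t) (c' t) (c' t))) := by
    intro t ht
    exact enorm_mfderivWithin_comp he (hud t ht) (hc t ht) (hct t ht)
  rw [setLIntegral_congr_fun measurableSet_Icc h2]
  have hcont : ContinuousOn (fun t => √(chartG e (c t) (c' t) (c' t))) (Icc a b) := by
    have hcc : ContinuousOn c (Icc a b) := fun t ht => (hc t ht).continuousWithinAt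
    have hG : ContinuousOn (fun t => chartG e (c t)) (Icc a b) :=
      (contDiffOn_chartG he).continuousOn.comp hcc hct
    exact ((hG.clm_apply hc').clm_apply hc').sqrt
  have hint : IntegrableOn (fun t => √(chartG e (c t) (c' t) (c' t))) (Icc a b) :=
    hcont.integrableOn_Icc
  rw [← ofReal_integral_eq_lintegral_ofReal hint (ae_of_all _ fun t => Real.sqrt_nonneg _),
    integral_Icc_eq_integral_Ioc, ← intervalIntegral.integral_of_le hab.le]

/-- Near-minimising curves, seen in a chart. -/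
theorem exists_chart_curve {e : OpenPartialHomeomorph M E}
    (he : e ∈ maximalAtlas 𝓘(ℝ, E) ∞ M) {x y : M} {r ε : ℝ} (hball : ball x r ⊆ e.source)
    (hε : 0 < ε) (hr : dist x y + ε ≤ r) :
    ∃ c c' : ℝ → E, (∀ t ∈ Icc (0:ℝ) 1, HasDerivWithinAt c (c' t) (Icc 0 1) t) ∧
      ContinuousOn c' (Icc 0 1) ∧ c 0 = e x ∧ c 1 = e y ∧
      (∀ t ∈ Icc (0:ℝ) 1, c t ∈ e.target ∧ dist x (e.symm (c t)) < dist x y + ε) ∧
      ∫ t in (0:ℝ)..1, √(chartG e (c t) (c' t) (c' t)) < dist x y + ε := by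
  have hlt : riemannianEDist 𝓘(ℝ, E) x y < ENNReal.ofReal (dist x y + ε) := by
    rw [← IsRiemannianManifold.out (I := 𝓘(ℝ, E)), edist_dist]
    rw [ENNReal.ofReal_lt_ofReal_iff (by positivity)]
    linarith
  obtain ⟨γ, hγ0, hγ1, hγ, hlen⟩ := exists_lt_of_riemannianEDist_lt hlt
  have hdist : ∀ t ∈ Icc (0:ℝ) 1, dist x (γ t) < dist x y + ε := by
    intro t ht
    have h1 := riemannianEDist_le_pathELength (I := 𝓘(ℝ, E))
      (hγ.mono (Icc_subset_Icc le_rfl ht.2)) hγ0 rfl ht.1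
    have h2 : pathELength 𝓘(ℝ, E) γ 0 t ≤ pathELength 𝓘(ℝ, E) γ 0 1 :=
      pathELength_mono le_rfl ht.2
    have h3 := (h1.trans h2).trans_lt hlen
    rw [← IsRiemannianManifold.out (I := 𝓘(ℝ, E)), edist_dist,
      ENNReal.ofReal_lt_ofReal_iff (by positivity)] at h3
    exact h3
  have hsrc : ∀ t ∈ Icc (0:ℝ) 1, γ t ∈ e.source := fun t ht => hball (by
    rw [mem_ball']; exact (hdist t ht).trans_le hr)
  have hcs : ContMDiffOn 𝓘(ℝ, ℝ) 𝓘(ℝ, E) 1 (e ∘ γ) (Icc 0 1) :=
    ((contMDiffOn_of_mem_maximalAtlas he).of_le (by simp)).comp hγ hsrc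
  have hcd : ContDiffOn ℝ 1 (e ∘ γ) (Icc 0 1) := contMDiffOn_iff_contDiffOn.1 hcs
  have hud : UniqueDiffOn ℝ (Icc (0:ℝ) 1) := uniqueDiffOn_Icc one_pos
  have hd : ∀ t ∈ Icc (0:ℝ) 1, HasDerivWithinAt (e ∘ γ) (derivWithin (e ∘ γ) (Icc 0 1) t)
      (Icc 0 1) t := fun t ht =>
    ((hcd.differentiableOn (by simp)) t ht).hasDerivWithinAt
  have hc' : ContinuousOn (derivWithin (e ∘ γ) (Icc 0 1)) (Icc 0 1) :=
    hcd.continuousOn_derivWithin hud (by simp)
  have hct : ∀ t ∈ Icc (0:ℝ) 1, (e ∘ γ) t ∈ e.target := fun t ht => e.map_source (hsrc t ht)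
  refine ⟨e ∘ γ, derivWithin (e ∘ γ) (Icc 0 1), hd, hc', by simp [hγ0], by simp [hγ1],
    fun t ht => ⟨hct t ht, ?_⟩, ?_⟩
  · rw [Function.comp_apply, e.left_inv (hsrc t ht)]
    exact hdist t ht
  · have h1 := pathELength_eq_chart he one_pos hd hc' hct
    have h2 : pathELength 𝓘(ℝ, E) (e.symm ∘ (e ∘ γ)) 0 1 = pathELength 𝓘(ℝ, E) γ 0 1 :=
      pathELength_congr (fun t ht => e.left_inv (hsrc t ht))
    rw [h2] at h1
    rw [h1, ENNReal.ofReal_lt_ofReal_iff (by positivity)] at hlen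
    exact hlen


end Dist

section Glob

theorem approxMid_of_riemannian
    (E : Type*) [NormedAddCommGroup E] [NormedSpace ℝ E] [FiniteDimensional ℝ E]
    (M : Type*) [MetricSpace M] [ChartedSpace E M]
    [IsManifold 𝓘(ℝ, E) ∞ M]
    [RiemannianBundle (fun x : M => TangentSpace 𝓘(ℝ, E) x)]
    [IsContMDiffRiemannianBundle 𝓘(ℝ, E) ∞ E (fun x : M => TangentSpace 𝓘(ℝ, E) x)]
    [IsRiemannianManifold 𝓘(ℝ, E) M] : ApproxMid M := by
  intro x y s hs hsd ε hε
  have hlt : riemannianEDist 𝓘(ℝ, E) x y < ENNReal.ofReal (dist x y + ε) := by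
    rw [← IsRiemannianManifold.out (I := 𝓘(ℝ, E)), edist_dist]
    rw [ENNReal.ofReal_lt_ofReal_iff (by positivity)]
    linarith
  obtain ⟨γ, hγ0, hγ1, hγ, hlen⟩ := exists_lt_of_riemannianEDist_lt hlt
  have hγc : ContinuousOn γ (Icc 0 1) := hγ.continuousOn
  have hcont : ContinuousOn (fun t => dist x (γ t)) (Icc 0 1) := (continuous_const.dist continuous_id).comp_continuousOn hγc
  obtain ⟨t, ht, hts⟩ : s ∈ (fun t => dist x (γ t)) '' Icc (0:ℝ) 1 := by
    apply intermediate_value_Icc zero_le_one hcont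
    simp [hγ0, hγ1, hs, hsd]
  refine ⟨γ t, hts, ?_⟩
  have h1 := riemannianEDist_le_pathELength (I := 𝓘(ℝ, E))
    (hγ.mono (Icc_subset_Icc le_rfl ht.2)) hγ0 rfl ht.1
  have h2 := riemannianEDist_le_pathELength (I := 𝓘(ℝ, E))
    (hγ.mono (Icc_subset_Icc ht.1 le_rfl)) rfl hγ1 ht.2
  have h3 := (add_le_add h1 h2).trans_lt ((pathELength_add ht.1 ht.2).trans_lt hlen)
  rw [← IsRiemannianManifold.out (I := 𝓘(ℝ, E)), ← IsRiemannianManifold.out (I := 𝓘(ℝ, E)),
    edist_dist, edist_dist, ← ENNReal.ofReal_add dist_nonneg dist_nonneg,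
    ENNReal.ofReal_lt_ofReal_iff (by positivity)] at h3
  simp only at hts
  linarith only [hts, h3]

theorem properSpace_riemannian (E : Type*) [NormedAddCommGroup E] [NormedSpace ℝ E]
    [FiniteDimensional ℝ E] (M : Type*) [MetricSpace M] [ChartedSpace E M]
    [IsManifold 𝓘(ℝ, E) ∞ M]
    [RiemannianBundle (fun x : M => TangentSpace 𝓘(ℝ, E) x)]
    [IsContMDiffRiemannianBundle 𝓘(ℝ, E) ∞ E (fun x : M => TangentSpace 𝓘(ℝ, E) x)]
    [IsRiemannianManifold 𝓘(ℝ, E) M] [CompleteSpace M] : ProperSpace M := by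
  have : ProperSpace E := FiniteDimensional.proper ℝ E
  have : LocallyCompactSpace M := ChartedSpace.locallyCompactSpace E M
  exact properSpace_of_complete_of_approxMid (approxMid_of_riemannian E M)


end Glob

end Vale.Agent.P210.R2.H53
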