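import Vale.Agent.P210.R2.H53.TDefs
import Vale.Agent.P210.R2.H53.RSpec
import Vale.Agent.P210.R2.H912.GenQ
import Vale.Agent.P210.R2.H912.Covc

open scoped Manifold ContDiff Topology Bundle ENNReal NNReal
open Set Metric Filter Bundle IsManifold MeasureTheory Manifold Asymptotics

set_option maxSynthPendingDepth 3

noncomputable section

namespace Vale.Agent.P210.R2.H53

section Mfd

variable (E : Type) [NormedAddCommGroup E] [NormedSpace ℝ E]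

/-- The scalar curvature is at least the function `S`. -/
def ScalGEf (M : Type) [MetricSpace M] [ChartedSpace E M]
    [RiemannianBundle (fun x : M => TangentSpace 𝓘(ℝ, E) x)] [IsManifold 𝓘(ℝ, E) ∞ M]
    (S : M → ℝ) : Prop :=
  ∀ e ∈ maximalAtlas 𝓘(ℝ, E) ∞ M, ∀ z ∈ e.target, ∃ Γ, IsChristoffel e z Γ ∧
    ∀ b : Module.Basis (Fin (Module.finrank ℝ E)) ℝ E,
      (∀ i j, chartMetric e z (b i) (b j) = if i = j then 1 else 0) →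
      S (e.symm z) ≤ ∑ i, ∑ j, sectNum e z Γ (b i) (b j)

variable {M : Type} [MetricSpace M] [ChartedSpace E M]
  [RiemannianBundle (fun x : M => TangentSpace 𝓘(ℝ, E) x)]

/-- `∫ (S ψ² + γ |∇ψ|²) ≥ c ∫ ψ²` -/
def Spec [MeasurableSpace M] (μ : Measure M) (S : M → ℝ) (γ c : ℝ) : Prop :=
  ∀ ψ : M → ℝ, LC ψ →
    c * ∫ p, ψ p ^ 2 ∂μ ≤ ∫ p, (S p * ψ p ^ 2 + γ * Gam E ψ ψ p) ∂μ

/-- the function of the twisted products, `a = log w / 2` -/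
def TwS (n : ℕ) (c a φ : M → ℝ) (p : M) : ℝ :=
  c p + 2 * Lap E (fun q => (n - 1) * a q + φ q) p + (n - 1) * (n - 2) * Gam E a a p +
    2 * (n - 2) * Gam E a φ p + Gam E φ φ p

end Mfd

/-- the spectral condition as a property of manifolds with measure -/
def PropS (γ c : ℝ) : H912.PropMu := fun E _ _ _ _ _ M _ _ _ _ _ _ _ _ _ μ =>
  ∃ S : M → ℝ, Continuous S ∧ ScalGEf E M S ∧ Spec E μ S γ c

/-- width in terms of barycentric coordinates -/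
def BW (X : Type) [MetricSpace X] (d : ℕ) (C : ℝ) : Prop :=
  ∃ (V : Type) (lam : V → X → ℝ), TP.Bary X V d lam ∧
    ∀ x y, (∀ v, lam v x = lam v y) → dist x y ≤ C

namespace Stmt

/-- SCXS: the scalar curvature inequality with the spectral condition -/
def SCXS : Prop := ∀ n : ℕ, 2 ≤ n → ∀ γ > 0, ∀ c > 0, ∃ C : ℝ, 1 ≤ C ∧
  ForR fun E _ _ _ _ _ M _ _ _ _ _ _ _ _ _ =>
  Module.finrank ℝ E = n → ∀ (μ : Measure M) (K : ℝ), IsVol E μ → 0 ≤ K → C * K ≤ 1 →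
    RicGE E M (-K) → ∀ S : M → ℝ, Continuous S → ScalGEf E M S → Spec E μ S γ c →
    ∀ (u : Fin (n - 1) → M → ℝ) (Ψ : M → ℝ),
    (∀ i, TF E (u i)) → LC Ψ → (∀ p, 0 ≤ Ψ p) → (∀ p, Ψ p ≠ 0 → ∀ i, Gam E (u i) (u i) p ≤ 4) →
    ∫ p in {p | ∀ i j, |Gam E (u i) (u j) p - (if i = j then 1 else 0)| ≤ 1 / (4 * n)},
      Ψ p ^ 2 ∂μ ≤
    C * ∫ p, (Ψ p ^ 2 * ∑ i, HS E 0 (u i) p + Gam E Ψ Ψ p) ∂μ + C * K * ∫ p, Ψ p ^ 2 ∂μ

/-- ENDS: END with the spectral condition -/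
def ENDS : Prop := ∀ n : ℕ, 3 ≤ n → ∀ γ > 0, ∀ c > 0, H912.ENDQ n (PropS γ c)

/-- FINALS: the width with the spectral condition -/
def FINALS : Prop := ∀ n : ℕ, 3 ≤ n → ∀ γ > 0, ∀ c > 0, ∃ δ > 0, ∃ C : ℝ,
  ForR fun E _ _ _ _ _ M _ _ _ _ _ _ _ _ _ => Module.finrank ℝ E = n →
  ∀ μ : Measure M, IsVol E μ → RicGE E M (-δ) → PropS γ c E M μ → BW M (n - 2) C

/-- SPECF: the spectral condition for the functions of twisted products -/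
def SPECF : Prop := ∀ n : ℕ, 3 ≤ n → ForR fun E _ _ _ _ _ M _ _ _ _ _ _ _ _ _ =>
  ∀ μ : Measure M, IsVol E μ → ∀ (c : ℝ) (b a φ : M → ℝ), Continuous b → (∀ p, c ≤ b p) →
    ContMDiff 𝓘(ℝ, E) 𝓘(ℝ, ℝ) ∞ a → ContMDiff 𝓘(ℝ, E) 𝓘(ℝ, ℝ) ∞ φ →
    Continuous (TwS E n b a φ) ∧ Spec E μ (TwS E n b a φ) 8 c

/-- the standing assumptions for twisted products -/
def ForT (P : ∀ (E : Type) [NormedAddCommGroup E] [NormedSpace ℝ E] [FiniteDimensional ℝ E]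
    (V : Type) [NormedAddCommGroup V] [NormedSpace ℝ V] [FiniteDimensional ℝ V]
    (N : Type) [MetricSpace N] [ChartedSpace E N]
    [RiemannianBundle (fun x : N => TangentSpace 𝓘(ℝ, E) x)] [IsManifold 𝓘(ℝ, E) ∞ N]
    [IsContMDiffRiemannianBundle 𝓘(ℝ, E) ∞ E (fun x : N => TangentSpace 𝓘(ℝ, E) x)]
    [IsRiemannianManifold 𝓘(ℝ, E) N]
    (F : Type) [TopologicalSpace F] [ChartedSpace V F] [IsManifold 𝓘(ℝ, V) ∞ F]
    (M : Type) [MetricSpace M] [ChartedSpace (E × V) M]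
    [RiemannianBundle (fun x : M => TangentSpace 𝓘(ℝ, E × V) x)]
    [IsManifold 𝓘(ℝ, E × V) ∞ M]
    [IsContMDiffRiemannianBundle 𝓘(ℝ, E × V) ∞ (E × V)
      (fun x : M => TangentSpace 𝓘(ℝ, E × V) x)]
    [IsRiemannianManifold 𝓘(ℝ, E × V) M] (_ : N → ℝ)
    (_ : Diffeomorph 𝓘(ℝ, E × V) (𝓘(ℝ, E).prod 𝓘(ℝ, V)) M (N × F) ∞), Prop) : Prop :=
  ∀ (E : Type) [NormedAddCommGroup E] [NormedSpace ℝ E] [FiniteDimensional ℝ E]
    (V : Type) [NormedAddCommGroup V] [NormedSpace ℝ V] [FiniteDimensional ℝ V]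
    (N : Type) [MetricSpace N] [ChartedSpace E N]
    [RiemannianBundle (fun x : N => TangentSpace 𝓘(ℝ, E) x)] [IsManifold 𝓘(ℝ, E) ∞ N]
    [IsContMDiffRiemannianBundle 𝓘(ℝ, E) ∞ E (fun x : N => TangentSpace 𝓘(ℝ, E) x)]
    [IsRiemannianManifold 𝓘(ℝ, E) N]
    (F : Type) [TopologicalSpace F] [ChartedSpace V F] [IsManifold 𝓘(ℝ, V) ∞ F]
    (M : Type) [MetricSpace M] [ChartedSpace (E × V) M]
    [RiemannianBundle (fun x : M => TangentSpace 𝓘(ℝ, E × V) x)]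
    [IsManifold 𝓘(ℝ, E × V) ∞ M]
    [IsContMDiffRiemannianBundle 𝓘(ℝ, E × V) ∞ (E × V)
      (fun x : M => TangentSpace 𝓘(ℝ, E × V) x)]
    [IsRiemannianManifold 𝓘(ℝ, E × V) M] (w : N → ℝ)
    (Φ : Diffeomorph 𝓘(ℝ, E × V) (𝓘(ℝ, E).prod 𝓘(ℝ, V)) M (N × F) ∞),
    ContMDiff 𝓘(ℝ, E) 𝓘(ℝ, ℝ) ∞ w → (∀ x, 0 < w x) → IsTwisted w Φ → P E V N F M w Φ

/-- TWIST: the scalar curvature of twisted products -/
def TWIST : Prop := ForT fun E _ _ _ V _ _ _ N _ _ _ _ _ _ F _ _ _ M _ _ _ _ _ _ w Φ =>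
  1 ≤ Module.finrank ℝ E → ScalGE (E × V) M 1 → ∀ y : F, (Module.finrank ℝ V ≤ 1 ∨
    ∀ x : N, ScalLEAt (fibreMetric Φ x (chartAt V y)) (chartAt V y y) (1 / 2)) →
  ∃ φ : N → ℝ, ContMDiff 𝓘(ℝ, E) 𝓘(ℝ, ℝ) ∞ φ ∧
    ScalGEf E N (TwS E (Module.finrank ℝ E) (fun x => w x / 2)
      (fun x => Real.log (w x) / 2) φ)

/-- the flat form of TWIST: `h`, `r`, `κ` are the metric of the base, the factor and the metrics
of the fibres in charts -/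
def TWFLAT : Prop := ∀ (E : Type) [NormedAddCommGroup E] [NormedSpace ℝ E]
  [FiniteDimensional ℝ E] (V : Type) [NormedAddCommGroup V] [NormedSpace ℝ V]
  [FiniteDimensional ℝ V] (U : Set E) (W : Set V) (h : E → E →L[ℝ] E →L[ℝ] ℝ)
  (r a φ : E → ℝ) (κ : E × V → V →L[ℝ] V →L[ℝ] ℝ) (G : E × V → E × V →L[ℝ] E × V →L[ℝ] ℝ)
  (x : E) (y : V) (n : ℝ) (bE : Module.Basis (Fin (Module.finrank ℝ E)) ℝ E)
  (bV : Module.Basis (Fin (Module.finrank ℝ V)) ℝ V)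
  (b : Module.Basis (Fin (Module.finrank ℝ (E × V))) ℝ (E × V)),
  1 ≤ Module.finrank ℝ E → n = Module.finrank ℝ E → IsOpen W → x ∈ U → y ∈ W → LocalRiem h U →
  ContDiffOn ℝ ∞ r U → (∀ z ∈ U, 0 < r z) → (∀ z ∈ U, a z = Real.log (r z) / 2) →
  (∀ z ∈ U, LocalRiem (fun v => κ (z, v)) W) → ContDiffOn ℝ ∞ κ (U ×ˢ W) →
  (∀ z ∈ U, φ z = Real.log (Matrix.det (Matrix.of fun i j => κ (z, y) (bV i) (bV j))) / 2) →
  (∀ z ∈ U ×ˢ W, ∀ v v', G z v v' = r z.1 * h z.1 v.1 v'.1 + κ z v.2 v'.2) →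
  (∀ i j, h x (bE i) (bE j) = if i = j then 1 else 0) →
  (∀ i j, κ (x, y) (bV i) (bV j) = if i = j then 1 else 0) →
  (∀ i j, G (x, y) (b i) (b j) = if i = j then 1 else 0) →
  ∑ i, ∑ j, secG G (x, y) (b i) (b j) ≤
    ∑ i, ∑ j, secG (fun z => κ (x, z)) y (bV i) (bV j) + (r x)⁻¹ *
    (∑ i, ∑ j, secG h x (bE i) (bE j) - 2 * lapG h (fun z => (n - 1) * a z + φ z) x
      - (n - 1) * (n - 2) * gamG h a a x - 2 * (n - 2) * gamG h a φ x - gamG h φ φ x)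

/-- TWA: TWFLAT without the conformal factor -/
def TWA : Prop := ∀ (E : Type) [NormedAddCommGroup E] [NormedSpace ℝ E]
  [FiniteDimensional ℝ E] (V : Type) [NormedAddCommGroup V] [NormedSpace ℝ V]
  [FiniteDimensional ℝ V] (U : Set E) (W : Set V) (H : E → E →L[ℝ] E →L[ℝ] ℝ) (φ : E → ℝ)
  (κ : E × V → V →L[ℝ] V →L[ℝ] ℝ) (G : E × V → E × V →L[ℝ] E × V →L[ℝ] ℝ)
  (x : E) (y : V) (bE : Module.Basis (Fin (Module.finrank ℝ E)) ℝ E)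
  (bV : Module.Basis (Fin (Module.finrank ℝ V)) ℝ V)
  (b : Module.Basis (Fin (Module.finrank ℝ (E × V))) ℝ (E × V)),
  IsOpen W → x ∈ U → y ∈ W → LocalRiem H U →
  (∀ z ∈ U, LocalRiem (fun v => κ (z, v)) W) → ContDiffOn ℝ ∞ κ (U ×ˢ W) →
  (∀ z ∈ U, φ z = Real.log (Matrix.det (Matrix.of fun i j => κ (z, y) (bV i) (bV j))) / 2) →
  (∀ z ∈ U ×ˢ W, ∀ v v', G z v v' = H z.1 v.1 v'.1 + κ z v.2 v'.2) →
  (∀ i j, H x (bE i) (bE j) = if i = j then 1 else 0) →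
  (∀ i j, κ (x, y) (bV i) (bV j) = if i = j then 1 else 0) →
  (∀ i j, G (x, y) (b i) (b j) = if i = j then 1 else 0) →
  ∑ i, ∑ j, secG G (x, y) (b i) (b j) ≤
    ∑ i, ∑ j, secG (fun z => κ (x, z)) y (bV i) (bV j) +
    (∑ i, ∑ j, secG H x (bE i) (bE j) - 2 * lapG H φ x - gamG H φ φ x)

/-- TWB: conformal change -/
def TWB : Prop := ∀ (E : Type) [NormedAddCommGroup E] [NormedSpace ℝ E]
  [FiniteDimensional ℝ E] (U : Set E) (h : E → E →L[ℝ] E →L[ℝ] ℝ) (r a : E → ℝ) (x : E) (n : ℝ)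
  (bE bH : Module.Basis (Fin (Module.finrank ℝ E)) ℝ E),
  n = Module.finrank ℝ E → x ∈ U → LocalRiem h U → ContDiffOn ℝ ∞ r U → (∀ z ∈ U, 0 < r z) →
  (∀ z ∈ U, a z = Real.log (r z) / 2) →
  (∀ i j, h x (bE i) (bE j) = if i = j then 1 else 0) →
  (∀ i j, r x * h x (bH i) (bH j) = if i = j then 1 else 0) →
  ∑ i, ∑ j, secG (fun z => r z • h z) x (bH i) (bH j) = (r x)⁻¹ *
    (∑ i, ∑ j, secG h x (bE i) (bE j) - 2 * (n - 1) * lapG h a x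
      - (n - 1) * (n - 2) * gamG h a a x) ∧
  (∀ φ : E → ℝ, ContDiffOn ℝ ∞ φ U →
    lapG (fun z => r z • h z) φ x = (r x)⁻¹ * (lapG h φ x + (n - 2) * gamG h a φ x)) ∧
  ∀ φ ψ : E → ℝ, gamG (fun z => r z • h z) φ ψ x = (r x)⁻¹ * gamG h φ ψ x

/-- SLICE: the slices are not longer than in the base; completeness of the base -/
def SLICE : Prop := ForT fun E _ _ _ V _ _ _ N _ _ _ _ _ _ F _ _ _ M _ _ _ _ _ _ w Φ =>
  (∀ Λ : ℝ, 0 ≤ Λ → (∀ x, w x ≤ Λ ^ 2) → ∀ (x x' : N) (y : F),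
    dist (Φ.symm (x, y)) (Φ.symm (x', y)) ≤ Λ * dist x x') ∧
  (∀ Λ : ℝ, 0 ≤ Λ → (∀ x, w x ≤ Λ ^ 2) → CompleteSpace M → Nonempty F → CompleteSpace N)

/-- PRODB: products of barycentric coordinates and complexes -/
def PRODB : Prop := (∀ (X V W : Type) [TopologicalSpace X] (d k : ℕ) (lam : V → X → ℝ)
  (mu : W → X → ℝ), TP.Bary X V d lam → TP.Bary X W k mu →
  ∃ nu : V × W → X → ℝ, TP.Bary X (V × W) (d + k) nu ∧
    ∀ x y, (∀ p, nu p x = nu p y) → (∀ v, lam v x = lam v y) ∧ ∀ v, mu v x = mu v y) ∧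
  (∀ (X F : Type) [TopologicalSpace X] [LocallyCompactSpace X] [TopologicalSpace F] (k : ℕ)
    (q : X → F), Continuous q → EmbedsLE F k → ∃ (W : Type) (mu : W → X → ℝ), TP.Bary X W k mu ∧
    ∀ x y, (∀ v, mu v x = mu v y) → q x = q y)

/-- FINALT: the theorem on twisted products -/
def FINALT : Prop := ∀ m : ℕ, 3 ≤ m → ∀ Λ > 0, ∃ δ > 0, ∃ C : ℝ, ∀ n k : ℕ, 3 ≤ n →
  n + k = m → ForT fun E _ _ _ V _ _ _ N _ _ _ _ _ _ F _ _ _ M _ _ _ _ _ _ w Φ =>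
  Module.finrank ℝ E = n → Module.finrank ℝ V = k → CompleteSpace M →
  (∀ x, Λ⁻¹ ≤ w x ∧ w x ≤ Λ) → EmbedsLE F k → RicGE E N (-δ) → ScalGE (E × V) M 1 →
  (k ≤ 1 ∨ ∃ y : F, ∀ x : N,
    ScalLEAt (fibreMetric Φ x (chartAt V y)) (chartAt V y y) (1 / 2)) →
  UrysohnWidthLE M (m - 2) C

end Stmt

end Vale.Agent.P210.R2.H53
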