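import Vale.Agent.P210.R2.H53.Base
import Vale.Agent.P210.R2.H53.StmtMod

open scoped Manifold ContDiff Topology Bundle
open Set Metric Filter Bundle IsManifold MeasureTheory Manifold Asymptotics

set_option maxSynthPendingDepth 3

noncomputable section

namespace Vale.Agent.P210.R2.H53

/-- unit speed minimal geodesic on `[a, b]` -/
def MinGeo {X : Type*} [MetricSpace X] (c : ℝ → X) (a b : ℝ) : Prop :=
  ∀ s ∈ Icc a b, ∀ t ∈ Icc a b, dist (c s) (c t) = |s - t|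

section Jets

variable {E : Type} [NormedAddCommGroup E] [NormedSpace ℝ E]
  {M : Type} [MetricSpace M] [ChartedSpace E M]
  [RiemannianBundle (fun x : M => TangentSpace 𝓘(ℝ, E) x)]

/-- `p` is a curve through `e.symm z` with velocity `v` and no acceleration at time `0`. -/
def IsJet (e : OpenPartialHomeomorph M E) (z v : E) (p : ℝ → M) : Prop :=
  ContinuousAt p 0 ∧ p 0 = e.symm z ∧
    (fun r : ℝ => e (p r) - (z + r • v - (r ^ 2 / 2) • chris (chartG e) z v v)) =o[𝓝 0]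
      fun r : ℝ => r ^ 2

/-- second order upper bound of the distance to `q` -/
def SecUB (q : M) (e : OpenPartialHomeomorph M E) (z v : E) (B : ℝ) : Prop :=
  ∀ p : ℝ → M, IsJet e z v p → ∀ η > 0, ∀ᶠ r in 𝓝[>] (0 : ℝ),
    dist q (p r) + dist q (p (-r)) ≤ 2 * dist q (e.symm z) + r ^ 2 * (B + η)

/-- first order upper bound of the distance to `q` -/
def FirUB (q : M) (e : OpenPartialHomeomorph M E) (z v : E) (α : ℝ) : Prop :=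
  ∀ p : ℝ → M, IsJet e z v p → ∃ C : ℝ, ∀ᶠ r in 𝓝 (0 : ℝ),
    dist q (p r) ≤ dist q (e.symm z) + r * α + C * r ^ 2

/-- `c` is a unit speed geodesic of the chart `e` at the time `t`, with velocity `c'`. -/
def GeoAt (e : OpenPartialHomeomorph M E) (c c' : ℝ → E) (t : ℝ) : Prop :=
  HasDerivAt c (c' t) t ∧ HasDerivAt c' (-(chris (chartG e) (c t) (c' t) (c' t))) t ∧
    c t ∈ e.target ∧ chartG e (c t) (c' t) (c' t) = 1

end Jets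

namespace Stmt

/-- the standing assumptions, as one abbreviation for a property of manifolds -/
def ForAll (P : ∀ (E : Type) [NormedAddCommGroup E] [NormedSpace ℝ E] [FiniteDimensional ℝ E]
    (M : Type) [MetricSpace M] [ChartedSpace E M]
    [RiemannianBundle (fun x : M => TangentSpace 𝓘(ℝ, E) x)]
    [IsManifold 𝓘(ℝ, E) ∞ M]
    [IsContMDiffRiemannianBundle 𝓘(ℝ, E) ∞ E (fun x : M => TangentSpace 𝓘(ℝ, E) x)]
    [IsRiemannianManifold 𝓘(ℝ, E) M], Prop) : Prop :=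
  ∀ (E : Type) [NormedAddCommGroup E] [NormedSpace ℝ E] [FiniteDimensional ℝ E]
    (M : Type) [MetricSpace M] [ChartedSpace E M]
    [RiemannianBundle (fun x : M => TangentSpace 𝓘(ℝ, E) x)]
    [IsManifold 𝓘(ℝ, E) ∞ M]
    [IsContMDiffRiemannianBundle 𝓘(ℝ, E) ∞ E (fun x : M => TangentSpace 𝓘(ℝ, E) x)]
    [IsRiemannianManifold 𝓘(ℝ, E) M], P E M

/-- JET: change of charts, comparison, first order control of the distance in a chart -/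
def JET : Prop := ForAll fun E _ _ _ M _ _ _ _ _ _ =>
  (∀ e ∈ maximalAtlas 𝓘(ℝ, E) ∞ M, ∀ e' ∈ maximalAtlas 𝓘(ℝ, E) ∞ M, ∀ z ∈ e.target,
    e.symm z ∈ e'.source → ∀ (v : E) (p : ℝ → M), IsJet e z v p →
    IsJet e' (e' (e.symm z)) (fderiv ℝ (e' ∘ e.symm) z v) p) ∧
  (∀ e ∈ maximalAtlas 𝓘(ℝ, E) ∞ M, ∀ z ∈ e.target, ∀ (v : E) (p p' : ℝ → M),
    IsJet e z v p → IsJet e z v p' →
    (fun r : ℝ => dist (p r) (p' r)) =o[𝓝 0] fun r : ℝ => r ^ 2) ∧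
  (∀ e ∈ maximalAtlas 𝓘(ℝ, E) ∞ M, ∀ z ∈ e.target, ∀ ε > 0, ∀ᶠ y in 𝓝 (z, z),
    dist (e.symm y.1) (e.symm y.2) ≤
      (1 + ε) * √(chartG e z (y.1 - y.2) (y.1 - y.2))) ∧
  (∀ e ∈ maximalAtlas 𝓘(ℝ, E) ∞ M, ∀ (c c' : ℝ → E), (∀ᶠ t in 𝓝 0, GeoAt e c c' t) →
    IsJet e (c 0) (c' 0) (fun r => e.symm (c r)))

/-- GEO: existence and regularity of minimal geodesics -/
def GEO : Prop := ForAll fun E _ _ _ M _ _ _ _ _ _ =>
  (CompleteSpace M → ConnectedSpace M → ProperSpace M ∧ ∀ x y : M, ∃ c : ℝ → M,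
    MinGeo c 0 (dist x y) ∧ c 0 = x ∧ c (dist x y) = y) ∧
  (∀ (c : ℝ → M) (a b s₀ : ℝ), a < b → MinGeo c a b → s₀ ∈ Icc a b →
    ∀ e ∈ maximalAtlas 𝓘(ℝ, E) ∞ M, c s₀ ∈ e.source →
    ∃ δ > 0, ∃ w w' : ℝ → E, (∀ t, |t - s₀| < δ → GeoAt e w w' t) ∧
      ∀ t ∈ Icc a b, |t - s₀| < δ → c t ∈ e.source ∧ e (c t) = w t) ∧
  (∀ (x : M), ∀ e ∈ maximalAtlas 𝓘(ℝ, E) ∞ M, x ∈ e.source → ∃ r > 0, ∃ V : M × M → E,
    ContinuousOn V {y | dist y.1 x < r ∧ dist y.2 x < r ∧ y.1 ≠ y.2} ∧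
    ∀ (c : ℝ → M) (s h : ℝ), 0 < h → MinGeo c s (s + h) → dist (c s) x < r →
      dist (c (s + h)) x < r →
      HasDerivWithinAt (fun t => e (c t)) (V (c s, c (s + h))) (Icc s (s + h)) s)

/-- CMP: comparison in metric spaces from the Hessian bound (pure metric geometry) -/
def CMP : Prop :=
  ∀ ε : ℝ, 0 < ε → ∃ τ : ℝ, 0 < τ ∧ ∀ (X : Type) [MetricSpace X] (κ T : ℝ), 0 < κ → 0 < T →
    κ * T ≤ τ →
    (∀ x y : X, ∃ c : ℝ → X, MinGeo c 0 (dist x y) ∧ c 0 = x ∧ c (dist x y) = y) →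
    (∀ (q : X) (c : ℝ → X) (a b s₀ : ℝ), MinGeo c a b → s₀ ∈ Ioo a b → q ≠ c s₀ →
      ∃ α : ℝ, |α| ≤ 1 ∧
        (∀ η > 0, ∀ᶠ r in 𝓝[>] (0 : ℝ), dist q (c (s₀ + r)) + dist q (c (s₀ - r)) ≤
          2 * dist q (c s₀) +
            r ^ 2 * ((1 / dist q (c s₀) + κ ^ 2 * dist q (c s₀)) * (1 - α ^ 2) + η)) ∧
        ∃ C : ℝ, ∀ᶠ r in 𝓝 (0 : ℝ), dist q (c (s₀ + r)) ≤ dist q (c s₀) + r * α + C * r ^ 2) →
    (∀ (o x y x' y' : X) (s : ℝ), s ∈ Ioc (0 : ℝ) 1 → dist o x ≤ T → dist o y ≤ T →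
      dist o x' = s * dist o x → dist x' x = (1 - s) * dist o x →
      dist o y' = s * dist o y → dist y' y = (1 - s) * dist o y →
      s * (1 - ε) * dist x y ≤ dist x' y') ∧
    (∀ (c₁ c₂ : ℝ → X) (a b t : ℝ), MinGeo c₁ 0 a → MinGeo c₂ 0 b → c₁ 0 = c₂ 0 → 0 < t →
      t ≤ a → t ≤ b → a ≤ T → b ≤ T →
      dist (c₁ a) (c₂ b) ^ 2 ≤
        (1 + ε) * ((a - b) ^ 2 + a * b * (dist (c₁ t) (c₂ t) / t) ^ 2))

/-- HESS: Hessian comparison for the distance, from a lower curvature bound -/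
def HESS : Prop := ForAll fun E _ _ _ M _ _ _ _ _ _ =>
  ∀ κ : ℝ, 0 < κ → SecGE E M (-κ ^ 2) → ∀ (c : ℝ → M) (ℓ : ℝ), 0 < ℓ → MinGeo c 0 ℓ →
    ∀ e ∈ maximalAtlas 𝓘(ℝ, E) ∞ M, c ℓ ∈ e.source → ∃ b : E,
      chartG e (e (c ℓ)) b b = 1 ∧
      HasDerivWithinAt (fun t => e (c t)) b (Icc 0 ℓ) ℓ ∧
      ∀ v : E,
        SecUB (c 0) e (e (c ℓ)) v ((1 / ℓ + κ ^ 2 * ℓ) *
          (chartG e (e (c ℓ)) v v - chartG e (e (c ℓ)) b v ^ 2)) ∧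
        FirUB (c 0) e (e (c ℓ)) v (chartG e (e (c ℓ)) b v)

/-- STEP: variation along a geodesic segment contained in a chart -/
def STEP : Prop := ForAll fun E _ _ _ M _ _ _ _ _ _ =>
  ∀ e ∈ maximalAtlas 𝓘(ℝ, E) ∞ M, ∀ (q : M) (c c' X X' : ℝ → E) (a b : ℝ), a < b →
    (∀ t ∈ Icc a b, GeoAt e c c' t) →
    (∀ t ∈ Icc a b, HasDerivWithinAt X (X' t) (Icc a b) t) → ContinuousOn X' (Icc a b) →
    dist q (e.symm (c b)) = dist q (e.symm (c a)) + (b - a) →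
    (∀ B : ℝ, SecUB q e (c a) (X a) B → SecUB q e (c b) (X b) (B + ∫ t in a..b,
      (chartG e (c t) (X' t + chris (chartG e) (c t) (c' t) (X t))
          (X' t + chris (chartG e) (c t) (c' t) (X t))
        - chartG e (c t) (c' t) (X' t + chris (chartG e) (c t) (c' t) (X t)) ^ 2
        - secG (chartG e) (c t) (X t) (c' t)))) ∧
    (X a = 0 → FirUB q e (c b) (X b) (chartG e (c b) (c' b) (X b)))

/-- SVI: second variation integral inequality along minimal geodesics -/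
def SVI : Prop := ForAll fun E _ _ _ M _ _ _ _ _ _ =>
  ∀ κ : ℝ, 0 < κ → SecGE E M (-κ ^ 2) → ∀ (c : ℝ → M) (ℓ θ : ℝ) (F : ℝ → ℝ), 0 < ℓ → 0 < θ →
    θ ≤ 1 / 8 → MinGeo c 0 ℓ → ContinuousOn F (Ioo 0 ℓ) →
    (∀ s ∈ Ioo 0 ℓ, ∀ e ∈ maximalAtlas 𝓘(ℝ, E) ∞ M, c s ∈ e.source → ∀ v : E,
      HasDerivAt (fun t => e (c t)) v s →
      ∀ b : Module.Basis (Fin (Module.finrank ℝ E)) ℝ E,
        (∀ i j, chartG e (e (c s)) (b i) (b j) = if i = j then 1 else 0) →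
        ∑ i, secG (chartG e) (e (c s)) (b i) v = F s) →
    ∫ s in Icc ((1 - 4 * θ) * ℓ) ((1 - θ) * ℓ), (F s + (Module.finrank ℝ E - 1) * κ ^ 2) ≤
      2 * Module.finrank ℝ E / (θ * ℓ) + 5 * Module.finrank ℝ E * κ ^ 2 * θ * ℓ

/-- RICF: the Ricci curvature in the direction of the gradient of the distance to `p` -/
def RICF : Prop := ForAll fun E _ _ _ M _ _ _ _ _ _ =>
  ∀ κ : ℝ, 0 < κ → SecGE E M (-κ ^ 2) → CompleteSpace M → ∀ p : M, ∃ f : M → ℝ,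
    (∀ z, 0 ≤ f z) ∧
    (∀ (c : ℝ → M) (ℓ s : ℝ), MinGeo c 0 ℓ → c 0 = p → s ∈ Ioo 0 ℓ →
      ∀ e ∈ maximalAtlas 𝓘(ℝ, E) ∞ M, c s ∈ e.source → ∀ v : E,
      HasDerivAt (fun t => e (c t)) v s →
      ∀ b : Module.Basis (Fin (Module.finrank ℝ E)) ℝ E,
        (∀ i j, chartG e (e (c s)) (b i) (b j) = if i = j then 1 else 0) →
        ∑ i, secG (chartG e) (e (c s)) (b i) v = f (c s) - (Module.finrank ℝ E - 1) * κ ^ 2) ∧
    ∀ (q : M) (ρ θ : ℝ), 0 < θ → θ ≤ 1 / 2 → ρ < dist p q →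
      ContinuousOn f {z | ∃ w, dist w q ≤ ρ ∧ ∃ s ∈ Icc (1 / 2 : ℝ) (1 - θ),
        dist p z = s * dist p w ∧ dist z w = (1 - s) * dist p w}

/-- ONE: the one scale lemma -/
def ONE : Prop :=
  ∀ n : ℕ, 3 ≤ n → ∃ κ : ℝ, 0 < κ ∧ κ ≤ 1 / 8 ∧ ∃ L : ℕ, 2 * (L : ℝ) * κ ^ (n - 1) ≤ 1 ∧
    ∃ T₀ : ℝ, 0 < T₀ ∧ ∀ T ≥ T₀, ∃ δ > 0, ForAll fun E _ _ _ M _ _ _ _ _ _ =>
      Module.finrank ℝ E = n → CompleteSpace M → SecGE E M (-δ) → ScalGE E M 1 →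
      ∀ t ∈ Icc T₀ T, ∀ (q : M) (s : Finset M), (∀ x ∈ s, dist x q ≤ t) →
        (∀ x ∈ s, ∀ y ∈ s, x ≠ y → κ * t ≤ dist x y) → s.card ≤ L

/-- FINAL: the theorem -/
def FINAL : Prop :=
  ∀ n : ℕ, 3 ≤ n → ∃ δ > 0, ∃ C : ℝ, ForAll fun E _ _ _ M _ _ _ _ _ _ =>
    Module.finrank ℝ E = n → CompleteSpace M → SecGE E M (-δ) → ScalGE E M 1 →
      UrysohnWidthLE M (n - 2) C

end Stmt

end Vale.Agent.P210.R2.H53
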