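import Vale.Agent.P210.R2.H53.Var
import Vale.Agent.P210.R2.H53.SpecR

set_option linter.all false

open scoped Manifold ContDiff Topology Bundle
open Set Metric Filter Bundle IsManifold MeasureTheory Manifold Asymptotics

set_option maxSynthPendingDepth 3

noncomputable section

namespace Vale.Agent.P210.R2.H53

variable {E : Type} [NormedAddCommGroup E] [NormedSpace ℝ E] [FiniteDimensional ℝ E]
  {M : Type} [MetricSpace M] [ChartedSpace E M]
  [RiemannianBundle (fun x : M => TangentSpace 𝓘(ℝ, E) x)]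
  [IsManifold 𝓘(ℝ, E) ∞ M]
  [IsContMDiffRiemannianBundle 𝓘(ℝ, E) ∞ E (fun x : M => TangentSpace 𝓘(ℝ, E) x)]
  [IsRiemannianManifold 𝓘(ℝ, E) M]

theorem localRiem_chartG {e : OpenPartialHomeomorph M E}
    (he : e ∈ maximalAtlas 𝓘(ℝ, E) ∞ M) : LocalRiem (chartG e) e.target :=
  ⟨e.open_target, contDiffOn_chartG he, fun z _ v w => chartG_symm e z v w,
    fun z hz v hv => chartG_pos he hz v hv⟩

omit [IsManifold 𝓘(ℝ, E) ∞ M]
  [IsContMDiffRiemannianBundle 𝓘(ℝ, E) ∞ E (fun x : M => TangentSpace 𝓘(ℝ, E) x)]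
  [IsRiemannianManifold 𝓘(ℝ, E) M] in
theorem isJet_vc (e : OpenPartialHomeomorph M E) (c X : ℝ → E) {t : ℝ} (ht : c t ∈ e.target) :
    IsJet e (c t) (X t) (fun r => e.symm (vc (chartG e) c X r t)) := by
  have h0 : vc (chartG e) c X 0 t = c t := by simp [vc]
  have hcont : ContinuousAt (fun r : ℝ => vc (chartG e) c X r t) 0 := by
    unfold vc
    exact Continuous.continuousAt (by fun_prop)
  have hs : ContinuousAt e.symm (vc (chartG e) c X 0 t) := by
    rw [h0]
    exact e.symm.continuousAt (by simpa using! ht)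
  refine ⟨ContinuousAt.comp (f := fun r : ℝ => vc (chartG e) c X r t) hs hcont, ?_, ?_⟩
  · simp only [h0]
  · have hev : ∀ᶠ r in 𝓝 (0 : ℝ), vc (chartG e) c X r t ∈ e.target := by
      apply hcont.eventually_mem
      rw [h0]
      exact e.open_target.mem_nhds ht
    refine (isLittleO_zero (fun r : ℝ => r ^ 2) (𝓝 0)).congr' ?_ EventuallyEq.rfl
    filter_upwards [hev] with r hr
    rw [e.right_inv hr]
    simp only [vc, sub_self]

theorem eventually_dist_jets (hJ : Stmt.JET) {e : OpenPartialHomeomorph M E}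
    (he : e ∈ maximalAtlas 𝓘(ℝ, E) ∞ M) {z v : E} (hz : z ∈ e.target) {p p' : ℝ → M}
    (hp : IsJet e z v p) (hp' : IsJet e z v p') {η : ℝ} (hη : 0 < η) :
    ∀ᶠ r in 𝓝 (0 : ℝ), dist (p r) (p' r) ≤ η * r ^ 2 ∧ dist (p (-r)) (p' (-r)) ≤ η * r ^ 2 := by
  have h := (hJ E M).2.1 e he z hz v p p' hp hp'
  have h1 := h.bound hη
  have h2 := (continuous_neg.tendsto' (0:ℝ) 0 neg_zero).eventually h1
  filter_upwards [h1, h2] with r hr hr'
  rw [Real.norm_of_nonneg dist_nonneg, Real.norm_of_nonneg (sq_nonneg _)] at hr hr'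
  rw [neg_sq] at hr'
  exact ⟨hr, hr'⟩

theorem cf_of_geoAt {e : OpenPartialHomeomorph M E} {c c' X X' : ℝ → E} {a b : ℝ}
    (hg : ∀ t ∈ Icc a b, GeoAt e c c' t)
    (hX : ∀ t ∈ Icc a b, HasDerivWithinAt X (X' t) (Icc a b) t)
    (hX' : ContinuousOn X' (Icc a b)) : LocalRiem.CF e.target c c' X X' a b :=
  ⟨fun t ht => (hg t ht).1.hasDerivWithinAt,
    fun t ht => (hg t ht).2.1.continuousAt.continuousWithinAt,
    fun t ht => (hg t ht).2.2.1, hX, hX'⟩

theorem eventually_dist_vc {e : OpenPartialHomeomorph M E}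
    (he : e ∈ maximalAtlas 𝓘(ℝ, E) ∞ M) {c c' X X' : ℝ → E} {a b : ℝ} (hab : a ≤ b)
    (H : LocalRiem.CF e.target c c' X X' a b)
    (hu : ∀ t ∈ Icc a b, chartG e (c t) (c' t) (c' t) = 1) :
    ∀ᶠ r in 𝓝 (0 : ℝ), dist (e.symm (vc (chartG e) c X r a)) (e.symm (vc (chartG e) c X r b)) ≤
      ∫ t in a..b, sf (chartG e) (vc (chartG e) c X r t, vc' (chartG e) c c' X X' r t) := by
  have hL := localRiem_chartG he
  filter_upwards [hL.eventually_dom H hu] with r hr
  exact dist_le_chart he hab (fun t ht => hL.hasDerivWithinAt_vc H r ht)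
    (hL.continuousOn_vc' H r) (fun t ht => (hr t ht).1)

theorem step_holds (hJ : Stmt.JET) : Stmt.STEP := by
  intro E _ _ _ M _ _ _ _ _ _ e he q c c' X X' a b hab hg hX hX' hq
  have hL := localRiem_chartG he
  have H := cf_of_geoAt hg hX hX'
  have hu : ∀ t ∈ Icc a b, chartG e (c t) (c' t) (c' t) = 1 := fun t ht => (hg t ht).2.2.2
  have hga : ∀ t ∈ Icc a b,
      HasDerivWithinAt c' (-(chris (chartG e) (c t) (c' t) (c' t))) (Icc a b) t :=
    fun t ht => (hg t ht).2.1.hasDerivWithinAt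
  have hat : c a ∈ e.target := H.hU a (left_mem_Icc.2 hab.le)
  have hbt : c b ∈ e.target := H.hU b (right_mem_Icc.2 hab.le)
  refine ⟨?_, ?_⟩
  · intro B hB p hp η hη
    have h1 := hB _ (isJet_vc e c X hat) (η / 4) (by positivity)
    have h2 := eventually_dist_jets hJ he hbt hp (isJet_vc e c X hbt) (η := η / 8) (by positivity)
    have h3 := eventually_dist_vc he hab.le H hu
    have h4 := (continuous_neg.tendsto' (0:ℝ) 0 neg_zero).eventually h3
    have h5 := hL.variation2 hab.le H hu (η := η / 4) (by positivity)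
    filter_upwards [h1, nhdsWithin_le_nhds h2, nhdsWithin_le_nhds h3, nhdsWithin_le_nhds h4,
      nhdsWithin_le_nhds h5] with r r1 r2 r3 r4 r5
    rw [hq]
    have d1 : dist q (p r) ≤ dist q (e.symm (vc (chartG e) c X r a)) +
        dist (e.symm (vc (chartG e) c X r a)) (e.symm (vc (chartG e) c X r b)) +
        dist (p r) (e.symm (vc (chartG e) c X r b)) := by
      rw [dist_comm (p r)]
      exact dist_triangle4 _ _ _ _
    have d2 : dist q (p (-r)) ≤ dist q (e.symm (vc (chartG e) c X (-r) a)) +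
        dist (e.symm (vc (chartG e) c X (-r) a)) (e.symm (vc (chartG e) c X (-r) b)) +
        dist (p (-r)) (e.symm (vc (chartG e) c X (-r) b)) := by
      rw [dist_comm (p (-r))]
      exact dist_triangle4 _ _ _ _
    have r21 := r2.1
    have r22 := r2.2
    linarith only [d1, d2, r1, r21, r22, r3, r4, r5, mul_nonneg hη.le (sq_nonneg r)]
  · intro hXa p hp
    obtain ⟨C, hC⟩ := hL.variation1 hab.le H hu hga
    refine ⟨C + 1, ?_⟩
    have h2 := eventually_dist_jets hJ he hbt hp (isJet_vc e c X hbt) (η := 1) one_pos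
    have h3 := eventually_dist_vc he hab.le H hu
    filter_upwards [hC, h2, h3] with r r1 r2 r3
    have ea : vc (chartG e) c X r a = c a := by simp [vc, hXa]
    have d1 : dist q (p r) ≤ dist q (e.symm (vc (chartG e) c X r a)) +
        dist (e.symm (vc (chartG e) c X r a)) (e.symm (vc (chartG e) c X r b)) +
        dist (p r) (e.symm (vc (chartG e) c X r b)) := by
      rw [dist_comm (p r)]
      exact dist_triangle4 _ _ _ _
    rw [ea] at d1 r3
    rw [hXa, map_zero, sub_zero] at r1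
    rw [hq]
    have r21 := r2.1
    linarith only [d1, r1, r21, r3]

end Vale.Agent.P210.R2.H53
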