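import Vale.Agent.P210.R2.H53.Wl

open scoped Manifold ContDiff Topology Bundle ENNReal NNReal
open Set Metric Filter Bundle IsManifold MeasureTheory Manifold Asymptotics

set_option maxSynthPendingDepth 3
set_option linter.unusedSectionVars false

noncomputable section

namespace Vale.Agent.P210.R2.H53

variable {E : Type} [NormedAddCommGroup E] [NormedSpace ℝ E] [FiniteDimensional ℝ E]
  [MeasurableSpace E] [BorelSpace E]
  {M : Type} [MetricSpace M] [ChartedSpace E M]
  [RiemannianBundle (fun x : M => TangentSpace 𝓘(ℝ, E) x)]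
  [MeasurableSpace M] [BorelSpace M] [ProperSpace M]

/-- Lipschitz functions vanishing outside the ball -/
def TT (y : M) (ρ : ℝ) (w : M → ℝ) : Prop := LC w ∧ ∀ q, ρ ≤ dist q y → w q = 0

theorem TT.of {y : M} {ρ : ℝ} {w : M → ℝ} (h : LocallyLipschitz w)
    (h0 : ∀ q, ρ ≤ dist q y → w q = 0) : TT y ρ w := by
  refine ⟨lc_of_ll h ?_, h0⟩
  refine HasCompactSupport.intro (isCompact_closedBall y ρ) fun p hp => h0 p ?_
  simp only [mem_closedBall, not_le] at hp
  exact hp.le

theorem TT.add {y : M} {ρ : ℝ} {w z : M → ℝ} (h : TT y ρ w) (h' : TT y ρ z) (s : ℝ) :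
    TT y ρ (fun q => w q + s * z q) :=
  .of (ll_add h.1.ll (ll_smul s h'.1.ll)) fun q hq => by simp [h.2 q hq, h'.2 q hq]

theorem TT.sub {y : M} {ρ : ℝ} {w z : M → ℝ} (h : TT y ρ w) (h' : TT y ρ z) :
    TT y ρ (fun q => w q - z q) :=
  .of (ll_sub h.1.ll h'.1.ll) fun q hq => by simp [h.2 q hq, h'.2 q hq]

theorem tt_zero (y : M) (ρ : ℝ) : TT y ρ (fun _ => (0 : ℝ)) :=
  .of (LocallyLipschitz.const 0) fun _ _ => rfl

variable (E) in
/-- the Dirichlet energy of `f + w` relative to `f` -/
def JJ (μ : Measure M) (f w : M → ℝ) : ℝ := ∫ p, Gam E f w p ∂μ + 1 / 2 * ∫ p, Gam E w w p ∂μ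

namespace Cal

variable {μ : Measure M} (hc : Cal E μ)

include hc

theorem JJ_add {f w z : M → ℝ} (hf : LocallyLipschitz f) (hw : LC w) (hz : LC z) (s : ℝ) :
    JJ E μ f (fun q => w q + s * z q) = JJ E μ f w +
      s * (∫ p, Gam E f z p ∂μ + ∫ p, Gam E w z p ∂μ) + s ^ 2 / 2 * ∫ p, Gam E z z p ∂μ := by
  unfold JJ
  have e1 : ∫ p, Gam E f (fun q => w q + s * z q) p ∂μ =
      ∫ p, Gam E f w p ∂μ + s * ∫ p, Gam E f z p ∂μ := by
    rw [← integral_const_mul, ← integral_add (hc.int_gam hf hw) ((hc.int_gam hf hz).const_mul _)]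
    refine integral_congr_ae ?_
    filter_upwards [hc.diff w hw.ll, hc.diff z hz.ll] with p h1 h2
    rw [hc.add' _ _ _ _ h1 (hc.md_smul _ h2), hc.smul']
  have e2 : ∫ p, Gam E (fun q => w q + s * z q) (fun q => w q + s * z q) p ∂μ =
      ∫ p, Gam E w w p ∂μ + 2 * s * ∫ p, Gam E w z p ∂μ + s ^ 2 * ∫ p, Gam E z z p ∂μ := by
    have i1 := hc.int_gam hw.ll hw
    have i2 := (hc.int_gam hw.ll hz).const_mul (2 * s)
    have i3 := (hc.int_gam hz.ll hz).const_mul (s ^ 2)
    have i12 : Integrable (fun p => Gam E w w p + 2 * s * Gam E w z p) μ := i1.add i2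
    rw [← integral_const_mul, ← integral_const_mul, ← integral_add i1 i2, ← integral_add i12 i3]
    refine integral_congr_ae ?_
    filter_upwards [hc.diff w hw.ll, hc.diff z hz.ll] with p h1 h2
    exact hc.quad _ _ _ _ h1 h2
  rw [e1, e2]
  ring

theorem JJ_ge {f : M → ℝ} (hf : LocallyLipschitz f) {y : M} {ρ : ℝ} {w : M → ℝ}
    (hw : TT y ρ w) : -(1 / 2) * ∫ p in closedBall y ρ, Gam E f f p ∂μ ≤ JJ E μ f w := by
  unfold JJ
  rw [← integral_indicator measurableSet_closedBall, ← integral_const_mul, ← integral_const_mul,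
    ← integral_add (hc.int_gam hf hw.1) ((hc.int_gam hw.1.ll hw.1).const_mul _)]
  have i1 : Integrable ((closedBall y ρ).indicator (Gam E f f)) μ := by
    rw [integrable_indicator_iff measurableSet_closedBall]
    exact hc.intOn_gam hf hf (isCompact_closedBall y ρ) subset_rfl
  refine integral_mono_ae (i1.const_mul _) ((hc.int_gam hf hw.1).add
    ((hc.int_gam hw.1.ll hw.1).const_mul _)) ?_
  filter_upwards [hc.diff f hf, hc.diff w hw.1.ll] with p h1 h2
  by_cases hp : p ∈ closedBall y ρ
  · simp only [indicator_of_mem hp]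
    have := hc.nonneg (fun q => f q + 1 * w q) p
    rw [hc.quad _ _ _ _ h1 h2] at this
    linarith
  · simp only [indicator_of_notMem hp, mul_zero]
    have : ∀ᶠ q in 𝓝 p, w q = 0 := by
      have hp' : ρ < Dist.dist p y := by simpa using hp
      have : ∀ᶠ q in 𝓝 p, ρ < Dist.dist q y :=
        continuousAt_const.eventually_lt (continuous_id.dist continuous_const).continuousAt
          (show ρ < Dist.dist (id p) y from hp')
      filter_upwards [this] with q hq using hw.2 q hq.le
    rw [hc.gam_zero_of_eventually _ _ _ this, hc.gam_zero_of_eventually _ _ _ this]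
    simp

/-- truncation -/
theorem JJ_trunc {x y : M} {ρ : ℝ} (hρ : 0 < ρ) {w : M → ℝ} (hw : TT y ρ w) :
    ∃ w', TT y ρ w' ∧ (∀ q, |w' q| ≤ 3 * ρ) ∧
      JJ E μ (fun q => Dist.dist x q) w' ≤ JJ E μ (fun q => Dist.dist x q) w := by
  set f : M → ℝ := fun q => Dist.dist x q with hf
  have hfl : LocallyLipschitz f := ll_dist x
  set a := f y - 2 * ρ with ha
  set b := f y + 2 * ρ with hb
  set w' : M → ℝ := fun q => max (min 0 (a - f q)) (min (max 0 (b - f q)) (w q)) with hw'
  have near : ∀ q, Dist.dist q y < 2 * ρ → a < f q ∧ f q < b := by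
    intro q hq
    have h1 : |f q - f y| ≤ Dist.dist q y := by
      simp only [hf]; rw [_root_.dist_comm x q, _root_.dist_comm x y]; exact abs_dist_sub_le q y x
    rw [_root_.abs_le] at h1
    constructor <;> linarith [h1.1, h1.2]
  have hw0 : ∀ q, ρ ≤ Dist.dist q y → w' q = 0 := by
    intro q hq
    simp only [hw', hw.2 q hq, min_eq_right (le_max_left (0 : ℝ) _)]
    exact max_eq_right (min_le_left _ _)
  have hw'l : LocallyLipschitz w' := by
    refine LocallyLipschitz.max ?_ ?_
    · exact LocallyLipschitz.const_min (ll_sub (LocallyLipschitz.const a) hfl) 0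
    · exact (LocallyLipschitz.const_max (ll_sub (LocallyLipschitz.const b) hfl) 0).min hw.1.ll
  have hTT : TT y ρ w' := .of hw'l hw0
  have heq : ∀ q, Dist.dist q y < 2 * ρ → f q + w' q = cl a b (f q + w q) := by
    intro q hq
    obtain ⟨h1, h2⟩ := near q hq
    simp only [hw', min_eq_right (by linarith : a - f q ≤ 0), max_eq_right
      (by linarith : (0 : ℝ) ≤ b - f q)]
    unfold cl
    rw [← max_add_add_left, ← min_add_add_left]
    congr 1
    · ring
    · congr 1; ring
  refine ⟨w', hTT, fun q => ?_, ?_⟩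
  · by_cases hq : ρ ≤ Dist.dist q y
    · rw [hw0 q hq]; simp; linarith
    · push Not at hq
      have h3 := heq q (by linarith)
      have h1 : |f q - f y| ≤ Dist.dist q y := by
        simp only [hf]; rw [_root_.dist_comm x q, _root_.dist_comm x y]; exact abs_dist_sub_le q y x
      have h4 := cl_ge a b (f q + w q)
      have h5 := cl_le (show a ≤ b by linarith) (f q + w q)
      rw [_root_.abs_le] at h1 ⊢
      constructor <;> linarith [h1.1, h1.2]
  · unfold JJ
    rw [← integral_const_mul, ← integral_const_mul,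
      ← integral_add (hc.int_gam hfl hTT.1) ((hc.int_gam hTT.1.ll hTT.1).const_mul _),
      ← integral_add (hc.int_gam hfl hw.1) ((hc.int_gam hw.1.ll hw.1).const_mul _)]
    refine integral_mono_ae ((hc.int_gam hfl hTT.1).add ((hc.int_gam hTT.1.ll hTT.1).const_mul _))
      ((hc.int_gam hfl hw.1).add ((hc.int_gam hw.1.ll hw.1).const_mul _)) ?_
    filter_upwards [hc.diff f hfl, hc.diff w hw.1.ll, hc.diff w' hw'l] with p h1 h2 h3
    by_cases hp : Dist.dist p y < 2 * ρ
    · have h4 : Gam E (fun q => f q + 1 * w' q) (fun q => f q + 1 * w' q) p ≤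
          Gam E (fun q => f q + 1 * w q) (fun q => f q + 1 * w q) p := by
        have hev : (fun q => f q + 1 * w' q) =ᶠ[𝓝 p] fun q => cl a b (f q + 1 * w q) := by
          have : ∀ᶠ q in 𝓝 p, Dist.dist q y < 2 * ρ :=
            (continuous_id.dist continuous_const).continuousAt.eventually_lt continuousAt_const
              (show Dist.dist (id p) y < 2 * ρ from hp)
          filter_upwards [this] with q hq
          simpa using heq q hq
        obtain ⟨l, l0, l1, hl⟩ := hc.mono (cl a b) 1 (fun q => f q + 1 * w q) p (cl_mono a b)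
          (cl_lip a b) (hc.md_add h1 (hc.md_smul _ h2))
        rw [hc.congr _ _ _ _ hev, hc.congr' _ _ _ _ hev, hl, hc.symm, hl]
        have h5 := hc.nonneg (fun q => f q + 1 * w q) p
        simp only [NNReal.coe_one] at l1
        have : l * l ≤ 1 := by nlinarith
        nlinarith
      rw [hc.quad _ _ _ _ h1 h2, hc.quad _ _ _ _ h1 h3] at h4
      linarith
    · push Not at hp
      have far : ∀ v : M → ℝ, (∀ q, ρ ≤ Dist.dist q y → v q = 0) → ∀ᶠ q in 𝓝 p, v q = 0 := by
        intro v hv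
        have : ∀ᶠ q in 𝓝 p, ρ < Dist.dist q y :=
          continuousAt_const.eventually_lt (continuous_id.dist continuous_const).continuousAt
            (show ρ < Dist.dist (id p) y by simp only [id]; linarith)
        filter_upwards [this] with q hq using hv q hq.le
      simp only [hc.gam_zero_of_eventually _ _ _ (far w hw.2),
        hc.gam_zero_of_eventually _ _ _ (far w' hw0)]
      simp

/-- near minimizers almost satisfy the Euler Lagrange equation -/
theorem JJ_el {f : M → ℝ} (hf : LocallyLipschitz f) {y : M} {ρ I ε : ℝ}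
    (hI : ∀ w, TT y ρ w → I ≤ JJ E μ f w) {w z : M → ℝ} (hw : TT y ρ w) (hz : TT y ρ z)
    (hε : JJ E μ f w ≤ I + ε) :
    (∫ p, Gam E f z p ∂μ + ∫ p, Gam E w z p ∂μ) ^ 2 ≤ 2 * ε * ∫ p, Gam E z z p ∂μ := by
  set A := ∫ p, Gam E f z p ∂μ + ∫ p, Gam E w z p ∂μ
  set G := ∫ p, Gam E z z p ∂μ
  have h1 : ∀ s : ℝ, 0 ≤ (G / 2) * (s * s) + A * s + ε := by
    intro s
    have := hI _ (hw.add hz s)
    rw [hc.JJ_add hf hw.1 hz.1] at this
    nlinarith
  have := discrim_le_zero h1
  unfold discrim at this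
  linarith

/-- near minimizers are close to each other -/
theorem JJ_cauchy {f : M → ℝ} (hf : LocallyLipschitz f) {y : M} {ρ I ε : ℝ}
    (hI : ∀ w, TT y ρ w → I ≤ JJ E μ f w) {w z : M → ℝ} (hw : TT y ρ w) (hz : TT y ρ z)
    (h1 : JJ E μ f w ≤ I + ε) (h2 : JJ E μ f z ≤ I + ε) :
    ∫ p, Gam E (fun q => z q - w q) (fun q => z q - w q) p ∂μ ≤ 8 * ε := by
  have hd := hz.sub hw
  have e1 := hc.JJ_add hf hw.1 hd.1 1
  have e2 := hc.JJ_add hf hw.1 hd.1 (1 / 2)
  have e3 := hI _ (hw.add hd (1 / 2))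
  have e4 : (fun q => w q + 1 * (z q - w q)) = z := by funext q; ring
  rw [e4] at e1
  nlinarith

/-- the Poincaré inequality for functions supported in a ball far from `x` -/
theorem poincare {K n : ℝ} (hw : Wl E μ K n) (hn : 1 ≤ n) (hK : 0 ≤ K) {x y : M} {r : ℝ} (hr : 0 < r)
    (hfar : ∀ q, Dist.dist q y ≤ 16 * r →
      0 < Dist.dist x q ∧ (n - 1) / Dist.dist x q + K * Dist.dist x q ≤ 1 / (2 * r))
    {z : M → ℝ} (hz : TT y (16 * r) z) :
    ∫ p, z p ^ 2 ∂μ ≤ 16 * Real.exp 32 * r ^ 2 * ∫ p, Gam E z z p ∂μ := by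
  set d : M → ℝ := fun q => Dist.dist x q with hd
  have hdl : LocallyLipschitz d := ll_dist x
  set v : M → ℝ := fun q => Real.exp (-(r⁻¹ * (d q - d y))) with hv
  have hφ : LocallyLipschitz fun t : ℝ => Real.exp (-(r⁻¹ * (t - d y))) :=
    (by fun_prop : ContDiff ℝ 1 fun t : ℝ => Real.exp (-(r⁻¹ * (t - d y)))).locallyLipschitz
  have hvl : LocallyLipschitz v := hφ.comp hdl
  have hv0 : ∀ p, 0 < v p := fun p => Real.exp_pos _
  have hzz : LC fun q => z q * z q := LC.mul_left hz.1.ll hz.1
  have hζ : LC fun q => v q * (z q * z q) := LC.mul_left hvl hzz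
  -- a lower bound for the distance
  obtain ⟨c, hc0, hcd⟩ : ∃ c > 0, ∀ q, Dist.dist q y ≤ 16 * r → c ≤ d q := by
    have hK := isCompact_closedBall y (16 * r)
    obtain ⟨q, hq, hmin⟩ := hK.exists_isMinOn ⟨y, mem_closedBall_self (by positivity)⟩
      hdl.continuous.continuousOn
    exact ⟨d q, (hfar q hq).1, fun q' hq' => hmin hq'⟩
  have k1 := hc.wl_dist hw hc0 hζ (fun p => mul_nonneg (hv0 p).le (mul_self_nonneg _))
    (fun p hp => by
      have : 16 * r < Dist.dist p y := by
        by_contra hn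
        exact absurd (hcd p (not_lt.1 hn)) (not_le.2 hp)
      rw [hz.2 p this.le]; simp)
  have i1 : Integrable (fun p => v p * (z p * z p)) μ := hc.int_cont hζ.cont hζ.2
  have i2 : Integrable (fun p => v p * Gam E z z p) μ :=
    hc.int_mul_gam hvl.continuous hz.1.ll hz.1
  have i3 : Integrable (fun p => v p * z p * Gam E d z p) μ :=
    hc.int_mul_gam (hvl.continuous.mul hz.1.cont) hdl hz.1
  have k2 : ∫ p, Gam E (fun q => Dist.dist x q) (fun q => v q * (z q * z q)) p ∂μ =
      2 * ∫ p, v p * z p * Gam E d z p ∂μ - r⁻¹ * ∫ p, v p * (z p * z p) ∂μ := by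
    rw [← integral_const_mul, ← integral_const_mul, ← integral_sub (i3.const_mul _) (i1.const_mul _)]
    refine integral_congr_ae ?_
    filter_upwards [hc.diff z hz.1.ll, hc.diff d hdl, hc.diff v hvl, hc.diff _ hzz.ll] with
      p h1 h2 h3 h4
    change Gam E d (fun q => v q * (z q * z q)) p = _
    rw [hc.mul' d v _ p h3 h4, hc.mul' d z z p h1 h1]
    by_cases hp : 16 * r ≤ Dist.dist p y
    · rw [hz.2 p hp]; ring
    · push Not at hp
      have hxp : x ≠ p := by
        rintro rfl
        have := (hfar x hp.le).1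
        simp at this
      have hdv : HasDerivAt (fun t : ℝ => Real.exp (-(r⁻¹ * (t - d y))))
          (-r⁻¹ * Real.exp (-(r⁻¹ * (d p - d y)))) (d p) := by
        have h5 : HasDerivAt (fun t : ℝ => -(r⁻¹ * (t - d y))) (-(r⁻¹ * 1)) (d p) :=
          (((hasDerivAt_id (d p)).sub_const (d y)).const_mul r⁻¹).neg
        have := h5.exp
        convert this using 1
        ring
      have e5 : Gam E d v p = -r⁻¹ * v p := by
        rw [hc.symm, hv, hc.comp (fun t : ℝ => Real.exp (-(r⁻¹ * (t - d y)))) d d p h2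
          hdv.differentiableAt, hdv.deriv, hc.dist x p hxp h2]
        ring
      rw [e5]; ring
  have k3 : ∫ p, ((n - 1) / Dist.dist x p + K * Dist.dist x p) * (v p * (z p * z p)) ∂μ ≤
      1 / (2 * r) * ∫ p, v p * (z p * z p) ∂μ := by
    rw [← integral_const_mul]
    refine integral_mono_of_nonneg (Eventually.of_forall fun p => ?_) (i1.const_mul _)
      (Eventually.of_forall fun p => ?_)
    · have := (hv0 p).le
      have : 0 ≤ n - 1 := by linarith
      simp only [Pi.zero_apply]
      have : 0 ≤ z p * z p := mul_self_nonneg _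
      positivity
    · by_cases hp : 16 * r ≤ Dist.dist p y
      · simp [hz.2 p hp]
      · push Not at hp
        exact mul_le_mul_of_nonneg_right (hfar p hp.le).2
          (mul_nonneg (hv0 p).le (mul_self_nonneg _))
  -- Young
  have k4 : 2 * ∫ p, v p * z p * Gam E d z p ∂μ ≤ 1 / (4 * r) * ∫ p, v p * (z p * z p) ∂μ +
      4 * r * ∫ p, v p * Gam E z z p ∂μ := by
    rw [← integral_const_mul, ← integral_const_mul, ← integral_const_mul, ← integral_add
      (i1.const_mul _) (i2.const_mul _)]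
    refine integral_mono (i3.const_mul _) ((i1.const_mul _).add (i2.const_mul _)) fun p => ?_
    simp only
    have h1 : |Gam E d z p| ≤ 1 * √(Gam E z z p) := by
      refine (hc.abs_le d z p).trans (mul_le_mul_of_nonneg_right ?_ (Real.sqrt_nonneg _))
      exact Real.sqrt_le_one.2 (hc.dist_le_one x p)
    have h2 := Real.sq_sqrt (hc.nonneg z p)
    set G := √(Gam E z z p)
    have h3 : 2 * (v p * z p * Gam E d z p) ≤ 2 * (v p * (|z p| * G)) := by
      have h4 : |2 * (v p * z p * Gam E d z p)| ≤ 2 * (v p * (|z p| * G)) := by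
        rw [abs_mul, abs_mul, abs_mul, abs_of_pos (hv0 p), abs_two]
        have := abs_nonneg (z p)
        have := (hv0 p).le
        have h5 : |Gam E d z p| ≤ G := by linarith
        calc 2 * (v p * |z p| * |Gam E d z p|) ≤ 2 * (v p * |z p| * G) := by gcongr
          _ = _ := by ring
      have := le_abs_self (2 * (v p * z p * Gam E d z p))
      linarith
    have h6 : 2 * (v p * (|z p| * G)) ≤ 1 / (4 * r) * (v p * (z p * z p)) +
        4 * r * (v p * Gam E z z p) := by
      rw [← h2, ← abs_mul_abs_self (z p)]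
      have : 1 / (4 * r) * (v p * (|z p| * |z p|)) + 4 * r * (v p * G ^ 2) -
          2 * (v p * (|z p| * G)) = v p * (1 / (4 * r)) * (|z p| - 4 * r * G) ^ 2 := by
        field_simp; ring
      have h7 : 0 ≤ v p * (1 / (4 * r)) * (|z p| - 4 * r * G) ^ 2 := by
        have := (hv0 p).le
        positivity
      linarith
    linarith
  have k5 : ∫ p, v p * (z p * z p) ∂μ ≤ 16 * r ^ 2 * ∫ p, v p * Gam E z z p ∂μ := by
    rw [k2] at k1
    have e6 : r⁻¹ * ∫ p, v p * (z p * z p) ∂μ - 1 / (2 * r) * ∫ p, v p * (z p * z p) ∂μ -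
        1 / (4 * r) * ∫ p, v p * (z p * z p) ∂μ ≤ 4 * r * ∫ p, v p * Gam E z z p ∂μ := by
      linarith
    have e7 : r⁻¹ * ∫ p, v p * (z p * z p) ∂μ - 1 / (2 * r) * ∫ p, v p * (z p * z p) ∂μ -
        1 / (4 * r) * ∫ p, v p * (z p * z p) ∂μ = (4 * r)⁻¹ * ∫ p, v p * (z p * z p) ∂μ := by
      field_simp; ring
    rw [e7, inv_mul_le_iff₀ (by positivity)] at e6
    linarith
  -- bounds of v
  have hvb : ∀ p, Dist.dist p y ≤ 16 * r → Real.exp (-16) ≤ v p ∧ v p ≤ Real.exp 16 := by
    intro p hp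
    have h1 : |d p - d y| ≤ Dist.dist p y := by
      simp only [hd]; rw [_root_.dist_comm x p, _root_.dist_comm x y]; exact abs_dist_sub_le p y x
    have h2 : |r⁻¹ * (d p - d y)| ≤ 16 := by
      rw [abs_mul, abs_of_pos (inv_pos.2 hr), inv_mul_le_iff₀ hr]
      linarith
    rw [_root_.abs_le] at h2
    exact ⟨Real.exp_le_exp.2 (by linarith [h2.2]), Real.exp_le_exp.2 (by linarith [h2.1])⟩
  have k6 : ∫ p, z p ^ 2 ∂μ ≤ Real.exp 16 * ∫ p, v p * (z p * z p) ∂μ := by
    rw [← integral_const_mul]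
    refine integral_mono ?_ (i1.const_mul _) fun p => ?_
    · have := hc.int_cont hzz.cont hzz.2
      simpa [sq] using this
    · by_cases hp : 16 * r ≤ Dist.dist p y
      · simp [hz.2 p hp]
      · push Not at hp
        have h1 := (hvb p hp.le).1
        have h2 : 1 ≤ Real.exp 16 * v p := by
          calc (1 : ℝ) = Real.exp 16 * Real.exp (-16) := by rw [← Real.exp_add]; simp
            _ ≤ _ := by gcongr
        have h3 : 0 ≤ z p ^ 2 := sq_nonneg _
        calc z p ^ 2 = 1 * z p ^ 2 := by ring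
          _ ≤ (Real.exp 16 * v p) * z p ^ 2 := by gcongr
          _ = _ := by ring
  have k7 : ∫ p, v p * Gam E z z p ∂μ ≤ Real.exp 16 * ∫ p, Gam E z z p ∂μ := by
    rw [← integral_const_mul]
    refine integral_mono i2 ((hc.int_gam hz.1.ll hz.1).const_mul _) fun p => ?_
    by_cases hp : 16 * r < Dist.dist p y
    · have : ∀ᶠ q in 𝓝 p, z q = 0 := by
        have : ∀ᶠ q in 𝓝 p, 16 * r < Dist.dist q y :=
          continuousAt_const.eventually_lt (continuous_id.dist continuous_const).continuousAt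
            (show 16 * r < Dist.dist (id p) y from hp)
        filter_upwards [this] with q hq using hz.2 q hq.le
      simp [hc.gam_zero_of_eventually _ _ _ this]
    · push Not at hp
      exact mul_le_mul_of_nonneg_right (hvb p hp).2 (hc.nonneg _ _)
  have hexp : Real.exp 32 = Real.exp 16 * Real.exp 16 := by rw [← Real.exp_add]; norm_num
  calc ∫ p, z p ^ 2 ∂μ ≤ Real.exp 16 * ∫ p, v p * (z p * z p) ∂μ := k6
    _ ≤ Real.exp 16 * (16 * r ^ 2 * ∫ p, v p * Gam E z z p ∂μ) := by gcongr
    _ ≤ Real.exp 16 * (16 * r ^ 2 * (Real.exp 16 * ∫ p, Gam E z z p ∂μ)) := by gcongr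
    _ = _ := by rw [hexp]; ring

end Cal

end Vale.Agent.P210.R2.H53
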