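import Vale.Agent.P210.R2.H53.Wl

open scoped Manifold ContDiff Topology Bundle ENNReal NNReal
open Set Metric Filter Bundle IsManifold MeasureTheory Manifold Asymptotics

set_option maxSynthPendingDepth 3
set_option linter.unusedSectionVars false

noncomputable section

namespace Vale.Agent.P210.R2.H53

variable {E : Type} [NormedAddCommGroup E] [NormedSpace ℝ E] [FiniteDimensional ℝ E]
  [MeasurableSpace E] [BorelSpace E]
  {M : Type} [MetricSpace M] [ChartedSpace E M]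
  [RiemannianBundle (fun x : M => TangentSpace 𝓘(ℝ, E) x)]
  [MeasurableSpace M] [BorelSpace M] [ProperSpace M]

variable (E M) in
/-- second order calculus facts on a fixed manifold -/
structure Cal2 (K : ℝ) : Prop where
  tfg : ∀ u : M → ℝ, TF E u → TF E (Gam E u u)
  tfl : ∀ u : M → ℝ, TF E u → TF E (Lap E u)
  hsc : ∀ u : M → ℝ, TF E u → Continuous (HS E 0 u)
  hs0 : ∀ u : M → ℝ, TF E u → ∀ p, 0 ≤ HS E 0 u p
  h4 : ∀ (u : M → ℝ) (p : M), TF E u →
    Gam E (Gam E u u) (Gam E u u) p ≤ 4 * HS E 0 u p * Gam E u u p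
  boch : ∀ (u : M → ℝ) (p : M), TF E u →
    HS E 0 u p + Gam E u (Lap E u) p - K * Gam E u u p ≤ (1 / 2) * Lap E (Gam E u u) p

theorem cal2_of (hC : Stmt.CALC) [IsManifold 𝓘(ℝ, E) ∞ M]
    [IsContMDiffRiemannianBundle 𝓘(ℝ, E) ∞ E (fun x : M => TangentSpace 𝓘(ℝ, E) x)]
    [IsRiemannianManifold 𝓘(ℝ, E) M] (hn : 1 ≤ Module.finrank ℝ E) {K : ℝ}
    (hR : RicGE E M (-K)) : Cal2 E M K := by
  obtain ⟨c1, c2, c3, -, -, c6, c7, -, -⟩ := hC E M hn
  refine ⟨fun u hu => c1 u u hu hu, c2, fun u hu => (c3 0 u hu).1, fun u hu => (c3 0 u hu).2,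
    fun u p hu => ?_, fun u p hu => c7 K u p hR hu⟩
  have := c6 0 u p hu
  simpa using this

theorem TF.cont {u : M → ℝ} (h : TF E u) : Continuous u := h.1.continuous

theorem TF.lc {μ : Measure M} (hc : Cal E μ) {u : M → ℝ} (h : TF E u) : LC u :=
  lc_of_ll (hc.tfll u h) h.2

theorem TF.md {u : M → ℝ} (h : TF E u) (p : M) : MDifferentiableAt 𝓘(ℝ, E) 𝓘(ℝ, ℝ) u p :=
  (h.1 p).mdifferentiableAt (by simp)

/-- the pointwise inequality behind the Hessian estimate -/
theorem boch_pt {a b c ε l ψ θ F H X P : ℝ} (hε : 0 < ε) (hψ : 0 ≤ ψ) (hψ1 : ψ ≤ 1) (hθ : 1 ≤ θ)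
    (hθ3 : θ ≤ 3) (hl : 0 ≤ l) (hF : 0 ≤ F) (hH : 0 ≤ H) (hP : 0 ≤ P) (ha : 0 ≤ a)
    (h4 : a ≤ 4 * H * F) (hX : X ^ 2 ≤ a * P) (h1 : |F - 1| < ε → l = ε⁻¹) :
    -(ψ * θ * X) - 1 / 2 * (ψ ^ 2 * l * a) ≤
      1 / 2 * (ψ ^ 2 * H) + (9 / 2) * ε * P + 18 * ((1 + ε⁻¹) * |F - 1|) * P := by
  have hε' : 0 < ε⁻¹ := inv_pos.2 hε
  have hX' : |X| ≤ √a * √P := by
    rw [← Real.sqrt_mul ha]; exact Real.abs_le_sqrt hX
  have sa := Real.sq_sqrt ha
  have sP := Real.sq_sqrt hP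
  have sa0 := Real.sqrt_nonneg a
  have sP0 := Real.sqrt_nonneg P
  set A := √a
  set Q := √P
  have e1 : -(ψ * θ * X) ≤ 3 * ψ * (A * Q) := by
    have : -(ψ * θ * X) ≤ ψ * θ * |X| := by
      rw [neg_mul_eq_mul_neg]
      exact mul_le_mul_of_nonneg_left (neg_le_abs X) (by positivity)
    refine this.trans ?_
    calc ψ * θ * |X| ≤ ψ * 3 * (A * Q) := by gcongr
      _ = 3 * ψ * (A * Q) := by ring
  by_cases hc : |F - 1| < ε
  · have hl' := h1 hc
    have e2 : 3 * ψ * (A * Q) - 1 / 2 * (ψ ^ 2 * l * a) ≤ (9 / 2) * ε * P := by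
      rw [hl', ← sa, ← sP]
      have : (9 / 2) * ε * Q ^ 2 - (3 * ψ * (A * Q) - 1 / 2 * (ψ ^ 2 * ε⁻¹ * A ^ 2)) =
          1 / 2 * ε⁻¹ * (ψ * A - 3 * ε * Q) ^ 2 := by
        field_simp; ring
      have h3 : 0 ≤ 1 / 2 * ε⁻¹ * (ψ * A - 3 * ε * Q) ^ 2 := by positivity
      linarith
    have e3 : 0 ≤ 18 * ((1 + ε⁻¹) * |F - 1|) * P := by positivity
    have e4 : 0 ≤ 1 / 2 * (ψ ^ 2 * H) := by positivity
    linarith
  · push Not at hc
    have e5 : F ≤ (1 + ε⁻¹) * |F - 1| := by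
      have h5 : 1 ≤ ε⁻¹ * |F - 1| := by
        have := mul_le_mul_of_nonneg_left hc hε'.le
        rwa [inv_mul_cancel₀ hε.ne'] at this
      have h6 : F ≤ 1 + |F - 1| := by have := le_abs_self (F - 1); linarith
      linarith
    have sH := Real.sq_sqrt hH
    have sF := Real.sq_sqrt hF
    have hA : A ≤ 2 * (√H * √F) := by
      rw [← Real.sqrt_mul hH, show (2 : ℝ) = √4 by
        rw [show (4 : ℝ) = 2 ^ 2 by norm_num, Real.sqrt_sq (by norm_num)], ← Real.sqrt_mul (by norm_num)]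
      exact Real.sqrt_le_sqrt (by linarith)
    have e6 : 3 * ψ * (A * Q) ≤ 1 / 2 * (ψ ^ 2 * H) + 18 * F * P := by
      have h7 : 3 * ψ * (A * Q) ≤ 3 * ψ * ((2 * (√H * √F)) * Q) := by gcongr
      refine h7.trans ?_
      rw [← sP]
      nth_rewrite 2 [← sH]
      nth_rewrite 2 [← sF]
      nlinarith [sq_nonneg (ψ * √H - 6 * √F * Q)]
    have e7 : 18 * F * P ≤ 18 * ((1 + ε⁻¹) * |F - 1|) * P := by gcongr
    have e8 : 0 ≤ 1 / 2 * (ψ ^ 2 * l * a) := by positivity
    have e9 : 0 ≤ (9 / 2) * ε * P := by positivity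
    linarith

theorem phi0_mono {ε : ℝ} (hε : 0 < ε) : Monotone fun t => 2 + cl (-1) 1 (ε⁻¹ * (t - 1)) := by
  intro a b hab
  have : 0 < ε⁻¹ := inv_pos.2 hε
  have h := cl_mono (-1) 1 (show ε⁻¹ * (a - 1) ≤ ε⁻¹ * (b - 1) by gcongr)
  simp only
  linarith

theorem phi0_lip {ε : ℝ} (hε : 0 < ε) :
    LipschitzWith (ε⁻¹).toNNReal fun t => 2 + cl (-1) 1 (ε⁻¹ * (t - 1)) := by
  have hε' : 0 < ε⁻¹ := inv_pos.2 hε
  refine LipschitzWith.of_dist_le_mul fun a b => ?_
  rw [Real.coe_toNNReal _ hε'.le, Real.dist_eq, Real.dist_eq, add_sub_add_left_eq_sub]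
  have := (cl_lip (-1) 1).dist_le_mul (ε⁻¹ * (a - 1)) (ε⁻¹ * (b - 1))
  simp only [Real.dist_eq, NNReal.coe_one, one_mul] at this
  refine this.trans ?_
  rw [← mul_sub, abs_mul, abs_of_pos hε', sub_sub_sub_cancel_right]

theorem phi0_deriv {ε t : ℝ} (hε : 0 < ε) (ht : |t - 1| < ε) :
    HasDerivAt (fun t => 2 + cl (-1) 1 (ε⁻¹ * (t - 1))) ε⁻¹ t := by
  have hε' : 0 < ε⁻¹ := inv_pos.2 hε
  have h1 : (fun t => 2 + cl (-1) 1 (ε⁻¹ * (t - 1))) =ᶠ[𝓝 t] fun t => 2 + ε⁻¹ * (t - 1) := by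
    have : ∀ᶠ s in 𝓝 t, |s - 1| < ε :=
      (continuous_abs.comp (continuous_id.sub continuous_const)).continuousAt.eventually_lt
        continuousAt_const ht
    filter_upwards [this] with s hs
    rw [abs_lt] at hs
    have e1 : ε⁻¹ * ε = 1 := inv_mul_cancel₀ hε.ne'
    rw [cl_eq (by nlinarith) (by nlinarith)]
  refine HasDerivAt.congr_of_eventuallyEq ?_ h1
  have := ((hasDerivAt_id t).sub_const 1).const_mul ε⁻¹ |>.const_add 2
  simpa using this

theorem boch_est {μ : Measure M} (hc : Cal E μ) {K : ℝ} (h2 : Cal2 E M K) (hK : 0 ≤ K)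
    {u : M → ℝ} (hu : TF E u) {y : M} {r ε : ℝ} (hr : 0 < r) (hε : 0 < ε)
    (hΔ : ∀ p, dist p y < 12 * r → Lap E u p = 0) :
    1 / 2 * ∫ p in ball y (4 * r), HS E 0 u p ∂μ ≤ ∫ p in ball y (12 * r),
      ((9 / 2) * ε * (4 * r)⁻¹ ^ 2 + 18 * ((1 + ε⁻¹) * |Gam E u u p - 1|) * (4 * r)⁻¹ ^ 2 +
        3 * K * (1 + |Gam E u u p - 1|)) ∂μ := by
  have hε' : 0 < ε⁻¹ := inv_pos.2 hε
  set F := Gam E u u with hF
  have hFt : TF E F := h2.tfg u hu
  have hFl : LC F := hFt.lc hc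
  have hF0 : ∀ p, 0 ≤ F p := hc.nonneg u
  have hHc := h2.hsc u hu
  have hH0 := h2.hs0 u hu
  obtain ⟨ψ, ψl, ψ01, ψ1, ψ0, ψL⟩ := lc_cutoff y (show 4 * r < 8 * r by linarith)
  have hψL : ∀ p, Gam E ψ ψ p ≤ (4 * r)⁻¹ ^ 2 := by
    refine hc.le_of_lip' (by positivity) ?_
    rwa [show 8 * r - 4 * r = 4 * r by ring] at ψL
  set φ : ℝ → ℝ := fun t => 2 + cl (-1) 1 (ε⁻¹ * (t - 1)) with hφ
  have hφ1 : ∀ t, 1 ≤ φ t := fun t => by have := cl_ge (-1) 1 (ε⁻¹ * (t - 1)); simp only [hφ]; linarith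
  have hφ3 : ∀ t, φ t ≤ 3 := fun t => by
    have := cl_le (show (-1 : ℝ) ≤ 1 by norm_num) (ε⁻¹ * (t - 1)); simp only [hφ]; linarith
  have hθl : LocallyLipschitz fun p => φ (F p) :=
    (phi0_lip hε).locallyLipschitz.comp hFl.ll
  set Φ : M → ℝ := fun p => (ψ p * ψ p) * φ (F p) with hΦ
  have hψψ : LC fun p => ψ p * ψ p := LC.mul_left ψl.ll ψl
  have hΦl : LC Φ := LC.mul_right hψψ hθl
  have hΦ0 : ∀ p, 0 ≤ Φ p := fun p => by
    have := hφ1 (F p)
    have := (ψ01 p).1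
    simp only [hΦ]; positivity
  have hΦz : ∀ p, 8 * r ≤ dist p y → Φ p = 0 := fun p hp => by simp [hΦ, ψ0 p hp]
  -- pointwise Bochner
  have b1 : ∀ p, Φ p * HS E 0 u p ≤ 1 / 2 * (Φ p * Lap E F p) + K * (Φ p * F p) := by
    intro p
    by_cases hp : 8 * r ≤ dist p y
    · simp [hΦz p hp]
    · push Not at hp
      have hz : Gam E u (Lap E u) p = 0 := by
        refine hc.gam_zero_of_eventually _ _ _ ?_
        have : ∀ᶠ q in 𝓝 p, dist q y < 12 * r :=
          (continuous_id.dist continuous_const).continuousAt.eventually_lt continuousAt_const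
            (show dist (id p) y < 12 * r by simp only [id]; linarith)
        filter_upwards [this] with q hq using hΔ q hq
      have := h2.boch u p hu
      rw [hz] at this
      have h3 := mul_le_mul_of_nonneg_left this (hΦ0 p)
      simp only [← hF] at h3
      nlinarith
  have iH : Integrable (fun p => Φ p * HS E 0 u p) μ :=
    hc.int_cont (hΦl.cont.mul hHc) hΦl.2.mul_right
  have iL : Integrable (fun p => Φ p * Lap E F p) μ :=
    hc.int_cont (hΦl.cont.mul (h2.tfl F hFt).cont) hΦl.2.mul_right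
  have iF : Integrable (fun p => Φ p * F p) μ :=
    hc.int_cont (hΦl.cont.mul hFt.cont) hΦl.2.mul_right
  have b2 : ∫ p, Φ p * HS E 0 u p ∂μ ≤
      1 / 2 * ∫ p, Φ p * Lap E F p ∂μ + K * ∫ p, Φ p * F p ∂μ := by
    rw [← integral_const_mul, ← integral_const_mul, ← integral_add (iL.const_mul _) (iF.const_mul _)]
    exact integral_mono iH ((iL.const_mul _).add (iF.const_mul _)) b1
  have b3 : ∫ p, Φ p * Lap E F p ∂μ = - ∫ p, Gam E F Φ p ∂μ := by
    rw [hc.ibp F Φ hFt hΦl, neg_neg]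
  -- the pointwise inequality
  set B := ball y (12 * r) with hB
  set g : M → ℝ := fun p => (9 / 2) * ε * (4 * r)⁻¹ ^ 2 +
    18 * ((1 + ε⁻¹) * |F p - 1|) * (4 * r)⁻¹ ^ 2 with hg
  have hgc : Continuous g := by
    have := hFt.cont
    simp only [hg]; fun_prop
  have hg0 : ∀ p, 0 ≤ g p := fun p => by simp only [hg]; positivity
  have b4 : ∀ᵐ p ∂μ, -(1 / 2) * Gam E F Φ p ≤ 1 / 2 * (ψ p * ψ p * HS E 0 u p) +
      B.indicator g p := by
    filter_upwards [hc.diff F hFl.ll, hc.diff ψ ψl.ll, hc.diff _ hθl, hc.diff _ hψψ.ll] with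
      p d1 d2 d3 d4
    obtain ⟨l, hl0, hl1, hl2⟩ : ∃ l : ℝ, 0 ≤ l ∧ (|F p - 1| < ε → l = ε⁻¹) ∧
        ∀ w, Gam E (fun q => φ (F q)) w p = l * Gam E F w p := by
      by_cases hlt : |F p - 1| < ε
      · have hd := phi0_deriv hε hlt
        refine ⟨ε⁻¹, hε'.le, fun _ => rfl, fun w => ?_⟩
        rw [hc.comp φ F w p d1 hd.differentiableAt, hd.deriv]
      · obtain ⟨l, h1, -, h3⟩ := hc.mono φ _ F p (phi0_mono hε) (phi0_lip hε) d1
        exact ⟨l, h1, fun h => absurd h hlt, h3⟩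
    have e1 : Gam E F Φ p = 2 * (ψ p * φ (F p) * Gam E F ψ p) + ψ p ^ 2 * (l * Gam E F F p) := by
      rw [hΦ, hc.mul' F _ _ p d4 d3, hc.mul' F _ _ p d2 d2, hc.symm F (fun q => φ (F q)), hl2 F]
      ring
    have e2 : -(1 / 2) * Gam E F Φ p ≤ 1 / 2 * (ψ p ^ 2 * HS E 0 u p) +
        (9 / 2) * ε * Gam E ψ ψ p + 18 * ((1 + ε⁻¹) * |F p - 1|) * Gam E ψ ψ p := by
      have := boch_pt (a := Gam E F F p) (X := Gam E F ψ p) (P := Gam E ψ ψ p) (ψ := ψ p)
        (θ := φ (F p)) (F := F p) (H := HS E 0 u p) (l := l) (b := 0) (c := 0) hε (ψ01 p).1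
        (ψ01 p).2 (hφ1 _) (hφ3 _) hl0 (hF0 p) (hH0 p) (hc.nonneg _ _) (hc.nonneg _ _)
        (h2.h4 u p hu) (hc.cs _ _ _) hl1
      rw [e1]
      refine le_trans (le_of_eq ?_) this
      ring
    refine e2.trans ?_
    have e3 : (9 / 2) * ε * Gam E ψ ψ p + 18 * ((1 + ε⁻¹) * |F p - 1|) * Gam E ψ ψ p ≤
        B.indicator g p := by
      by_cases hp : p ∈ B
      · rw [indicator_of_mem hp]
        have h5 := hψL p
        have h6 : 0 ≤ |F p - 1| := abs_nonneg _
        simp only [hg]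
        gcongr
      · rw [indicator_of_notMem hp]
        have h7 : 12 * r ≤ dist p y := by simpa [hB] using hp
        have : Gam E ψ ψ p = 0 := by
          refine hc.gam_zero_of_eventually _ _ _ ?_
          have : ∀ᶠ q in 𝓝 p, 8 * r < dist q y :=
            continuousAt_const.eventually_lt (continuous_id.dist continuous_const).continuousAt
              (show 8 * r < dist (id p) y by simp only [id]; linarith)
          filter_upwards [this] with q hq using ψ0 q hq.le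
        rw [this]; simp
    have e4 : ψ p ^ 2 * HS E 0 u p = ψ p * ψ p * HS E 0 u p := by ring
    rw [e4]
    linarith
  have iB : Integrable (B.indicator g) μ := by
    rw [integrable_indicator_iff measurableSet_ball]
    exact hc.intOn_cont hgc (isCompact_closedBall y (12 * r)) ball_subset_closedBall
  have iP : Integrable (fun p => ψ p * ψ p * HS E 0 u p) μ :=
    hc.int_cont (hψψ.cont.mul hHc) hψψ.2.mul_right
  have b5 : 1 / 2 * ∫ p, Φ p * Lap E F p ∂μ ≤ 1 / 2 * ∫ p, ψ p * ψ p * HS E 0 u p ∂μ +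
      ∫ p in B, g p ∂μ := by
    rw [b3, ← integral_indicator measurableSet_ball, ← integral_const_mul, ← integral_add
      (iP.const_mul _) iB, mul_neg, ← neg_mul, ← integral_const_mul]
    exact integral_mono_ae ((hc.int_gam hFl.ll hΦl).const_mul _) ((iP.const_mul _).add iB) b4
  have b6 : ∫ p, ψ p * ψ p * HS E 0 u p ∂μ ≤ ∫ p, Φ p * HS E 0 u p ∂μ := by
    refine integral_mono iP iH fun p => ?_
    have h7 := hφ1 (F p)
    have h8 := hH0 p
    have h9 : 0 ≤ ψ p * ψ p := mul_self_nonneg _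
    simp only [hΦ]
    have : 0 ≤ ψ p * ψ p * HS E 0 u p := by positivity
    nlinarith
  have b7 : ∫ p in ball y (4 * r), HS E 0 u p ∂μ ≤ ∫ p, ψ p * ψ p * HS E 0 u p ∂μ := by
    rw [← integral_indicator measurableSet_ball]
    refine integral_mono ?_ iP fun p => ?_
    · rw [integrable_indicator_iff measurableSet_ball]
      exact hc.intOn_cont hHc (isCompact_closedBall y (4 * r)) ball_subset_closedBall
    · have h8 := hH0 p
      have h9 : 0 ≤ ψ p * ψ p := mul_self_nonneg _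
      by_cases hp : p ∈ ball y (4 * r)
      · rw [indicator_of_mem hp]
        have := ψ1 p (mem_ball.1 hp).le
        simp [this]
      · rw [indicator_of_notMem hp]
        positivity
  have b8 : K * ∫ p, Φ p * F p ∂μ ≤ ∫ p in B, 3 * K * (1 + |F p - 1|) ∂μ := by
    have hg2 : Continuous fun p => 3 * K * (1 + |F p - 1|) := by
      have := hFt.cont
      fun_prop
    rw [← integral_const_mul, ← integral_indicator measurableSet_ball]
    refine integral_mono (iF.const_mul _) ?_ fun p => ?_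
    · rw [integrable_indicator_iff measurableSet_ball]
      exact hc.intOn_cont hg2 (isCompact_closedBall y (12 * r)) ball_subset_closedBall
    · by_cases hp : p ∈ B
      · rw [indicator_of_mem hp]
        have h10 : F p ≤ 1 + |F p - 1| := by have := le_abs_self (F p - 1); linarith
        have h11 : Φ p ≤ 3 := by
          have := (ψ01 p).1
          have := (ψ01 p).2
          have := hφ3 (F p)
          have := hφ1 (F p)
          simp only [hΦ]
          calc ψ p * ψ p * φ (F p) ≤ 1 * 1 * 3 := by gcongr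
            _ = 3 := by norm_num
        have h12 := hF0 p
        have h13 := hΦ0 p
        calc K * (Φ p * F p) ≤ K * (3 * (1 + |F p - 1|)) := by gcongr
          _ = _ := by ring
      · rw [indicator_of_notMem hp]
        have h7 : 12 * r ≤ dist p y := by simpa [hB] using hp
        rw [hΦz p (by linarith)]
        simp
  have b9 : ∫ p in B, (g p + 3 * K * (1 + |F p - 1|)) ∂μ =
      ∫ p in B, g p ∂μ + ∫ p in B, 3 * K * (1 + |F p - 1|) ∂μ := by
    have hg2 : Continuous fun p => 3 * K * (1 + |F p - 1|) := by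
      have := hFt.cont
      fun_prop
    exact integral_add (hc.intOn_cont hgc (isCompact_closedBall y (12 * r)) ball_subset_closedBall)
      (hc.intOn_cont hg2 (isCompact_closedBall y (12 * r)) ball_subset_closedBall)
  change _ ≤ ∫ p in B, (g p + 3 * K * (1 + |F p - 1|)) ∂μ
  rw [b9]
  linarith

end Vale.Agent.P210.R2.H53
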