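import Vale.Agent.P210.R2.H53.RSpec

open scoped Manifold ContDiff Topology Bundle ENNReal NNReal
open Set Metric Filter Bundle IsManifold MeasureTheory Manifold Asymptotics

set_option maxSynthPendingDepth 3

noncomputable section

namespace Vale.Agent.P210.R2.H53

/-- balls of radius `t ≤ r₀` are covered by `D` balls of radius `t / 2` -/
def Dbl (X : Type) [MetricSpace X] (D : ℕ) (r₀ : ℝ) : Prop :=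
  ∀ (x : X) (t : ℝ), 0 < t → t ≤ r₀ → ∃ T : Finset X, T.card ≤ D ∧
    closedBall x t ⊆ ⋃ z ∈ T, closedBall z (t / 2)

namespace Stmt

/-- DENS: the scale pigeonhole; `fl k` says that the scale `2 ^ (-k) * ρ₁` is admissible, all
but at most `K₁` scales are. -/
def DENS : Prop := ∀ (X : Type) [MetricSpace X] (n D K₁ N₀ : ℕ) (ρ ρ₁ Λ β ε : ℝ)
  (fl : ℕ → Prop) (A : Set X), 2 ≤ n → 0 < ρ → 2 ≤ Λ → 0 < β → β ≤ 1 → Λ ^ β ≤ 2 → 1 ≤ D →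
  ρ * Λ ≤ ρ₁ → Dbl X D (2 * ρ₁) →
  (∀ S : Finset ℕ, (∀ k ∈ S, ¬ fl k) → S.card ≤ K₁) →
  (∃ T : Finset X, T.card ≤ N₀ ∧ A ⊆ ⋃ z ∈ T, closedBall z ρ₁) →
  2 ^ n * N₀ * (D : ℝ) ^ (2 * K₁) * (ρ * Λ / ρ₁) ^ β < ε →
  HCge n ρ A (ε * ρ₁ ^ (n - 1)) →
  ∃ w ∈ A, ∃ (t : ℝ) (k : ℕ), ρ * Λ ≤ t ∧ t ≤ ρ₁ * 2⁻¹ ^ k ∧ ρ₁ * 2⁻¹ ^ k < 2 * t ∧ fl k ∧
    HCge n (t / Λ) (A ∩ closedBall w (2 * t)) (t ^ (n - 1) / 2)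

/-- PAIR: a far point with small slopes and a piece of positive content -/
def PAIR : Prop := ∀ (n j D : ℕ) (θ c₀ : ℝ), j + 2 ≤ n → 0 < θ → θ ≤ 1 → 0 < c₀ → 1 ≤ D →
  ∃ γ : ℝ, 0 < γ ∧ γ ≤ 1 ∧ ∀ γ₁ : ℝ, 0 < γ₁ → γ₁ ≤ θ * γ / 4 → ∃ c₂ : ℝ, 0 < c₂ ∧
  ∀ (X : Type) [MetricSpace X] (ρ t : ℝ) (w : X) (A : Set X) (h : Fin j → X → ℝ), 0 < ρ →
    ρ ≤ γ₁ * t / 2 → Dbl X D (2 * t) → A ⊆ closedBall w (2 * t) → HCge n ρ A (c₀ * t ^ (n - 1)) →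
    (∀ i, LipschitzWith 1 (h i)) →
    ∃ x ∈ A, ∃ z ∈ A, HCge n ρ (A ∩ closedBall z (γ₁ * t)) (c₂ * (γ₁ * t) ^ (n - 1)) ∧
      γ * t ≤ dist x z ∧ ∀ i, |h i x - h i z| ≤ θ * dist x z

/-- FLAT: all but few scales are flat for a bounded almost monotone sequence -/
def FLAT : Prop := ∀ (L : ℕ) (e B : ℝ), 0 < e → e ≤ 1 → 0 < B → 1 ≤ L → ∃ K₁ : ℕ,
  ∀ (a b : ℕ → ℝ) (m : ℕ), (∀ k, 0 < a k) → (∀ k, a k ≤ b k ∧ b k ≤ (1 + e / 4) * a k) →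
    Monotone b → a (m + L) ≤ B * a 0 →
    ∀ S : Finset ℕ, (∀ k ∈ S, k ≤ m ∧ (1 + e) * a k < a (k + L)) → S.card ≤ K₁

/-- HYPM: very weak harmonic functions are smooth -/
def HYPM : Prop := ForR fun E _ _ _ _ _ M _ _ _ _ _ _ _ _ _ =>
  ∀ (μ : Measure M), IsVol E μ → ∀ (U : Set M) (b : M → ℝ), IsOpen U → Measurable b →
    (∀ S : Set M, IsCompact S → S ⊆ U → IntegrableOn (fun p => b p ^ 2) S μ) →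
    (∀ Z : M → ℝ, TF E Z → tsupport Z ⊆ U → ∫ p, b p * Lap E Z p ∂μ = 0) →
    ∃ b' : M → ℝ, ContMDiffOn 𝓘(ℝ, E) 𝓘(ℝ, ℝ) ∞ b' U ∧ ∀ᵐ p ∂μ, p ∈ U → b' p = b p

end Stmt

end Vale.Agent.P210.R2.H53
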