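import Vale.Agent.P210.R2.H53.AnA
import Vale.Agent.P210.R2.H53.AnB
import Vale.Agent.P210.R2.H53.RCont
import Mathlib.MeasureTheory.Function.L2Space

open scoped Manifold ContDiff Topology Bundle ENNReal NNReal
open Set Metric Filter Bundle IsManifold MeasureTheory Manifold Asymptotics

set_option maxSynthPendingDepth 3
set_option linter.unusedSectionVars false

noncomputable section

namespace Vale.Agent.P210.R2.H53

section L2

variable {X : Type} [MeasurableSpace X] {μ : Measure X}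

theorem norm_sq_toLp {f : X → ℝ} (hf : MemLp f 2 μ) : ‖hf.toLp f‖ ^ 2 = ∫ p, f p ^ 2 ∂μ := by
  rw [← real_inner_self_eq_norm_sq, L2.inner_def]
  refine integral_congr_ae ?_
  filter_upwards [hf.coeFn_toLp] with p hp
  simp only [hp, real_inner_self_eq_norm_sq, Real.norm_eq_abs, sq_abs]

theorem exists_L2_limit {w : ℕ → X → ℝ} (hw : ∀ k, MemLp (w k) 2 μ)
    (hC : ∀ ε > 0, ∃ N, ∀ k ≥ N, ∀ l ≥ N, ∫ p, (w k p - w l p) ^ 2 ∂μ ≤ ε) :
    ∃ W : X → ℝ, Measurable W ∧ MemLp W 2 μ ∧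
      Tendsto (fun k => ∫ p, (w k p - W p) ^ 2 ∂μ) atTop (𝓝 0) := by
  set F : ℕ → Lp ℝ 2 μ := fun k => (hw k).toLp (w k) with hF
  have hd : ∀ k l, ‖F k - F l‖ ^ 2 = ∫ p, (w k p - w l p) ^ 2 ∂μ := by
    intro k l
    rw [hF]
    simp only
    rw [← MemLp.toLp_sub, norm_sq_toLp]
    rfl
  have hcau : CauchySeq F := by
    rw [Metric.cauchySeq_iff]
    intro ε hε
    obtain ⟨N, hN⟩ := hC (ε ^ 2 / 4) (by positivity)
    refine ⟨N, fun k hk l hl => ?_⟩
    rw [dist_eq_norm]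
    have h1 := hN k hk l hl
    rw [← hd] at h1
    have h2 : ‖F k - F l‖ ^ 2 < ε ^ 2 := by nlinarith
    exact lt_of_pow_lt_pow_left₀ 2 hε.le h2
  obtain ⟨G, hG⟩ := cauchySeq_tendsto_of_complete hcau
  have hGm : MemLp G 2 μ := Lp.memLp G
  obtain ⟨W, hWm, hWe⟩ := hGm.1
  have hWm' : Measurable W := hWm.measurable
  refine ⟨W, hWm', hGm.ae_eq hWe, ?_⟩
  have h3 : Tendsto (fun k => ‖F k - G‖ ^ 2) atTop (𝓝 0) := by
    have : Tendsto (fun k => ‖F k - G‖) atTop (𝓝 0) := tendsto_iff_norm_sub_tendsto_zero.1 hG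
    simpa using this.pow 2
  refine h3.congr fun k => ?_
  have h4 : F k - G = ((hw k).sub (hGm.ae_eq hWe)).toLp (w k - W) := by
    rw [MemLp.toLp_sub (hw k) (hGm.ae_eq hWe)]
    congr 1
    apply Lp.ext
    filter_upwards [hWe, (hGm.ae_eq hWe).coeFn_toLp] with p h5 h6
    rw [h6, h5]
  rw [h4, norm_sq_toLp]
  rfl

theorem cs_int {f g : X → ℝ} (hf : MemLp f 2 μ) (hg : MemLp g 2 μ) :
    (∫ p, f p * g p ∂μ) ^ 2 ≤ (∫ p, f p ^ 2 ∂μ) * ∫ p, g p ^ 2 ∂μ := by
  have i1 : Integrable (fun p => f p ^ 2) μ := hf.integrable_sq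
  have i2 : Integrable (fun p => g p ^ 2) μ := hg.integrable_sq
  have i3 : Integrable (fun p => f p * g p) μ := hf.integrable_mul hg
  have h1 : ∀ s : ℝ, 0 ≤ (∫ p, g p ^ 2 ∂μ) * (s * s) + (2 * ∫ p, f p * g p ∂μ) * s +
      ∫ p, f p ^ 2 ∂μ := by
    intro s
    have e : ∫ p, (f p + s * g p) ^ 2 ∂μ = (∫ p, g p ^ 2 ∂μ) * (s * s) +
        (2 * ∫ p, f p * g p ∂μ) * s + ∫ p, f p ^ 2 ∂μ := by
      have j1 := i2.const_mul (s * s)
      have j2 := i3.const_mul (2 * s)
      have j12 : Integrable (fun p => (s * s) * g p ^ 2 + (2 * s) * (f p * g p)) μ := j1.add j2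
      have : ∫ p, (f p + s * g p) ^ 2 ∂μ =
          ∫ p, ((s * s) * g p ^ 2 + (2 * s) * (f p * g p) + f p ^ 2) ∂μ :=
        integral_congr_ae (Eventually.of_forall fun p => by ring)
      rw [this, integral_add j12 i1, integral_add j1 j2, integral_const_mul, integral_const_mul]
      ring
    rw [← e]
    exact integral_nonneg fun p => sq_nonneg _
  have := discrim_le_zero h1
  unfold discrim at this
  nlinarith

end L2

variable {E : Type} [NormedAddCommGroup E] [NormedSpace ℝ E] [FiniteDimensional ℝ E]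
  [MeasurableSpace E] [BorelSpace E]
  {M : Type} [MetricSpace M] [ChartedSpace E M]
  [RiemannianBundle (fun x : M => TangentSpace 𝓘(ℝ, E) x)]
  [MeasurableSpace M] [BorelSpace M] [ProperSpace M]

omit [FiniteDimensional ℝ E] [MeasurableSpace E] [BorelSpace E] [MeasurableSpace M] [BorelSpace M]
  [ProperSpace M] in
theorem Lap_congr {u v : M → ℝ} {p : M} (h : u =ᶠ[𝓝 p] v) : Lap E u p = Lap E v p := by
  have h1 : (u ∘ (chartAt E p).symm) =ᶠ[𝓝 (chartAt E p p)] (v ∘ (chartAt E p).symm) := by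
    have hc : Tendsto (chartAt E p).symm (𝓝 (chartAt E p p)) (𝓝 p) := by
      have := (chartAt E p).continuousAt_symm ((chartAt E p).map_source (mem_chart_source E p))
      rwa [ContinuousAt, (chartAt E p).left_inv (mem_chart_source E p)] at this
    exact hc.eventually h
  unfold Lap lapG opG hessG
  rw [h1.fderiv.fderiv_eq, h1.fderiv_eq]

omit [FiniteDimensional ℝ E] [MeasurableSpace E] [BorelSpace E] [MeasurableSpace M] [BorelSpace M]
  [ProperSpace M] in
theorem Lap_zero (p : M) : Lap E (fun _ : M => (0 : ℝ)) p = 0 := by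
  have h0 : ((fun _ : M => (0 : ℝ)) ∘ (chartAt E p).symm) = fun _ => (0 : ℝ) := rfl
  have : fderiv ℝ (fun _ : E => (0 : ℝ)) = fun _ => 0 := by funext z; simp
  unfold Lap lapG opG hessG
  rw [h0, this]
  simp

omit [FiniteDimensional ℝ E] [MeasurableSpace E] [BorelSpace E] [MeasurableSpace M] [BorelSpace M]
  [ProperSpace M] in
theorem Lap_zero_of_notMem {u : M → ℝ} {p : M} (h : p ∉ tsupport u) : Lap E u p = 0 := by
  rw [Lap_congr (v := fun _ => 0), Lap_zero]
  have := (isClosed_tsupport u).isOpen_compl.mem_nhds h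
  filter_upwards [this] with q hq using image_eq_zero_of_notMem_tsupport hq

theorem LC.memLp {μ : Measure M} (hc : Cal E μ) {w : M → ℝ} (hw : LC w) : MemLp w 2 μ := by
  have := hc.isFinOn
  exact hw.cont.memLp_of_hasCompactSupport hw.2

end Vale.Agent.P210.R2.H53
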