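import Vale.Agent.P210.R2.H53.AnC

open scoped Manifold ContDiff Topology Bundle ENNReal NNReal
open Set Metric Filter Bundle IsManifold MeasureTheory Manifold Asymptotics

set_option maxSynthPendingDepth 3
set_option linter.unusedSectionVars false

noncomputable section

namespace Vale.Agent.P210.R2.H53

variable {E : Type} [NormedAddCommGroup E] [NormedSpace ℝ E] [FiniteDimensional ℝ E]
  [MeasurableSpace E] [BorelSpace E]
  {M : Type} [MetricSpace M] [ChartedSpace E M]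
  [RiemannianBundle (fun x : M => TangentSpace 𝓘(ℝ, E) x)]
  [MeasurableSpace M] [BorelSpace M] [ProperSpace M]

theorem exists_minseq {μ : Measure M} (hc : Cal E μ) {K n : ℝ} (hw : Wl E μ K n) (hn : 1 ≤ n)
    (hK : 0 ≤ K) {x y : M} {r a : ℝ} (hr : 0 < r)
    (hfar : ∀ q, dist q y ≤ 16 * r →
      0 < dist x q ∧ (n - 1) / dist x q + K * dist x q ≤ 1 / (2 * r))
    (hL : LapM E μ x y (16 * r) a) :
    ∃ (I : ℝ) (W : M → ℝ), Measurable W ∧ MemLp W 2 μ ∧
      (∀ w, TT y (16 * r) w → I ≤ JJ E μ (fun q => dist x q) w) ∧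
      ∀ δ > 0, ∃ w, TT y (16 * r) w ∧ JJ E μ (fun q => dist x q) w ≤ I + δ ∧
        ∫ p, (w p - W p) ^ 2 ∂μ ≤ δ ∧ ∫ p, Gam E w w p ∂μ ≤ 2 * δ + 96 * r * a := by
  set f : M → ℝ := fun q => dist x q with hf
  have hfl : LocallyLipschitz f := ll_dist x
  set S : Set ℝ := {j | ∃ w, TT y (16 * r) w ∧ JJ E μ f w = j} with hS
  have hSn : S.Nonempty := ⟨_, _, tt_zero y _, rfl⟩
  have hSb : BddBelow S := ⟨_, by rintro j ⟨w, hw, rfl⟩; exact hc.JJ_ge hfl hw⟩
  set I := sInf S with hI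
  have hI1 : ∀ w, TT y (16 * r) w → I ≤ JJ E μ f w := fun w hw => csInf_le hSb ⟨w, hw, rfl⟩
  have hex : ∀ k : ℕ, ∃ w, TT y (16 * r) w ∧ (∀ q, |w q| ≤ 3 * (16 * r)) ∧
      JJ E μ f w ≤ I + 1 / (k + 1) := by
    intro k
    obtain ⟨j, ⟨w, hw1, rfl⟩, hj⟩ := Real.lt_sInf_add_pos hSn (show (0 : ℝ) < 1 / (k + 1) by
      positivity)
    obtain ⟨w', h1, h2, h3⟩ := hc.JJ_trunc (x := x) (show 0 < 16 * r by positivity) hw1
    exact ⟨w', h1, h2, h3.trans hj.le⟩
  choose w hwT hwB hwJ using hex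
  have hC : ∀ ε > 0, ∃ N, ∀ k ≥ N, ∀ l ≥ N, ∫ p, (w k p - w l p) ^ 2 ∂μ ≤ ε := by
    intro ε hε
    set c := 16 * Real.exp 32 * r ^ 2 * 8 with hcdef
    have hc0 : 0 < c := by positivity
    obtain ⟨N, hN⟩ := exists_nat_one_div_lt (show 0 < ε / c by positivity)
    refine ⟨N, fun k hk l hl => ?_⟩
    have h1 : ∀ m ≥ N, JJ E μ f (w m) ≤ I + 1 / (N + 1) := by
      intro m hm
      have h2 : (1 : ℝ) / (m + 1) ≤ 1 / (N + 1) := by
        have : (N : ℝ) ≤ m := by exact_mod_cast hm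
        gcongr
      linarith [hwJ m]
    have h3 := hc.JJ_cauchy hfl hI1 (hwT l) (hwT k) (h1 l hl) (h1 k hk)
    have h4 := hc.poincare hw hn hK hr hfar ((hwT k).sub (hwT l))
    have h5 : 16 * Real.exp 32 * r ^ 2 *
        ∫ p, Gam E (fun q => w k q - w l q) (fun q => w k q - w l q) p ∂μ ≤
        16 * Real.exp 32 * r ^ 2 * (8 * (1 / (N + 1))) := by gcongr
    have h6 : c * (1 / (N + 1)) ≤ ε := by
      have := (lt_div_iff₀ hc0).1 hN
      linarith
    calc _ ≤ _ := h4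
      _ ≤ _ := h5
      _ = c * (1 / (N + 1)) := by rw [hcdef]; ring
      _ ≤ ε := h6
  obtain ⟨W, hWm, hWL, hWt⟩ := exists_L2_limit (fun k => (hwT k).1.memLp hc) hC
  refine ⟨I, W, hWm, hWL, hI1, fun δ hδ => ?_⟩
  obtain ⟨N, hN⟩ := exists_nat_one_div_lt hδ
  obtain ⟨k, hk, hkN⟩ := ((hWt.eventually_lt_const hδ).and (eventually_ge_atTop N)).exists
  have hJ : JJ E μ f (w k) ≤ I + δ := by
    have h2 : (1 : ℝ) / (k + 1) ≤ 1 / (N + 1) := by
      have : (N : ℝ) ≤ k := by exact_mod_cast hkN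
      gcongr
    linarith [hwJ k]
  refine ⟨w k, hwT k, hJ, hk.le, ?_⟩
  set G := ∫ p, Gam E (w k) (w k) p ∂μ with hG
  set A := ∫ p, Gam E f (w k) p ∂μ + G with hA
  have h1 : A ^ 2 ≤ 2 * δ * G := hc.JJ_el hfl hI1 (hwT k) (hwT k) hJ
  have hG0 : 0 ≤ G := integral_nonneg fun p => hc.nonneg _ _
  have h2 : A ≤ 1 / 2 * G + δ := by
    have : A ^ 2 ≤ (1 / 2 * G + δ) ^ 2 := by nlinarith [sq_nonneg (1 / 2 * G - δ)]
    exact (le_abs_self A).trans (abs_le_of_sq_le_sq this (by positivity))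
  have h3 : -∫ p, Gam E f (w k) p ∂μ ≤ 48 * r * a := by
    have hB : (0 : ℝ) < 3 * (16 * r) := by positivity
    have := hL (fun q => (-(3 * (16 * r))⁻¹) * w k q) ((hwT k).1.smul _) (fun q => ?_)
      (fun q hq => by rw [(hwT k).2 q hq, mul_zero])
    · have e : ∫ q, Gam E (fun q => dist x q) (fun q => (-(3 * (16 * r))⁻¹) * w k q) q ∂μ =
          (-(3 * (16 * r))⁻¹) * ∫ q, Gam E f (w k) q ∂μ := by
        rw [← integral_const_mul]
        exact integral_congr_ae (Eventually.of_forall fun q => hc.smul' _ _ _ _)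
      rw [e, neg_mul, ← mul_neg, inv_mul_le_iff₀ hB] at this
      linarith
    · rw [abs_mul, abs_neg, abs_inv, abs_of_pos hB, inv_mul_le_iff₀ hB, mul_one]
      exact hwB k q
  linarith

theorem weak_harm {μ : Measure M} (hc : Cal E μ) {K : ℝ} (h2 : Cal2 E M K) {x y : M} {r I C : ℝ}
    (hr : 0 < r) {W : M → ℝ} (hWL : MemLp W 2 μ)
    (hI : ∀ w, TT y (16 * r) w → I ≤ JJ E μ (fun q => dist x q) w)
    (hs : ∀ δ > 0, ∃ w, TT y (16 * r) w ∧ JJ E μ (fun q => dist x q) w ≤ I + δ ∧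
        ∫ p, (w p - W p) ^ 2 ∂μ ≤ δ ∧ ∫ p, Gam E w w p ∂μ ≤ 2 * δ + C)
    {Z : M → ℝ} (hZ : TF E Z) (hZs : tsupport Z ⊆ ball y (16 * r)) :
    ∫ p, (dist x p + W p) * Lap E Z p ∂μ = 0 := by
  set f : M → ℝ := fun q => dist x q with hf
  have hfl : LocallyLipschitz f := ll_dist x
  obtain ⟨χ, χl, χ01, χ1, -, -⟩ := lc_cutoff y (show 17 * r < 18 * r by linarith)
  have hfχ : LC fun q => χ q * f q := LC.mul_right χl hfl
  have hLZ : TF E (Lap E Z) := h2.tfl Z hZ
  have hLM : MemLp (Lap E Z) 2 μ := (hLZ.lc hc).memLp hc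
  have hZT : TT y (16 * r) Z := ⟨hZ.lc hc, fun q hq => by
    by_contra hne
    have : q ∈ ball y (16 * r) := hZs (subset_tsupport _ hne)
    exact absurd (mem_ball.1 this) (not_lt.2 hq)⟩
  have hout : ∀ p, p ∉ ball y (16 * r) → Lap E Z p = 0 := fun p hp =>
    Lap_zero_of_notMem fun h => hp (hZs h)
  have hfχL : MemLp (fun q => χ q * f q) 2 μ := hfχ.memLp hc
  have e0 : ∫ p, (dist x p + W p) * Lap E Z p ∂μ =
      ∫ p, (χ p * f p) * Lap E Z p ∂μ + ∫ p, W p * Lap E Z p ∂μ := by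
    have j1 : Integrable (fun p => (χ p * f p) * Lap E Z p) μ := hfχL.integrable_mul hLM
    have j2 : Integrable (fun p => W p * Lap E Z p) μ := hWL.integrable_mul hLM
    rw [← integral_add j1 j2]
    refine integral_congr_ae (Eventually.of_forall fun p => ?_)
    by_cases hp : p ∈ ball y (16 * r)
    · have : χ p = 1 := χ1 p (by have := mem_ball.1 hp; linarith)
      simp only [this, hf]; ring
    · simp [hout p hp]
  set D := ∫ p, (dist x p + W p) * Lap E Z p ∂μ with hD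
  set G := ∫ p, Gam E Z Z p ∂μ with hG
  have hG0 : 0 ≤ G := integral_nonneg fun p => hc.nonneg _ _
  set Q := ∫ p, Lap E Z p ^ 2 ∂μ with hQ
  have hQ0 : 0 ≤ Q := integral_nonneg fun p => sq_nonneg _
  have key : ∀ δ > 0, D ^ 2 ≤ δ * (4 * G + 2 * Q) := by
    intro δ hδ
    obtain ⟨w, hw1, hw2, hw3, -⟩ := hs δ hδ
    have hwL := hw1.1.memLp hc
    -- the equation for w
    have e1 : ∫ p, (χ p * f p) * Lap E Z p ∂μ + ∫ p, w p * Lap E Z p ∂μ =
        -(∫ p, Gam E f Z p ∂μ + ∫ p, Gam E w Z p ∂μ) := by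
      have a1 := hc.ibp Z _ hZ hfχ
      have a2 := hc.ibp Z w hZ hw1.1
      have a3 : ∫ p, Gam E Z (fun q => χ q * f q) p ∂μ = ∫ p, Gam E f Z p ∂μ := by
        refine integral_congr_ae (Eventually.of_forall fun p => ?_)
        by_cases hp : p ∈ tsupport Z
        · have hp' := mem_ball.1 (hZs hp)
          have hev : (fun q => χ q * f q) =ᶠ[𝓝 p] f := by
            have : ∀ᶠ q in 𝓝 p, dist q y < 17 * r :=
              (continuous_id.dist continuous_const).continuousAt.eventually_lt continuousAt_const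
                (show dist (id p) y < 17 * r by simp only [id]; linarith)
            filter_upwards [this] with q hq
            rw [χ1 q hq.le, one_mul]
          change Gam E Z (fun q => χ q * f q) p = Gam E f Z p
          rw [hc.congr' _ _ _ _ hev, hc.symm]
        · change Gam E Z (fun q => χ q * f q) p = Gam E f Z p
          rw [hc.symm, hc.gam_zero_of_notMem _ hp, hc.gam_zero_of_notMem _ hp]
      have a4 : ∫ p, Gam E Z w p ∂μ = ∫ p, Gam E w Z p ∂μ :=
        integral_congr_ae (Eventually.of_forall fun p => hc.symm _ _ _)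
      rw [a3] at a1
      rw [a4] at a2
      linarith
    have e2 := hc.JJ_el hfl hI hw1 hZT hw2
    have e3 : D = -(∫ p, Gam E f Z p ∂μ + ∫ p, Gam E w Z p ∂μ) -
        ∫ p, (w p - W p) * Lap E Z p ∂μ := by
      have : ∫ p, (w p - W p) * Lap E Z p ∂μ = ∫ p, w p * Lap E Z p ∂μ -
          ∫ p, W p * Lap E Z p ∂μ := by
        have j1 : Integrable (fun p => w p * Lap E Z p) μ := hwL.integrable_mul hLM
        have j2 : Integrable (fun p => W p * Lap E Z p) μ := hWL.integrable_mul hLM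
        rw [← integral_sub j1 j2]
        exact integral_congr_ae (Eventually.of_forall fun p => by simp only [sub_mul])
      rw [this, ← e1, e0]
      ring
    have e4 := cs_int (hwL.sub hWL) hLM
    simp only [Pi.sub_apply] at e4
    set A := ∫ p, Gam E f Z p ∂μ + ∫ p, Gam E w Z p ∂μ
    set B := ∫ p, (w p - W p) * Lap E Z p ∂μ
    have e5 : B ^ 2 ≤ δ * Q := e4.trans (mul_le_mul_of_nonneg_right hw3 hQ0)
    rw [e3]
    nlinarith [sq_nonneg (A - B)]
  by_contra hne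
  have hpos : 0 < D ^ 2 := by positivity
  have hc1 : 0 < 4 * G + 2 * Q + 1 := by positivity
  have := key (D ^ 2 / (2 * (4 * G + 2 * Q + 1))) (by positivity)
  have h7 : D ^ 2 / (2 * (4 * G + 2 * Q + 1)) * (4 * G + 2 * Q) ≤ D ^ 2 / 2 := by
    rw [div_mul_eq_mul_div, div_le_div_iff₀ (by positivity) (by norm_num)]
    nlinarith
  linarith

end Vale.Agent.P210.R2.H53
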