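import Vale.Agent.P210.R2.H53.AnD

open scoped Manifold ContDiff Topology Bundle ENNReal NNReal
open Set Metric Filter Bundle IsManifold MeasureTheory Manifold Asymptotics

set_option maxSynthPendingDepth 3
set_option linter.unusedSectionVars false

noncomputable section

namespace Vale.Agent.P210.R2.H53

variable {E : Type} [NormedAddCommGroup E] [NormedSpace ℝ E] [FiniteDimensional ℝ E]
  [MeasurableSpace E] [BorelSpace E]
  {M : Type} [MetricSpace M] [ChartedSpace E M]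
  [RiemannianBundle (fun x : M => TangentSpace 𝓘(ℝ, E) x)]
  [MeasurableSpace M] [BorelSpace M] [ProperSpace M]

theorem tf_mul_on {U : Set M} (hU : IsOpen U) {χ b : M → ℝ} (hχ : TF E χ) (hs : tsupport χ ⊆ U)
    (hb : ContMDiffOn 𝓘(ℝ, E) 𝓘(ℝ, ℝ) ∞ b U) : TF E (fun p => χ p * b p) := by
  refine ⟨fun p => ?_, hχ.2.mul_right⟩
  by_cases hp : p ∈ U
  · have h1 : ContMDiffAt 𝓘(ℝ, E) 𝓘(ℝ, ℝ) ∞ b p := hb.contMDiffAt (hU.mem_nhds hp)
    exact (hχ.1 p).mul h1
  · have hp' : p ∉ tsupport χ := fun h => hp (hs h)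
    have h0 : (fun p => χ p * b p) =ᶠ[𝓝 p] fun _ => 0 := by
      filter_upwards [(isClosed_tsupport χ).isOpen_compl.mem_nhds hp'] with q hq
      rw [image_eq_zero_of_notMem_tsupport hq, zero_mul]
    exact contMDiffAt_const.congr_of_eventuallyEq h0

theorem tf_mul {χ b : M → ℝ} (hχ : TF E χ) (hb : TF E b) : TF E (fun p => χ p * b p) :=
  tf_mul_on isOpen_univ hχ (subset_univ _) hb.1.contMDiffOn

/-- a smooth function orthogonal to test functions supported in an open set vanishes there -/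
theorem zero_of_int {μ : Measure M} (hc : Cal E μ) {V : Set M} (hV : IsOpen V) {g : M → ℝ}
    (hg : TF E g) (h : ∀ Z, TF E Z → tsupport Z ⊆ V → ∫ p, Z p * g p ∂μ = 0) :
    ∀ p ∈ V, g p = 0 := by
  intro p hp
  by_contra hne
  obtain ⟨χ, χt, χ01, χ1, χs⟩ := hc.cut {p} V isCompact_singleton hV (by simpa using hp)
  have hχp : χ p = 1 := by
    rw [nhdsSet_singleton] at χ1
    exact χ1.self_of_nhds
  have hZ : TF E (fun q => χ q * g q) := tf_mul χt hg
  have h1 := h _ hZ ((closure_mono (by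
    intro q hq
    simp only [Function.mem_support, ne_eq, mul_eq_zero, not_or] at hq
    exact hq.1)).trans χs)
  have hcont : Continuous fun q => χ q * g q * g q := (hZ.cont).mul hg.cont
  have hnn : ∀ q, 0 ≤ χ q * g q * g q := fun q => by
    rw [mul_assoc]; exact mul_nonneg (χ01 q).1 (mul_self_nonneg _)
  have hint : Integrable (fun q => χ q * g q * g q) μ :=
    hc.int_cont hcont (hZ.2.mul_right)
  have h2 := (integral_eq_zero_iff_of_nonneg hnn hint).1 h1
  have ho : IsOpen {q | 0 < χ q * g q * g q} := isOpen_lt continuous_const hcont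
  have hpos := hc.pos _ ho ⟨p, by
    simp only [mem_setOf_eq, hχp, one_mul]
    exact mul_self_pos.2 hne⟩
  have hz : μ {q | 0 < χ q * g q * g q} = 0 := by
    refine measure_mono_null (fun q hq => ?_) (ae_iff.1 h2)
    simp only [mem_setOf_eq, Pi.zero_apply] at hq ⊢
    exact hq.ne'
  rw [hz] at hpos
  exact lt_irrefl _ hpos

theorem cacc_pt1 {ψ h g G P : ℝ} (hG : 0 ≤ G) (hP : 0 ≤ P) (hg : g ^ 2 ≤ G * P) :
    -(2 * (ψ * h * g)) ≤ 1 / 2 * (ψ * ψ * G) + 2 * (h ^ 2 * P) := by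
  have h1 : (2 * (ψ * h * g)) ^ 2 ≤ (1 / 2 * (ψ * ψ * G) + 2 * (h ^ 2 * P)) ^ 2 := by
    have h2 : (2 * (ψ * h * g)) ^ 2 ≤ 4 * (ψ ^ 2 * h ^ 2 * (G * P)) := by
      have : (2 * (ψ * h * g)) ^ 2 = 4 * (ψ ^ 2 * h ^ 2 * g ^ 2) := by ring
      rw [this]; gcongr
    nlinarith [sq_nonneg (1 / 2 * (ψ * ψ * G) - 2 * (h ^ 2 * P))]
  have h3 := abs_le_of_sq_le_sq h1 (by have := mul_self_nonneg ψ; positivity)
  have := neg_abs_le (2 * (ψ * h * g))
  linarith

theorem cacc_pt2 {ψ h g G P : ℝ} (hψ : 0 ≤ ψ) (hψ1 : ψ ≤ 1) (hG : 0 ≤ G) (hP : 0 ≤ P)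
    (hg : g ^ 2 ≤ G * P) :
    (ψ * ψ) ^ 2 * G + 4 * (ψ ^ 3 * h * g) + 4 * (ψ ^ 2 * h ^ 2 * P) ≤
      2 * (ψ * ψ * G) + 8 * (h ^ 2 * P) := by
  have h1 : (4 * (ψ ^ 3 * h * g)) ^ 2 ≤ ((ψ * ψ) ^ 2 * G + 4 * (ψ ^ 2 * h ^ 2 * P)) ^ 2 := by
    have h2 : (4 * (ψ ^ 3 * h * g)) ^ 2 ≤ 16 * (ψ ^ 6 * h ^ 2 * (G * P)) := by
      have : (4 * (ψ ^ 3 * h * g)) ^ 2 = 16 * (ψ ^ 6 * h ^ 2 * g ^ 2) := by ring
      rw [this]; gcongr
    nlinarith [sq_nonneg ((ψ * ψ) ^ 2 * G - 4 * (ψ ^ 2 * h ^ 2 * P))]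
  have h3 := (le_abs_self _).trans (abs_le_of_sq_le_sq h1 (by positivity))
  have hq2 : ψ ^ 2 ≤ 1 := by nlinarith
  have h9 : (ψ * ψ) ^ 2 * G ≤ ψ * ψ * G := by
    have : (ψ * ψ) ^ 2 ≤ ψ * ψ := by nlinarith [mul_self_nonneg ψ]
    exact mul_le_mul_of_nonneg_right this hG
  have h10 : ψ ^ 2 * h ^ 2 * P ≤ h ^ 2 * P := by
    calc ψ ^ 2 * h ^ 2 * P = ψ ^ 2 * (h ^ 2 * P) := by ring
      _ ≤ 1 * (h ^ 2 * P) := by gcongr
      _ = _ := one_mul _
  linarith

theorem cacc_pt3 {X Y δ A : ℝ} (hX : 0 ≤ X) (hY : 0 ≤ Y) (hδ : 0 < δ)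
    (h : A ^ 2 ≤ 2 * δ * (2 * X + 8 * Y)) : |A| ≤ 1 / 4 * X + 12 * δ + Y := by
  have h1 : A ^ 2 ≤ (1 / 4 * X + 12 * δ + Y) ^ 2 := by
    nlinarith [sq_nonneg (1 / 4 * X - 4 * δ), sq_nonneg (Y - 4 * δ),
      mul_nonneg hX hY, mul_nonneg hδ.le hX, mul_nonneg hδ.le hY, sq_nonneg δ]
  exact abs_le_of_sq_le_sq h1 (by positivity)

/-- Caccioppoli inequality for the difference of a harmonic function and a near minimizer -/
theorem cacc {μ : Measure M} (hc : Cal E μ) {x y : M} {r I δ : ℝ} (hr : 0 < r) (hδ : 0 < δ)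
    {u w : M → ℝ} (hu : TF E u) (hΔ : ∀ p, dist p y < 13 * r → Lap E u p = 0)
    (hI : ∀ w, TT y (16 * r) w → I ≤ JJ E μ (fun q => dist x q) w)
    (hw : TT y (16 * r) w) (hwJ : JJ E μ (fun q => dist x q) w ≤ I + δ) :
    ∫ p in ball y (12 * r), Gam E (fun q => u q - dist x q - w q) (fun q => u q - dist x q - w q) p
      ∂μ ≤ 48 * (δ + (r⁻¹) ^ 2 * ∫ p in ball y (14 * r), (u p - dist x p - w p) ^ 2 ∂μ) := by
  set f : M → ℝ := fun q => dist x q with hf
  have hfl : LocallyLipschitz f := ll_dist x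
  have hul := (hu.lc hc).ll
  set h : M → ℝ := fun q => u q - f q - w q with hh
  have hhl : LocallyLipschitz h := ll_sub (ll_sub hul hfl) hw.1.ll
  obtain ⟨ψ, ψl, ψ01, ψ1, ψ0, ψL⟩ := lc_cutoff y (show 12 * r < 13 * r by linarith)
  have hψL : ∀ p, Gam E ψ ψ p ≤ r⁻¹ ^ 2 := by
    refine hc.le_of_lip' (by positivity) ?_
    rwa [show 13 * r - 12 * r = r by ring] at ψL
  have hψψ : LC fun p => ψ p * ψ p := LC.mul_left ψl.ll ψl
  set z : M → ℝ := fun p => (ψ p * ψ p) * h p with hz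
  have hzl : LC z := LC.mul_right hψψ hhl
  have hzT : TT y (16 * r) z := ⟨hzl, fun q hq => by
    simp [hz, ψ0 q (by linarith)]⟩
  have hzT' : ∀ q, 13 * r ≤ dist q y → z q = 0 := fun q hq => by simp [hz, ψ0 q hq]
  -- the three integrals
  have a1 : ∫ p, Gam E u z p ∂μ = 0 := by
    rw [hc.ibp u z hu hzl, neg_eq_zero]
    rw [integral_congr_ae (g := fun _ => (0 : ℝ)), integral_zero]
    refine Eventually.of_forall fun p => ?_
    by_cases hp : 13 * r ≤ dist p y
    · simp [hzT' p hp]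
    · simp [hΔ p (not_le.1 hp)]
  have a2 := hc.JJ_el hfl hI hw hzT hwJ
  set A := ∫ p, Gam E f z p ∂μ + ∫ p, Gam E w z p ∂μ with hA
  have a3 : ∫ p, Gam E h z p ∂μ = -A := by
    have e1 : ∫ p, Gam E h z p ∂μ = ∫ p, Gam E u z p ∂μ - ∫ p, Gam E f z p ∂μ -
        ∫ p, Gam E w z p ∂μ := by
      have i1 := hc.int_gam hul hzl
      have i2 := hc.int_gam hfl hzl
      have i3 := hc.int_gam hw.1.ll hzl
      have i12 : Integrable (fun p => Gam E u z p - Gam E f z p) μ := i1.sub i2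
      rw [← integral_sub i1 i2, ← integral_sub i12 i3]
      refine integral_congr_ae ?_
      filter_upwards [hc.diff f hfl, hc.diff w hw.1.ll] with p h1 h2
      have h3 := hu.md p
      rw [hh, hc.sub _ _ _ _ (hc.md_sub h3 h1) h2, hc.sub _ _ _ _ h3 h1]
    rw [e1, a1, hA]; ring
  -- pointwise
  set X := ∫ p, ψ p * ψ p * Gam E h h p ∂μ with hX
  set Y := ∫ p in ball y (14 * r), h p ^ 2 ∂μ with hY
  have iX : Integrable (fun p => ψ p * ψ p * Gam E h h p) μ := by
    have h1 : Integrable (fun p => (ψ p * ψ p) * Gam E h h p) μ := by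
      obtain ⟨C, hC0, hC⟩ := hc.bound hhl (isCompact_closedBall y (13 * r))
      refine hc.int_of ((hψψ.cont.measurable.mul (hc.gam_meas hhl hhl)).aestronglyMeasurable)
        (isCompact_closedBall y (13 * r)) (C := 1 * C ^ 2) (fun p hp => ?_) fun p hp => ?_
      · rw [abs_mul]
        have h3 : |ψ p * ψ p| ≤ 1 := by
          rw [abs_of_nonneg (mul_self_nonneg _)]
          have := ψ01 p
          nlinarith
        have h4 : |Gam E h h p| ≤ C ^ 2 := by
          rw [abs_of_nonneg (hc.nonneg _ _)]; exact hC p hp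
        gcongr
      · have : ψ p = 0 := ψ0 p (by
          simp only [mem_closedBall, not_le] at hp
          exact hp.le)
        simp [this]
    exact h1
  have iYc : Continuous fun p => h p ^ 2 := hhl.continuous.pow 2
  have iY : Integrable ((ball y (14 * r)).indicator fun p => h p ^ 2) μ := by
    rw [integrable_indicator_iff measurableSet_ball]
    exact hc.intOn_cont iYc (isCompact_closedBall y (14 * r)) ball_subset_closedBall
  have hY' : ∫ p, (ball y (14 * r)).indicator (fun p => h p ^ 2) p ∂μ = Y :=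
    integral_indicator measurableSet_ball
  have hX0 : 0 ≤ X := integral_nonneg fun p => mul_nonneg (mul_self_nonneg _) (hc.nonneg _ _)
  have hY0 : 0 ≤ Y := by
    rw [← hY']
    exact integral_nonneg fun p => indicator_nonneg (fun _ _ => sq_nonneg _) p
  have hP : ∀ p, h p ^ 2 * Gam E ψ ψ p ≤ r⁻¹ ^ 2 *
      (ball y (14 * r)).indicator (fun p => h p ^ 2) p := by
    intro p
    by_cases hp : p ∈ ball y (14 * r)
    · rw [indicator_of_mem hp, mul_comm]
      exact mul_le_mul_of_nonneg_right (hψL p) (sq_nonneg _)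
    · rw [indicator_of_notMem hp]
      have h7 : 14 * r ≤ dist p y := by simpa using hp
      have : Gam E ψ ψ p = 0 := by
        refine hc.gam_zero_of_eventually _ _ _ ?_
        have : ∀ᶠ q in 𝓝 p, 13 * r < dist q y :=
          continuousAt_const.eventually_lt (continuous_id.dist continuous_const).continuousAt
            (show 13 * r < dist (id p) y by simp only [id]; linarith)
        filter_upwards [this] with q hq using ψ0 q hq.le
      rw [this]; simp
  have rule : ∀ᵐ p ∂μ, ∀ v, Gam E v z p = ψ p * ψ p * Gam E v h p +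
      2 * (ψ p * h p * Gam E v ψ p) := by
    filter_upwards [hc.diff ψ ψl.ll, hc.diff h hhl, hc.diff _ hψψ.ll] with p d1 d2 d3 v
    rw [hz, hc.mul' v _ _ p d3 d2, hc.mul' v _ _ p d1 d1]
    ring
  have a4 : X ≤ |A| + 1 / 2 * X + 2 * (r⁻¹ ^ 2 * Y) := by
    have e1 : X + A ≤ 1 / 2 * X + 2 * (r⁻¹ ^ 2 * Y) := by
      have i3 := hc.int_gam hhl hzl
      have e2 : X + A = ∫ p, (ψ p * ψ p * Gam E h h p - Gam E h z p) ∂μ := by
        rw [integral_sub iX i3, a3]; ring
      rw [e2, hX, ← hY', ← integral_const_mul, ← integral_const_mul, ← integral_const_mul,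
        ← integral_add (iX.const_mul _) ((iY.const_mul _).const_mul _)]
      refine integral_mono_ae (iX.sub i3) ((iX.const_mul _).add ((iY.const_mul _).const_mul _)) ?_
      filter_upwards [rule] with p hp
      rw [hp h]
      have h1 := cacc_pt1 (ψ := ψ p) (h := h p) (hc.nonneg h p) (hc.nonneg ψ p) (hc.cs h ψ p)
      have h2 := hP p
      linarith
    have := neg_abs_le A
    linarith
  have a5 : ∫ p, Gam E z z p ∂μ ≤ 2 * X + 8 * (r⁻¹ ^ 2 * Y) := by
    rw [hX, ← hY', ← integral_const_mul, ← integral_const_mul, ← integral_const_mul,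
      ← integral_add (iX.const_mul _) ((iY.const_mul _).const_mul _)]
    refine integral_mono_ae (hc.int_gam hzl.ll hzl)
      ((iX.const_mul _).add ((iY.const_mul _).const_mul _)) ?_
    filter_upwards [rule] with p hp
    have h2 := hP p
    have e : Gam E z z p = (ψ p * ψ p) ^ 2 * Gam E h h p + 4 * (ψ p ^ 3 * h p * Gam E h ψ p) +
        4 * (ψ p ^ 2 * h p ^ 2 * Gam E ψ ψ p) := by
      rw [hp z, hc.symm z h, hc.symm z ψ, hp h, hp ψ, hc.symm ψ h]; ring
    rw [e]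
    have h1 := cacc_pt2 (h := h p) (ψ01 p).1 (ψ01 p).2 (hc.nonneg h p) (hc.nonneg ψ p)
      (hc.cs h ψ p)
    linarith
  have a6 : |A| ≤ 1 / 4 * X + 12 * δ + r⁻¹ ^ 2 * Y :=
    cacc_pt3 hX0 (by positivity) hδ (a2.trans (by gcongr))
  have a7 : X ≤ 48 * (δ + r⁻¹ ^ 2 * Y) := by
    have hrY : 0 ≤ r⁻¹ ^ 2 * Y := by positivity
    linarith
  refine le_trans ?_ a7
  rw [← integral_indicator measurableSet_ball, hX]
  refine integral_mono ?_ iX fun p => ?_
  · rw [integrable_indicator_iff measurableSet_ball]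
    exact hc.intOn_gam hhl hhl (isCompact_closedBall y (12 * r)) ball_subset_closedBall
  · by_cases hp : p ∈ ball y (12 * r)
    · rw [indicator_of_mem hp]
      have := ψ1 p (mem_ball.1 hp).le
      simp [this]
    · rw [indicator_of_notMem hp]
      exact mul_nonneg (mul_self_nonneg _) (hc.nonneg _ _)

end Vale.Agent.P210.R2.H53
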