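import Vale.Agent.P210.R2.H53.AnE

open scoped Manifold ContDiff Topology Bundle ENNReal NNReal
open Set Metric Filter Bundle IsManifold MeasureTheory Manifold Asymptotics

set_option maxSynthPendingDepth 3
set_option linter.unusedSectionVars false

noncomputable section

namespace Vale.Agent.P210.R2.H53

variable {E : Type} [NormedAddCommGroup E] [NormedSpace ℝ E] [FiniteDimensional ℝ E]
  [MeasurableSpace E] [BorelSpace E]
  {M : Type} [MetricSpace M] [ChartedSpace E M]
  [RiemannianBundle (fun x : M => TangentSpace 𝓘(ℝ, E) x)]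
  [MeasurableSpace M] [BorelSpace M] [ProperSpace M]

theorem int_abs_le {μ : Measure M} (hc : Cal E μ) {g : M → ℝ} (hg : Continuous g) {y : M}
    {s : ℝ} {V Q : ℝ} (hV : μ.real (ball y s) ≤ V) (hQ : ∫ p in ball y s, g p ^ 2 ∂μ ≤ Q)
    (hQ0 : 0 ≤ Q) (hV0 : 0 ≤ V) : ∫ p in ball y s, |g p| ∂μ ≤ √(V * Q) := by
  have hfin : μ (ball y s) ≠ ⊤ :=
    ((measure_mono ball_subset_closedBall).trans_lt (hc.fin _ (isCompact_closedBall y s))).ne
  have hi2 : IntegrableOn (fun p => g p ^ 2) (ball y s) μ :=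
    hc.intOn_cont (hg.pow 2) (isCompact_closedBall y s) ball_subset_closedBall
  have : IsFiniteMeasure (μ.restrict (ball y s)) := ⟨by
    rw [Measure.restrict_apply_univ]; exact lt_top_iff_ne_top.2 hfin⟩
  have m1 : MemLp (fun p => |g p|) 2 (μ.restrict (ball y s)) := by
    rw [memLp_two_iff_integrable_sq (hg.abs.aestronglyMeasurable)]
    simp only [sq_abs]
    exact hi2
  have m2 : MemLp (fun _ : M => (1 : ℝ)) 2 (μ.restrict (ball y s)) := memLp_const 1
  have h1 := cs_int m1 m2
  simp only [mul_one, sq_abs, one_pow, integral_const, smul_eq_mul] at h1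
  refine Real.le_sqrt_of_sq_le (h1.trans ?_)
  rw [mul_comm]
  have e : (μ.restrict (ball y s)).real univ = μ.real (ball y s) := by
    simp [Measure.real]
  rw [e]
  have h0 : 0 ≤ ∫ p in ball y s, g p ^ 2 ∂μ := integral_nonneg fun p => sq_nonneg _
  exact mul_le_mul hV hQ h0 hV0

/-- the harmonic function -/
theorem harm {μ : Measure M} (hc : Cal E μ) {K n : ℝ} (h2 : Cal2 E M K) (hw : Wl E μ K n)
    (hn : 1 ≤ n) (hK : 0 ≤ K) {x y : M} {r a : ℝ} (hr : 0 < r) (ha : 0 < a)
    (hfar : ∀ q, dist q y ≤ 16 * r →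
      0 < dist x q ∧ (n - 1) / dist x q + K * dist x q ≤ 1 / (2 * r))
    (hL : LapM E μ x y (16 * r) a)
    (hH : ∀ (U : Set M) (b : M → ℝ), IsOpen U → Measurable b →
      (∀ S : Set M, IsCompact S → S ⊆ U → IntegrableOn (fun p => b p ^ 2) S μ) →
      (∀ Z : M → ℝ, TF E Z → tsupport Z ⊆ U → ∫ p, b p * Lap E Z p ∂μ = 0) →
      ∃ b' : M → ℝ, ContMDiffOn 𝓘(ℝ, E) 𝓘(ℝ, ℝ) ∞ b' U ∧ ∀ᵐ p ∂μ, p ∈ U → b' p = b p) :
    ∃ u, TF E u ∧ (∀ p, dist p y < 12 * r → Lap E u p = 0) ∧
      ∫ p in ball y (12 * r), Gam E (fun q => u q - dist x q) (fun q => u q - dist x q) p ∂μ ≤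
        400 * (r * a) ∧
      ∫ p in ball y (12 * r), (u p - dist x p) ^ 2 ∂μ ≤ 10 ^ 4 * Real.exp 32 * r ^ 2 * (r * a) := by
  obtain ⟨I, W, hWm, hWL, hI, hs⟩ := exists_minseq hc hw hn hK hr hfar hL
  set f : M → ℝ := fun q => dist x q with hf
  have hfl : LocallyLipschitz f := ll_dist x
  -- the smooth function
  obtain ⟨b, hb1, hb2⟩ := hH (ball y (16 * r)) (fun p => f p + W p) isOpen_ball
    (hfl.continuous.measurable.add hWm) (fun S hS _ => by
      have := hc.isFinOn
      have i1 : IntegrableOn (fun p => 2 * f p ^ 2) S μ :=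
        (by have := hfl.continuous; fun_prop : Continuous fun p => 2 * f p ^ 2).continuousOn
          |>.integrableOn_compact hS
      have i2 : IntegrableOn (fun p => 2 * W p ^ 2) S μ :=
        (hWL.integrable_sq.const_mul 2).integrableOn
      refine (i1.add i2).mono' ((hfl.continuous.measurable.add hWm).pow_const 2).aestronglyMeasurable
        (Eventually.of_forall fun p => ?_)
      simp only [Pi.add_apply, Real.norm_eq_abs]
      rw [abs_of_nonneg (sq_nonneg _)]
      nlinarith [sq_nonneg (f p - W p)])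
    (fun Z hZ hZs => weak_harm hc h2 hr hWL hI hs hZ hZs)
  obtain ⟨χ, χt, χ01, χ1, χs⟩ := hc.cut (closedBall y (15 * r)) (ball y (16 * r))
    (isCompact_closedBall _ _) isOpen_ball (closedBall_subset_ball (by linarith))
  have χe : ∀ p, dist p y ≤ 15 * r → χ p = 1 := fun p hp =>
    (χ1.filter_mono (nhds_le_nhdsSet (mem_closedBall.2 hp))).self_of_nhds
  set u : M → ℝ := fun p => χ p * b p with hu
  have hut : TF E u := tf_mul_on isOpen_ball χt χs hb1
  have hul := (hut.lc hc).ll
  have hub : ∀ᵐ p ∂μ, dist p y ≤ 15 * r → u p = f p + W p := by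
    filter_upwards [hb2] with p hp hp'
    rw [hu]
    simp only
    rw [χe p hp', one_mul, hp (mem_ball.2 (by linarith))]
  -- harmonic
  have hΔ : ∀ p ∈ ball y (13 * r), Lap E u p = 0 := by
    refine zero_of_int hc isOpen_ball (h2.tfl u hut) fun Z hZ hZs => ?_
    have e1 := hc.ibp u Z hut (hZ.lc hc)
    have e2 := hc.ibp Z u hZ (hut.lc hc)
    have e3 : ∫ p, Gam E u Z p ∂μ = ∫ p, Gam E Z u p ∂μ :=
      integral_congr_ae (Eventually.of_forall fun p => hc.symm _ _ _)
    have e4 : ∫ p, u p * Lap E Z p ∂μ = ∫ p, (dist x p + W p) * Lap E Z p ∂μ := by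
      refine integral_congr_ae ?_
      filter_upwards [hub] with p hp
      by_cases hpz : p ∈ tsupport Z
      · have := mem_ball.1 (hZs hpz)
        rw [hp (by linarith)]
      · rw [Lap_zero_of_notMem hpz]; simp
    rw [weak_harm hc h2 hr hWL hI hs hZ (hZs.trans (ball_subset_ball (by linarith)))] at e4
    linarith
  -- a good near minimizer
  have hra : 0 < r * a := by positivity
  set δ := min (r * a) (r ^ 2 * (r * a)) with hδ
  have hδ0 : 0 < δ := lt_min hra (by positivity)
  have hδ1 : δ ≤ r * a := min_le_left _ _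
  have hδ2 : δ ≤ r ^ 2 * (r * a) := min_le_right _ _
  obtain ⟨w, hw1, hw2, hw3, hw4⟩ := hs δ hδ0
  have hca := cacc hc hr hδ0 hut (fun p hp => hΔ p (mem_ball.2 hp)) hI hw1 hw2
  set h : M → ℝ := fun q => u q - f q - w q with hh
  have hhl : LocallyLipschitz h := ll_sub (ll_sub hul hfl) hw1.1.ll
  have hY : ∫ p in ball y (14 * r), h p ^ 2 ∂μ ≤ δ := by
    refine le_trans ?_ hw3
    have i1 : Integrable (fun p => (w p - W p) ^ 2) μ := ((hw1.1.memLp hc).sub hWL).integrable_sq
    have e : ∫ p in ball y (14 * r), h p ^ 2 ∂μ = ∫ p in ball y (14 * r), (w p - W p) ^ 2 ∂μ := by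
      refine setIntegral_congr_ae measurableSet_ball ?_
      filter_upwards [hub] with p hp hpb
      have := mem_ball.1 hpb
      simp only [hh]
      rw [hp (by linarith)]
      ring
    rw [e]
    exact setIntegral_le_integral i1 (Eventually.of_forall fun p => sq_nonneg _)
  have hX : ∫ p in ball y (12 * r), Gam E h h p ∂μ ≤ 96 * (r * a) := by
    refine hca.trans ?_
    have h3 : r⁻¹ ^ 2 * ∫ p in ball y (14 * r), h p ^ 2 ∂μ ≤ r * a := by
      calc r⁻¹ ^ 2 * ∫ p in ball y (14 * r), h p ^ 2 ∂μ ≤ r⁻¹ ^ 2 * (r ^ 2 * (r * a)) := by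
            gcongr; exact hY.trans hδ2
        _ = r * a := by field_simp
    have : (∫ p in ball y (14 * r), (u p - dist x p - w p) ^ 2 ∂μ) =
        ∫ p in ball y (14 * r), h p ^ 2 ∂μ := rfl
    rw [this]
    linarith
  have hB : ∀ {s : ℝ} {g : M → ℝ}, Continuous g → IntegrableOn g (ball y s) μ := fun {s g} hg =>
    hc.intOn_cont hg (isCompact_closedBall y s) ball_subset_closedBall
  have hG : ∀ {s : ℝ} {g : M → ℝ}, LocallyLipschitz g → IntegrableOn (Gam E g g) (ball y s) μ :=
    fun {s g} hg => hc.intOn_gam hg hg (isCompact_closedBall y s) ball_subset_closedBall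
  have hGw : ∫ p in ball y (12 * r), Gam E w w p ∂μ ≤ 98 * (r * a) := by
    refine (setIntegral_le_integral (hc.int_gam hw1.1.ll hw1.1)
      (Eventually.of_forall fun p => hc.nonneg _ _)).trans ?_
    linarith
  have hd : ∀ p, u p - dist x p = h p + 1 * w p := fun p => by simp only [hh, hf]; ring
  refine ⟨u, hut, fun p hp => hΔ p (mem_ball.2 (by linarith)), ?_, ?_⟩
  · have e : (fun q => u q - dist x q) = fun q => h q + 1 * w q := funext hd
    rw [e]
    have h5 : ∫ p in ball y (12 * r), Gam E (fun q => h q + 1 * w q) (fun q => h q + 1 * w q) p ∂μ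
        ≤ ∫ p in ball y (12 * r), (2 * Gam E h h p + 2 * Gam E w w p) ∂μ := by
      refine integral_mono_ae (hG (ll_add hhl (ll_smul 1 hw1.1.ll)))
        (((hG hhl).const_mul 2).add ((hG hw1.1.ll).const_mul 2)) ?_
      refine ae_restrict_of_ae ?_
      filter_upwards [hc.diff h hhl, hc.diff w hw1.1.ll] with p d1 d2
      have h6 := hc.nonneg (fun q => h q + (-1) * w q) p
      rw [hc.quad _ _ _ _ d1 d2] at h6
      rw [hc.quad _ _ _ _ d1 d2]
      linarith
    have h7 : ∫ p in ball y (12 * r), (2 * Gam E h h p + 2 * Gam E w w p) ∂μ =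
        2 * ∫ p in ball y (12 * r), Gam E h h p ∂μ + 2 * ∫ p in ball y (12 * r), Gam E w w p ∂μ := by
      rw [integral_add ((hG hhl).const_mul 2) ((hG hw1.1.ll).const_mul 2), integral_const_mul,
        integral_const_mul]
    linarith
  · have h8 : ∫ p in ball y (12 * r), (u p - dist x p) ^ 2 ∂μ ≤
        ∫ p in ball y (12 * r), (2 * h p ^ 2 + 2 * w p ^ 2) ∂μ := by
      refine integral_mono (hB ?_) (hB ?_) fun p => ?_
      · exact (hul.continuous.sub hfl.continuous).pow 2
      · have := hhl.continuous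
        have := hw1.1.cont
        fun_prop
      · simp only [hd p]
        nlinarith [sq_nonneg (h p - w p)]
    have h9 : ∫ p in ball y (12 * r), (2 * h p ^ 2 + 2 * w p ^ 2) ∂μ =
        2 * ∫ p in ball y (12 * r), h p ^ 2 ∂μ + 2 * ∫ p in ball y (12 * r), w p ^ 2 ∂μ := by
      have j1 : IntegrableOn (fun p => 2 * h p ^ 2) (ball y (12 * r)) μ :=
        (hB (hhl.continuous.pow 2)).const_mul 2
      have j2 : IntegrableOn (fun p => 2 * w p ^ 2) (ball y (12 * r)) μ :=
        (hB (hw1.1.cont.pow 2)).const_mul 2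
      rw [integral_add j1 j2, integral_const_mul, integral_const_mul]
    have h10 : ∫ p in ball y (12 * r), h p ^ 2 ∂μ ≤ δ := by
      refine le_trans ?_ hY
      exact setIntegral_mono_set (hB (hhl.continuous.pow 2))
        (ae_of_all _ fun p => sq_nonneg _) (ball_subset_ball (by linarith)).eventuallyLE
    have h11 : ∫ p in ball y (12 * r), w p ^ 2 ∂μ ≤ 16 * Real.exp 32 * r ^ 2 * (98 * (r * a)) := by
      have i1 : Integrable (fun p => w p ^ 2) μ := (hw1.1.memLp hc).integrable_sq
      refine (setIntegral_le_integral i1 (Eventually.of_forall fun p => sq_nonneg _)).trans ?_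
      refine (hc.poincare hw hn hK hr hfar hw1).trans ?_
      gcongr
      linarith
    have h12 : (1 : ℝ) ≤ Real.exp 32 := Real.one_le_exp (by norm_num)
    have h13 : δ ≤ Real.exp 32 * (r ^ 2 * (r * a)) :=
      hδ2.trans (le_mul_of_one_le_left (by positivity) h12)
    calc _ ≤ _ := h8
      _ = _ := h9
      _ ≤ 2 * (Real.exp 32 * (r ^ 2 * (r * a))) +
          2 * (16 * Real.exp 32 * r ^ 2 * (98 * (r * a))) := by linarith
      _ ≤ _ := by
        have : 0 ≤ Real.exp 32 * r ^ 2 * (r * a) := by positivity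
        nlinarith

end Vale.Agent.P210.R2.H53
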