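import Vale.Agent.P210.R2.H53.AnF

open scoped Manifold ContDiff Topology Bundle ENNReal NNReal
open Set Metric Filter Bundle IsManifold MeasureTheory Manifold Asymptotics

set_option maxSynthPendingDepth 3
set_option linter.unusedSectionVars false

noncomputable section

namespace Vale.Agent.P210.R2.H53

variable {E : Type} [NormedAddCommGroup E] [NormedSpace ℝ E] [FiniteDimensional ℝ E]
  [MeasurableSpace E] [BorelSpace E]
  {M : Type} [MetricSpace M] [ChartedSpace E M]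
  [RiemannianBundle (fun x : M => TangentSpace 𝓘(ℝ, E) x)]
  [MeasurableSpace M] [BorelSpace M] [ProperSpace M]

theorem int_abs_le' {X : Type} [MeasurableSpace X] {μ : Measure X} {g : X → ℝ} {B : Set X}
    (hB : μ B ≠ ⊤) (hg : Measurable g) (hi2 : IntegrableOn (fun p => g p ^ 2) B μ)
    {V Q : ℝ} (hV : μ.real B ≤ V) (hQ : ∫ p in B, g p ^ 2 ∂μ ≤ Q) (hV0 : 0 ≤ V) :
    ∫ p in B, |g p| ∂μ ≤ √(V * Q) := by
  have : IsFiniteMeasure (μ.restrict B) := ⟨by
    rw [Measure.restrict_apply_univ]; exact lt_top_iff_ne_top.2 hB⟩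
  have m1 : MemLp (fun p => |g p|) 2 (μ.restrict B) := by
    rw [memLp_two_iff_integrable_sq (by fun_prop)]
    simp only [sq_abs]
    exact hi2
  have m2 : MemLp (fun _ : X => (1 : ℝ)) 2 (μ.restrict B) := memLp_const 1
  have h1 := cs_int m1 m2
  simp only [mul_one, sq_abs, one_pow, integral_const, smul_eq_mul] at h1
  refine Real.le_sqrt_of_sq_le (h1.trans ?_)
  rw [mul_comm]
  have e : (μ.restrict B).real univ = μ.real B := by
    simp [Measure.real]
  rw [e]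
  have h0 : 0 ≤ ∫ p in B, g p ^ 2 ∂μ := integral_nonneg fun p => sq_nonneg _
  exact mul_le_mul hV hQ h0 hV0

/-- `|grad u|^2` is close to one -/
theorem grad_close {μ : Measure M} (hc : Cal E μ) {u : M → ℝ} (hu : TF E u) {x y : M} {s V Q : ℝ}
    (hx : ∀ q, dist q y < s → x ≠ q) (hV : μ.real (ball y s) ≤ V) (hV0 : 0 ≤ V)
    (hQ : ∫ p in ball y s, Gam E (fun q => u q - dist x q) (fun q => u q - dist x q) p ∂μ ≤ Q) :
    ∫ p in ball y s, |Gam E u u p - 1| ∂μ ≤ Q + 2 * √(V * Q) := by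
  set d : M → ℝ := fun q => dist x q with hd
  have hdl : LocallyLipschitz d := ll_dist x
  have hul := (hu.lc hc).ll
  set v : M → ℝ := fun q => u q - d q with hv
  have hvl : LocallyLipschitz v := ll_sub hul hdl
  have hfin : μ (ball y s) ≠ ⊤ :=
    ((measure_mono ball_subset_closedBall).trans_lt (hc.fin _ (isCompact_closedBall y s))).ne
  have hG : ∀ {g k : M → ℝ}, LocallyLipschitz g → LocallyLipschitz k →
      IntegrableOn (Gam E g k) (ball y s) μ :=
    fun hg hk => hc.intOn_gam hg hk (isCompact_closedBall y s) ball_subset_closedBall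
  have i2 : IntegrableOn (fun p => √(Gam E v v p) ^ 2) (ball y s) μ := by
    refine (hG hvl hvl).congr_fun (fun p _ => ?_) measurableSet_ball
    exact (Real.sq_sqrt (hc.nonneg v p)).symm
  have m2 : Measurable fun p => √(Gam E v v p) := (hc.gam_meas hvl hvl).sqrt
  have e1 := int_abs_le' hfin m2 i2 hV (Q := Q) (by
    refine le_trans (le_of_eq ?_) hQ
    exact setIntegral_congr_fun measurableSet_ball fun p _ => Real.sq_sqrt (hc.nonneg v p)) hV0
  have i3 : IntegrableOn (fun p => |√(Gam E v v p)|) (ball y s) μ := by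
    obtain ⟨C, hC0, hC⟩ := hc.bound hvl (isCompact_closedBall y s)
    refine hc.intOn_of (m2.abs) (isCompact_closedBall y s) ball_subset_closedBall (C := C)
      fun p hp => ?_
    rw [abs_abs, abs_of_nonneg (Real.sqrt_nonneg _)]
    exact (Real.sqrt_le_left hC0).2 (hC p hp)
  have i4 : IntegrableOn (fun p => 2 * |√(Gam E v v p)|) (ball y s) μ := i3.const_mul 2
  have e2 : ∫ p in ball y s, |Gam E u u p - 1| ∂μ ≤
      ∫ p in ball y s, (Gam E v v p + 2 * |√(Gam E v v p)|) ∂μ := by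
    refine integral_mono_ae ?_ ((hG hvl hvl).add i4) ?_
    · have : IntegrableOn (fun p => Gam E u u p - 1) (ball y s) μ :=
        (hG hul hul).sub (integrableOn_const hfin)
      exact this.abs
    · rw [EventuallyLE, ae_restrict_iff' measurableSet_ball]
      filter_upwards [hc.diff d hdl] with p hp hpb
      have hxp := hx p (mem_ball.1 hpb)
      have h1 := hc.dist x p hxp hp
      have hum := hu.md p
      have e3 : Gam E v v p = Gam E u u p - 2 * Gam E u d p + 1 := by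
        rw [hv, hc.sub _ _ _ _ hum hp, hc.sub' _ _ _ _ hum hp, hc.sub' _ _ _ _ hum hp,
          hc.symm d u, h1]
        ring
      have e4 : Gam E v d p = Gam E u d p - 1 := by
        rw [hv, hc.sub _ _ _ _ hum hp, h1]
      have e5 : Gam E u u p - 1 = Gam E v v p + 2 * Gam E v d p := by rw [e3, e4]; ring
      have e6 : |Gam E v d p| ≤ √(Gam E v v p) := by
        have := hc.abs_le v d p
        rwa [h1, Real.sqrt_one, mul_one] at this
      have e7 := hc.nonneg v p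
      rw [e5, abs_of_nonneg (Real.sqrt_nonneg _)]
      calc |Gam E v v p + 2 * Gam E v d p| ≤ |Gam E v v p| + |2 * Gam E v d p| := abs_add_le _ _
        _ = Gam E v v p + 2 * |Gam E v d p| := by rw [abs_of_nonneg e7, abs_mul, abs_two]
        _ ≤ _ := by gcongr
  rw [integral_add (hG hvl hvl) i4, integral_const_mul] at e2
  linarith

theorem ev_lt (c : ℝ) {b : ℝ} (hb : 0 < b) : ∀ᶠ η in 𝓝[>] (0 : ℝ), c * η < b := by
  have : Tendsto (fun η : ℝ => c * η) (𝓝[>] 0) (𝓝 (c * 0)) :=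
    ((continuous_const.mul continuous_id).tendsto 0).mono_left nhdsWithin_le_nhds
  rw [mul_zero] at this
  exact this.eventually_lt_const hb

theorem ev_lt_sqrt (c : ℝ) {b : ℝ} (hb : 0 < b) : ∀ᶠ η in 𝓝[>] (0 : ℝ), c * √η < b := by
  have : Tendsto (fun η : ℝ => c * √η) (𝓝[>] 0) (𝓝 (c * √0)) :=
    ((continuous_const.mul Real.continuous_sqrt).tendsto 0).mono_left nhdsWithin_le_nhds
  rw [Real.sqrt_zero, mul_zero] at this
  exact this.eventually_lt_const hb

theorem an_num {r H V m S K η ε C₁ C₂ Ψ : ℝ} (hr : 0 < r) (hm0 : 0 < m) (hη : 0 < η)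
    (hη1 : η ≤ 1) (hε0 : 0 < ε) (hC1 : 0 < C₁) (hC2 : 0 < C₂) (hΨ : 0 < Ψ) (hK : 0 < K)
    (hKr : K * r ^ 2 ≤ η) (hV : V ≤ C₁ * m) (hS0 : 0 ≤ S)
    (hS2 : S ≤ C₂ * √η * m) (e10 : ε * C₁ = Ψ) (h5 : 18 * (1 + ε⁻¹) * C₂ * √η < Ψ)
    (h6 : 48 * (C₁ + C₂) * η < Ψ)
    (hb : 1 / 2 * H ≤ ((9 / 2) * ε * (4 * r)⁻¹ ^ 2 + 3 * K) * V +
          (18 * (1 + ε⁻¹) * (4 * r)⁻¹ ^ 2 + 3 * K) * S) : r ^ 2 * H ≤ Ψ * m := by
  have e4 : r ^ 2 * H ≤ 2 * ((9 / 32 * ε + 3 * (K * r ^ 2)) * V +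
      (9 / 8 * (1 + ε⁻¹) + 3 * (K * r ^ 2)) * S) := by
    have := mul_le_mul_of_nonneg_left hb (show 0 ≤ 2 * r ^ 2 by positivity)
    have e5 : 2 * r ^ 2 * (((9 / 2) * ε * (4 * r)⁻¹ ^ 2 + 3 * K) * V +
        (18 * (1 + ε⁻¹) * (4 * r)⁻¹ ^ 2 + 3 * K) * S) =
        2 * ((9 / 32 * ε + 3 * (K * r ^ 2)) * V +
        (9 / 8 * (1 + ε⁻¹) + 3 * (K * r ^ 2)) * S) := by
      field_simp
      ring
    rw [e5] at this
    linarith
  have hK0 : 0 ≤ K * r ^ 2 := by positivity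
  have e6 : (9 / 32 * ε + 3 * (K * r ^ 2)) * V ≤ (9 / 32 * ε + 3 * η) * (C₁ * m) := by
    calc (9 / 32 * ε + 3 * (K * r ^ 2)) * V ≤ (9 / 32 * ε + 3 * (K * r ^ 2)) * (C₁ * m) := by gcongr
      _ ≤ _ := by gcongr
  have e7 : (9 / 8 * (1 + ε⁻¹) + 3 * (K * r ^ 2)) * S ≤
      (9 / 8 * (1 + ε⁻¹)) * (C₂ * √η * m) + 3 * η * (C₂ * m) := by
    have e8 : S ≤ C₂ * m := by
      have : √η ≤ 1 := Real.sqrt_le_one.2 hη1
      calc S ≤ C₂ * √η * m := hS2
        _ ≤ C₂ * 1 * m := by gcongr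
        _ = _ := by ring
    have e9 : 0 ≤ ε⁻¹ := by positivity
    calc (9 / 8 * (1 + ε⁻¹) + 3 * (K * r ^ 2)) * S =
        (9 / 8 * (1 + ε⁻¹)) * S + 3 * (K * r ^ 2) * S := by ring
      _ ≤ _ := by gcongr
  have e11 : (9 / 8 * (1 + ε⁻¹)) * (C₂ * √η * m) ≤ Ψ / 16 * m := by
    have : (9 / 8 * (1 + ε⁻¹)) * (C₂ * √η * m) = (18 * (1 + ε⁻¹) * C₂ * √η) * m / 16 := by ring
    rw [this]
    have := mul_le_mul_of_nonneg_right h5.le hm0.le
    linarith
  have e12 : 3 * η * (C₁ * m) + 3 * η * (C₂ * m) ≤ Ψ / 16 * m := by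
    have := mul_le_mul_of_nonneg_right h6.le hm0.le
    have e : 3 * η * (C₁ * m) + 3 * η * (C₂ * m) = 48 * (C₁ + C₂) * η * m / 16 := by ring
    rw [e]; linarith
  have e13 : 9 / 32 * ε * (C₁ * m) = 9 / 32 * Ψ * m := by rw [← e10]; ring
  have e14 : (9 / 32 * ε + 3 * η) * (C₁ * m) = 9 / 32 * ε * (C₁ * m) + 3 * η * (C₁ * m) := by ring
  have e15 : 0 < Ψ * m := mul_pos hΨ hm0
  rw [e14, e13] at e6
  linarith

/-- the Hessian estimate with the integrals computed -/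
theorem boch_est' {μ : Measure M} (hc : Cal E μ) {K : ℝ} (h2 : Cal2 E M K) (hK : 0 ≤ K)
    {u : M → ℝ} (hu : TF E u) {y : M} {r ε : ℝ} (hr : 0 < r) (hε : 0 < ε)
    (hΔ : ∀ p, dist p y < 12 * r → Lap E u p = 0) :
    1 / 2 * ∫ p in ball y (4 * r), HS E 0 u p ∂μ ≤
      ((9 / 2) * ε * (4 * r)⁻¹ ^ 2 + 3 * K) * μ.real (ball y (12 * r)) +
          (18 * (1 + ε⁻¹) * (4 * r)⁻¹ ^ 2 + 3 * K) *
            ∫ q in ball y (12 * r), |Gam E u u q - 1| ∂μ := by
  have hb := boch_est hc h2 hK hu hr hε hΔ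
  have hfin : μ (ball y (12 * r)) ≠ ⊤ :=
    ((measure_mono ball_subset_closedBall).trans_lt (hc.fin _ (isCompact_closedBall y _))).ne
  have hFc : Continuous fun q => |Gam E u u q - 1| :=
    ((h2.tfg u hu).cont.sub continuous_const).abs
  have i1 : IntegrableOn (fun q => |Gam E u u q - 1|) (ball y (12 * r)) μ :=
    hc.intOn_cont hFc (isCompact_closedBall y (12 * r)) ball_subset_closedBall
  have e3 : ∫ q in ball y (12 * r), ((9 / 2) * ε * (4 * r)⁻¹ ^ 2 +
      18 * ((1 + ε⁻¹) * |Gam E u u q - 1|) * (4 * r)⁻¹ ^ 2 +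
      3 * K * (1 + |Gam E u u q - 1|)) ∂μ =
      ((9 / 2) * ε * (4 * r)⁻¹ ^ 2 + 3 * K) * μ.real (ball y (12 * r)) +
        (18 * (1 + ε⁻¹) * (4 * r)⁻¹ ^ 2 + 3 * K) * ∫ q in ball y (12 * r), |Gam E u u q - 1| ∂μ := by
    have : ∀ q, (9 / 2) * ε * (4 * r)⁻¹ ^ 2 +
        18 * ((1 + ε⁻¹) * |Gam E u u q - 1|) * (4 * r)⁻¹ ^ 2 +
        3 * K * (1 + |Gam E u u q - 1|) = ((9 / 2) * ε * (4 * r)⁻¹ ^ 2 + 3 * K) +
        (18 * (1 + ε⁻¹) * (4 * r)⁻¹ ^ 2 + 3 * K) * |Gam E u u q - 1| := fun q => by ring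
    simp_rw [this]
    have j1 : IntegrableOn (fun _ : M => (9 / 2) * ε * (4 * r)⁻¹ ^ 2 + 3 * K)
      (ball y (12 * r)) μ := integrableOn_const hfin
    rw [integral_add j1 (i1.const_mul _), integral_const_mul, setIntegral_const, smul_eq_mul]
    ring
  rwa [e3] at hb

/-- the pole is far away -/
theorem far_pole {p y : M} {r η K : ℝ} {n : ℕ} (hr : 0 < r) (hη : 0 < η) (hK : 0 < K)
    (hn : 2 ≤ n) (h1 : 144 * η < 1) (h2 : 8 * (n : ℝ) * η < 1) (hKr : K * r ^ 2 ≤ η)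
    (hp1 : r ≤ η * dist p y) (hp2 : K * r * dist p y ≤ η) :
    32 * r ≤ dist p y ∧ ∀ q, dist q y ≤ 16 * r →
      0 < dist p q ∧ ((n : ℝ) - 1) / dist p q + K * dist p q ≤ 1 / (2 * r) := by
  have hηr : r * η⁻¹ ≤ dist p y := by
    rw [← div_eq_mul_inv, div_le_iff₀ hη, mul_comm]; exact hp1
  have hn0 : (2 : ℝ) ≤ n := by exact_mod_cast hn
  have hd0 : 0 < dist p y := lt_of_lt_of_le (by positivity) hηr
  have h32 : 32 * r ≤ dist p y := by
    have : 32 * r ≤ r * η⁻¹ := by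
      rw [mul_comm]
      gcongr
      rw [le_inv_comm₀ (by norm_num) hη]
      linarith
    linarith
  refine ⟨h32, fun q hq => ?_⟩
  have t1 : dist p y ≤ dist p q + dist q y := dist_triangle _ _ _
  have t2 : dist p q ≤ dist p y + dist q y := by
    rw [dist_comm q y]; exact dist_triangle _ _ _
  have t3 : dist p y / 2 ≤ dist p q := by linarith
  have t4 : 0 < dist p q := by linarith
  refine ⟨t4, ?_⟩
  have t5 : ((n : ℝ) - 1) / dist p q ≤ 1 / (4 * r) := by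
    rw [div_le_div_iff₀ t4 (by positivity)]
    have t7 : ((n : ℝ) - 1) * 4 * 2 ≤ η⁻¹ := by
      rw [le_inv_comm₀ (by linarith) hη, ← one_div, le_div_iff₀ (by linarith)]
      nlinarith
    have t8 : ((n : ℝ) - 1) * 4 * 2 * r ≤ η⁻¹ * r := mul_le_mul_of_nonneg_right t7 hr.le
    linarith
  have t8 : K * dist p q ≤ 1 / (4 * r) := by
    rw [le_div_iff₀ (by positivity)]
    have : K * dist p q ≤ K * (dist p y + 16 * r) := by gcongr; linarith
    nlinarith
  have t9 : 1 / (4 * r) + 1 / (4 * r) = 1 / (2 * r) := by field_simp; norm_num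
  linarith

theorem an (hW : Stmt.WLC) (hBG : Stmt.BG) (hA : Stmt.CALA) (hB : Stmt.CALB) (hC : Stmt.CALC)
    (hD : Stmt.CALD) (hH : Stmt.HYPM) : Stmt.AN := by
  intro n hn Ψ hΨ
  set C₁ : ℝ := 12 ^ n * Real.exp 1 with hC₁
  have hC1 : 1 ≤ C₁ := by
    have h1 : (1 : ℝ) ≤ 12 ^ n := one_le_pow₀ (by norm_num)
    have h2 : (1 : ℝ) ≤ Real.exp 1 := Real.one_le_exp (by norm_num)
    nlinarith
  set C₂ : ℝ := 400 + 40 * √C₁ with hC₂
  have hC2 : 0 < C₂ := by positivity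
  set ε : ℝ := Ψ / C₁ with hε
  have hε0 : 0 < ε := by positivity
  obtain ⟨η, ⟨h1, h2, h3, h4, h5, h6⟩, hη⟩ : ∃ η : ℝ, (144 * η < 1 ∧ 8 * (n : ℝ) * η < 1 ∧
      C₁ * 10 ^ 4 * Real.exp 32 * η < Ψ ^ 2 ∧ 400 * η < Ψ ∧ 18 * (1 + ε⁻¹) * C₂ * √η < Ψ ∧
      48 * (C₁ + C₂) * η < Ψ) ∧ 0 < η := by
    have := (((ev_lt 144 one_pos).and ((ev_lt (8 * (n : ℝ)) one_pos).and
      ((ev_lt (C₁ * 10 ^ 4 * Real.exp 32) (by positivity : 0 < Ψ ^ 2)).and ((ev_lt 400 hΨ).and
      ((ev_lt_sqrt (18 * (1 + ε⁻¹) * C₂) hΨ).and (ev_lt (48 * (C₁ + C₂)) hΨ)))))).and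
      self_mem_nhdsWithin).exists
    obtain ⟨η, h, h'⟩ := this
    exact ⟨η, h, h'⟩
  refine ⟨η, hη, ?_⟩
  intro E _ _ _ _ _ M _ _ _ _ _ _ _ _ _ hfr hfn μ K hμ hK hR p y r hr hKr hpole
  have hc : Cal E μ := cal_of hA hB hD hfr hμ
  have h2' : Cal2 E M K := cal2_of hC hfr hR
  have hw : Wl E μ K n := by
    intro x ζ hζ h0
    have := hW E M hfr μ K hμ hK hR x ζ hζ h0
    rwa [hfn] at this
  have hbg := hBG n hn E M hfr hfn μ K hμ hK hR
  obtain ⟨hp1, hp2, hp3⟩ := hpole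
  obtain ⟨h32, hfar⟩ := far_pole hr hη hK hn h1 h2 hKr hp1 hp2
  have hn0 : (2 : ℝ) ≤ n := by exact_mod_cast hn
  set m := μ.real (ball y r) with hm
  have hm0 : 0 < m := by
    rw [hm, Measure.real, ENNReal.toReal_pos_iff]
    exact ⟨hc.pos _ isOpen_ball ⟨y, mem_ball_self hr⟩,
      (measure_mono ball_subset_closedBall).trans_lt (hc.fin _ (isCompact_closedBall y r))⟩
  obtain ⟨u, hu, hΔ, hE1, hE2⟩ := harm hc h2' hw (by linarith) hK.le hr
    (show 0 < η * m / r by positivity) hfar hp3 (hH E M hfr μ hμ)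
  have hra : r * (η * m / r) = η * m := by field_simp
  rw [hra] at hE1 hE2
  have hV : μ.real (ball y (12 * r)) ≤ C₁ * m := by
    refine (hbg y r (12 * r) hr (by linarith)).trans ?_
    rw [show 12 * r / r = 12 by field_simp]
    have : Real.exp (K * (12 * r) ^ 2) ≤ Real.exp 1 := Real.exp_le_exp.2 (by nlinarith)
    rw [hC₁]
    gcongr
  have hV0 : 0 ≤ C₁ * m := by positivity
  have hx : ∀ q, dist q y < 12 * r → p ≠ q := by
    rintro q hq rfl
    linarith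
  have hfin : ∀ s, μ (ball y s) ≠ ⊤ := fun s =>
    ((measure_mono ball_subset_closedBall).trans_lt (hc.fin _ (isCompact_closedBall y s))).ne
  have hul := (hu.lc hc).ll
  have hdl : LocallyLipschitz fun q => dist p q := ll_dist p
  have hvl := ll_sub hul hdl
  have hsub : ball y (4 * r) ⊆ ball y (12 * r) := ball_subset_ball (by linarith)
  refine ⟨u, hu, ?_, ?_, ?_⟩
  · have e1 : ∫ q in ball y (12 * r), |u q - dist p q| ∂μ ≤
        √(C₁ * m * (10 ^ 4 * Real.exp 32 * r ^ 2 * (η * m))) :=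
      int_abs_le' (hfin _) (hvl.continuous.measurable)
        (hc.intOn_cont (hvl.continuous.pow 2) (isCompact_closedBall y (12 * r))
          ball_subset_closedBall) hV hE2 hV0
    have e2 : √(C₁ * m * (10 ^ 4 * Real.exp 32 * r ^ 2 * (η * m))) ≤ Ψ * r * m := by
      rw [Real.sqrt_le_left (by positivity)]
      calc C₁ * m * (10 ^ 4 * Real.exp 32 * r ^ 2 * (η * m)) =
          (C₁ * 10 ^ 4 * Real.exp 32 * η) * (r * m) ^ 2 := by ring
        _ ≤ Ψ ^ 2 * (r * m) ^ 2 := by gcongr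
        _ = _ := by ring
    refine le_trans ?_ (e1.trans e2)
    exact setIntegral_mono_set (hc.intOn_cont hvl.continuous.abs
      (isCompact_closedBall y (12 * r)) ball_subset_closedBall)
      (ae_of_all _ fun q => abs_nonneg _) hsub.eventuallyLE
  · have e1 : ∫ q in ball y (4 * r), Gam E (fun q => u q - dist p q) (fun q => u q - dist p q) q ∂μ
        ≤ ∫ q in ball y (12 * r), Gam E (fun q => u q - dist p q) (fun q => u q - dist p q) q ∂μ :=
      setIntegral_mono_set (hc.intOn_gam hvl hvl (isCompact_closedBall y (12 * r))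
        ball_subset_closedBall) (ae_of_all _ fun q => hc.nonneg _ _) hsub.eventuallyLE
    refine e1.trans (hE1.trans ?_)
    nlinarith
  · have hS := grad_close hc hu hx hV hV0 hE1
    set S := ∫ q in ball y (12 * r), |Gam E u u q - 1| ∂μ with hSd
    have hη1 : η ≤ 1 := by linarith
    have hηs : η ≤ √η := by
      rw [Real.le_sqrt hη.le hη.le]
      nlinarith
    have hS2 : S ≤ C₂ * √η * m := by
      have e1 : √(C₁ * m * (400 * (η * m))) = 20 * √C₁ * √η * m := by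
        rw [show C₁ * m * (400 * (η * m)) = (20 * m) ^ 2 * (C₁ * η) by ring,
          Real.sqrt_mul (by positivity), Real.sqrt_sq (by positivity),
          Real.sqrt_mul (by positivity)]
        ring
      rw [e1] at hS
      have e2 : 400 * (η * m) ≤ 400 * √η * m := by nlinarith
      calc S ≤ _ := hS
        _ ≤ 400 * √η * m + 2 * (20 * √C₁ * √η * m) := by linarith
        _ = _ := by rw [hC₂]; ring
    have hS0 : 0 ≤ S := integral_nonneg fun q => abs_nonneg _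
    exact an_num hr hm0 hη hη1 hε0 (by linarith) hC2 hΨ hK hKr hV hS0 hS2
      (by rw [hε]; field_simp) h5 h6 (boch_est' hc h2' hK.le hu hr hε0 hΔ)

end Vale.Agent.P210.R2.H53
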