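import Vale.Agent.P210.R2.H53.RSpec

open scoped Manifold ContDiff Topology Bundle ENNReal NNReal
open Set Metric Filter Bundle IsManifold MeasureTheory Manifold Asymptotics

set_option maxSynthPendingDepth 3
set_option linter.unusedSectionVars false

noncomputable section

namespace Vale.Agent.P210.R2.H53

section Lip

variable {M : Type} [MetricSpace M]

/-- truncation to `[a, b]` -/
def cl (a b t : ℝ) : ℝ := max a (min b t)

theorem cl_mono (a b : ℝ) : Monotone (cl a b) := fun s t h => by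
  unfold cl; exact max_le_max le_rfl (min_le_min le_rfl h)

theorem cl_lip (a b : ℝ) : LipschitzWith 1 (cl a b) := by
  refine LipschitzWith.of_dist_le_mul fun s t => ?_
  simp only [Real.dist_eq, NNReal.coe_one, one_mul]
  unfold cl
  refine (abs_max_sub_max_le_max _ _ _ _).trans ?_
  simp only [sub_self, abs_zero]
  refine max_le (abs_nonneg _) ((abs_min_sub_min_le_max _ _ _ _).trans ?_)
  simp

theorem cl_ge (a b t : ℝ) : a ≤ cl a b t := le_max_left _ _

theorem cl_le {a b : ℝ} (h : a ≤ b) (t : ℝ) : cl a b t ≤ b := max_le h (min_le_left _ _)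

theorem cl_eq {a b t : ℝ} (h1 : a ≤ t) (h2 : t ≤ b) : cl a b t = t := by
  unfold cl; rw [min_eq_right h2, max_eq_right h1]

theorem cl_eq_left {a b t : ℝ} (h1 : t ≤ a) : cl a b t = a := by
  unfold cl; exact max_eq_left ((min_le_right _ _).trans h1)

theorem cl_eq_right {a b t : ℝ} (h1 : b ≤ t) (h2 : a ≤ b) : cl a b t = b := by
  unfold cl; rw [min_eq_left h1, max_eq_right h2]

theorem ll_mul {u v : M → ℝ} (hu : LocallyLipschitz u) (hv : LocallyLipschitz v) :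
    LocallyLipschitz (fun q => u q * v q) :=
  ((contDiff_fst.mul contDiff_snd : ContDiff ℝ 1 fun y : ℝ × ℝ => y.1 * y.2).locallyLipschitz).comp
    (hu.prodMk hv)

theorem ll_add {u v : M → ℝ} (hu : LocallyLipschitz u) (hv : LocallyLipschitz v) :
    LocallyLipschitz (fun q => u q + v q) := hu.add hv

theorem ll_sub {u v : M → ℝ} (hu : LocallyLipschitz u) (hv : LocallyLipschitz v) :
    LocallyLipschitz (fun q => u q - v q) := hu.sub hv

theorem ll_smul {u : M → ℝ} (c : ℝ) (hu : LocallyLipschitz u) :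
    LocallyLipschitz (fun q => c * u q) := ll_mul (LocallyLipschitz.const c) hu

theorem ll_dist (x : M) : LocallyLipschitz (fun q => dist x q) :=
  (LipschitzWith.dist_right x).locallyLipschitz

theorem LC.ll {u : M → ℝ} (h : LC u) : LocallyLipschitz u := h.1.choose_spec.locallyLipschitz

theorem LC.cont {u : M → ℝ} (h : LC u) : Continuous u := h.1.choose_spec.continuous

/-- a locally Lipschitz function with compact support is Lipschitz -/
theorem lc_of_ll [ProperSpace M] {u : M → ℝ} (h : LocallyLipschitz u) (hc : HasCompactSupport u) :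
    LC u := by
  refine ⟨?_, hc⟩
  have hK : IsCompact (cthickening 1 (tsupport u)) := IsCompact.cthickening hc
  obtain ⟨C, hC⟩ := (h.locallyLipschitzOn (s := cthickening 1 (tsupport u))
    ).exists_lipschitzOnWith_of_compact hK
  obtain ⟨B, hB⟩ := hc.exists_bound_of_continuous h.continuous
  have key : ∀ p q, p ∈ tsupport u → dist (u p) (u q) ≤ (C + 2 * B.toNNReal : ℝ≥0) * dist p q := by
    intro p q hp
    have hB' : B ≤ B.toNNReal := Real.le_coe_toNNReal B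
    push_cast
    by_cases hd : dist p q ≤ 1
    · have h1 := hC.dist_le_mul p (self_subset_cthickening _ hp) q
        (mem_cthickening_of_dist_le q p 1 _ hp (by rwa [dist_comm]))
      have : 0 ≤ 2 * (B.toNNReal : ℝ) * dist p q := by positivity
      linarith
    · push Not at hd
      have h1 : dist (u p) (u q) ≤ 2 * B.toNNReal := by
        rw [Real.dist_eq]
        have := hB p
        have := hB q
        simp only [Real.norm_eq_abs] at *
        have := abs_sub (u p) (u q)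
        linarith [abs_sub (u p) (u q)]
      have h2 : (2 : ℝ) * B.toNNReal ≤ 2 * B.toNNReal * dist p q := by
        nlinarith [B.toNNReal.2, (B.toNNReal).coe_nonneg]
      have : 0 ≤ (C : ℝ) * dist p q := by positivity
      linarith
  refine ⟨C + 2 * B.toNNReal, LipschitzWith.of_dist_le_mul fun p q => ?_⟩
  by_cases hp : p ∈ tsupport u
  · exact key p q hp
  by_cases hq : q ∈ tsupport u
  · rw [dist_comm (u p), dist_comm p]; exact key q p hq
  · rw [image_eq_zero_of_notMem_tsupport hp, image_eq_zero_of_notMem_tsupport hq]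
    simp only [dist_self]; positivity

theorem LC.add {u v : M → ℝ} [ProperSpace M] (hu : LC u) (hv : LC v) : LC (fun q => u q + v q) :=
  lc_of_ll (ll_add hu.ll hv.ll) (hu.2.add hv.2)

theorem LC.mul_left [ProperSpace M] {u v : M → ℝ} (hu : LocallyLipschitz u) (hv : LC v) :
    LC (fun q => u q * v q) := lc_of_ll (ll_mul hu hv.ll) (hv.2.mul_left)

theorem LC.mul_right [ProperSpace M] {u v : M → ℝ} (hu : LC u) (hv : LocallyLipschitz v) :
    LC (fun q => u q * v q) := lc_of_ll (ll_mul hu.ll hv) (hu.2.mul_right)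

theorem LC.smul [ProperSpace M] {v : M → ℝ} (c : ℝ) (hv : LC v) :
    LC (fun q => c * v q) := LC.mul_left (LocallyLipschitz.const c) hv

theorem LC.neg [ProperSpace M] {v : M → ℝ} (hv : LC v) : LC (fun q => - v q) := by
  simpa using hv.smul (-1)

theorem LC.sub [ProperSpace M] {u v : M → ℝ} (hu : LC u) (hv : LC v) :
    LC (fun q => u q - v q) := by
  simpa [sub_eq_add_neg] using hu.add hv.neg

theorem LC.comp [ProperSpace M] {φ : ℝ → ℝ} {v : M → ℝ} (hφ : LocallyLipschitz φ) (h0 : φ 0 = 0)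
    (hv : LC v) : LC (fun q => φ (v q)) :=
  lc_of_ll (hφ.comp hv.ll) (hv.2.comp_left h0)

theorem lc_zero : LC (fun _ : M => (0 : ℝ)) :=
  ⟨⟨0, LipschitzWith.const 0⟩, HasCompactSupport.zero⟩

/-- cutoff functions built from the distance -/
theorem lc_cutoff [ProperSpace M] (y : M) {a b : ℝ} (hab : a < b) :
    ∃ χ : M → ℝ, LC χ ∧ (∀ p, 0 ≤ χ p ∧ χ p ≤ 1) ∧ (∀ p, dist p y ≤ a → χ p = 1) ∧
      (∀ p, b ≤ dist p y → χ p = 0) ∧ ∀ p q, |χ p - χ q| ≤ (b - a)⁻¹ * dist p q := by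
  have hba : 0 < b - a := by linarith
  have hi : 0 < (b - a)⁻¹ := inv_pos.2 hba
  have hz : ∀ p, b ≤ dist p y → cl 0 1 ((b - a)⁻¹ * (b - dist p y)) = 0 := by
    intro p hp
    exact cl_eq_left (by nlinarith)
  refine ⟨fun p => cl 0 1 ((b - a)⁻¹ * (b - dist p y)), ?_, fun p => ⟨cl_ge _ _ _,
    cl_le zero_le_one _⟩, fun p hp => ?_, hz, fun p q => ?_⟩
  · refine lc_of_ll ?_ ?_
    · refine (cl_lip 0 1).locallyLipschitz.comp ?_
      exact ll_smul _ (ll_sub (LocallyLipschitz.const b) (LipschitzWith.dist_left y).locallyLipschitz)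
    · refine HasCompactSupport.intro (isCompact_closedBall y b) fun p hp => hz p ?_
      simp only [mem_closedBall, not_le] at hp
      exact hp.le
  · refine cl_eq_right ?_ zero_le_one
    rw [← inv_mul_cancel₀ hba.ne']
    exact mul_le_mul_of_nonneg_left (by linarith) hi.le
  · have h1 := (cl_lip 0 1).dist_le_mul ((b - a)⁻¹ * (b - dist p y)) ((b - a)⁻¹ * (b - dist q y))
    simp only [Real.dist_eq, NNReal.coe_one, one_mul] at h1
    refine h1.trans ?_
    rw [← mul_sub, abs_mul, abs_of_pos hi]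
    refine mul_le_mul_of_nonneg_left ?_ hi.le
    rw [show b - dist p y - (b - dist q y) = dist q y - dist p y by ring]
    exact (abs_dist_sub_le q p y).trans (dist_comm q p).le

end Lip

section cal

variable (E : Type) [NormedAddCommGroup E] [NormedSpace ℝ E] [FiniteDimensional ℝ E]
  [MeasurableSpace E] [BorelSpace E]
  {M : Type} [MetricSpace M] [ChartedSpace E M]
  [RiemannianBundle (fun x : M => TangentSpace 𝓘(ℝ, E) x)]
  [MeasurableSpace M] [BorelSpace M] [ProperSpace M]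

/-- the calculus facts used on a fixed manifold -/
structure Cal (μ : Measure M) : Prop where
  fin : ∀ K : Set M, IsCompact K → μ K < ⊤
  pos : ∀ U : Set M, IsOpen U → U.Nonempty → 0 < μ U
  diff : ∀ u : M → ℝ, LocallyLipschitz u → ∀ᵐ p ∂μ, MDifferentiableAt 𝓘(ℝ, E) 𝓘(ℝ, ℝ) u p
  meas : ∀ u v : M → ℝ, Continuous u → Continuous v → Measurable (Gam E u v)
  ibp : ∀ u v : M → ℝ, TF E u → LC v → ∫ p, Gam E u v p ∂μ = -∫ p, v p * Lap E u p ∂μ
  symm : ∀ (u v : M → ℝ) (p : M), Gam E u v p = Gam E v u p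
  nonneg : ∀ (u : M → ℝ) (p : M), 0 ≤ Gam E u u p
  cs : ∀ (u v : M → ℝ) (p : M), Gam E u v p ^ 2 ≤ Gam E u u p * Gam E v v p
  congr : ∀ (u v w : M → ℝ) (p : M), u =ᶠ[𝓝 p] v → Gam E u w p = Gam E v w p
  add : ∀ (u v w : M → ℝ) (p : M), MDifferentiableAt 𝓘(ℝ, E) 𝓘(ℝ, ℝ) u p →
    MDifferentiableAt 𝓘(ℝ, E) 𝓘(ℝ, ℝ) v p →
    Gam E (fun q => u q + v q) w p = Gam E u w p + Gam E v w p
  mul : ∀ (u v w : M → ℝ) (p : M), MDifferentiableAt 𝓘(ℝ, E) 𝓘(ℝ, ℝ) u p →
    MDifferentiableAt 𝓘(ℝ, E) 𝓘(ℝ, ℝ) v p →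
    Gam E (fun q => u q * v q) w p = u p * Gam E v w p + v p * Gam E u w p
  smul : ∀ (c : ℝ) (u w : M → ℝ) (p : M), Gam E (fun q => c * u q) w p = c * Gam E u w p
  const : ∀ (c : ℝ) (w : M → ℝ) (p : M), Gam E (fun _ => c) w p = 0
  comp : ∀ (φ : ℝ → ℝ) (u w : M → ℝ) (p : M), MDifferentiableAt 𝓘(ℝ, E) 𝓘(ℝ, ℝ) u p →
    DifferentiableAt ℝ φ (u p) → Gam E (fun q => φ (u q)) w p = deriv φ (u p) * Gam E u w p
  lip : ∀ (C : ℝ) (u : M → ℝ) (p : M), 0 ≤ C → (∀ᶠ q in 𝓝 p, |u q - u p| ≤ C * dist q p) →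
    Gam E u u p ≤ C ^ 2
  dist : ∀ (x p : M), x ≠ p → MDifferentiableAt 𝓘(ℝ, E) 𝓘(ℝ, ℝ) (fun q => dist x q) p →
    Gam E (fun q => dist x q) (fun q => dist x q) p = 1
  tfll : ∀ u : M → ℝ, TF E u → LocallyLipschitz u
  cut : ∀ S U : Set M, IsCompact S → IsOpen U → S ⊆ U → ∃ χ : M → ℝ, TF E χ ∧
    (∀ p, 0 ≤ χ p ∧ χ p ≤ 1) ∧ (∀ᶠ p in 𝓝ˢ S, χ p = 1) ∧ tsupport χ ⊆ U
  mono : ∀ (φ : ℝ → ℝ) (C : ℝ≥0) (u : M → ℝ) (p : M), Monotone φ → LipschitzWith C φ →
    MDifferentiableAt 𝓘(ℝ, E) 𝓘(ℝ, ℝ) u p → ∃ l : ℝ, 0 ≤ l ∧ l ≤ C ∧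
      ∀ w : M → ℝ, Gam E (fun q => φ (u q)) w p = l * Gam E u w p

variable {E}

theorem cal_of (hA : Stmt.CALA) (hB : Stmt.CALB) (hD : Stmt.CALD) [IsManifold 𝓘(ℝ, E) ∞ M]
    [IsContMDiffRiemannianBundle 𝓘(ℝ, E) ∞ E (fun x : M => TangentSpace 𝓘(ℝ, E) x)]
    [IsRiemannianManifold 𝓘(ℝ, E) M] (hn : 1 ≤ Module.finrank ℝ E) {μ : Measure M}
    (hμ : IsVol E μ) : Cal E μ := by
  obtain ⟨a1, a2, a3, a4, a5⟩ := hA E M hn μ hμ
  obtain ⟨-, b2, b3, b4, b5, b6, b7, b8, b9, b10, b11⟩ := hB E M hn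
  obtain ⟨d1, d2, d3⟩ := hD E M hn
  exact ⟨a1, a2, a3, a4, a5, b2, b3, b4, b5, fun u v w p h1 h2 => (b6 u v w p h1 h2).1,
    fun u v w p h1 h2 => (b6 u v w p h1 h2).2, b7, b8, b9, b10, b11, d1, d2, d3⟩

namespace Cal

variable {μ : Measure M} (hc : Cal E μ)

include hc

theorem isFinOn : IsFiniteMeasureOnCompacts μ := ⟨fun K hK => hc.fin K hK⟩

theorem congr' (u v w : M → ℝ) (p : M) (h : v =ᶠ[𝓝 p] w) : Gam E u v p = Gam E u w p := by
  rw [hc.symm u v, hc.symm u w]; exact hc.congr _ _ _ _ h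

theorem add' (u v w : M → ℝ) (p : M) (h1 : MDifferentiableAt 𝓘(ℝ, E) 𝓘(ℝ, ℝ) v p)
    (h2 : MDifferentiableAt 𝓘(ℝ, E) 𝓘(ℝ, ℝ) w p) :
    Gam E u (fun q => v q + w q) p = Gam E u v p + Gam E u w p := by
  rw [hc.symm u, hc.symm u v, hc.symm u w]; exact hc.add _ _ _ _ h1 h2

theorem mul' (u v w : M → ℝ) (p : M) (h1 : MDifferentiableAt 𝓘(ℝ, E) 𝓘(ℝ, ℝ) v p)
    (h2 : MDifferentiableAt 𝓘(ℝ, E) 𝓘(ℝ, ℝ) w p) :
    Gam E u (fun q => v q * w q) p = v p * Gam E u w p + w p * Gam E u v p := by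
  rw [hc.symm u, hc.symm u v, hc.symm u w]; exact hc.mul _ _ _ _ h1 h2

theorem smul' (c : ℝ) (u w : M → ℝ) (p : M) :
    Gam E u (fun q => c * w q) p = c * Gam E u w p := by
  rw [hc.symm u, hc.symm u w]; exact hc.smul _ _ _ _

theorem const' (c : ℝ) (w : M → ℝ) (p : M) : Gam E w (fun _ => c) p = 0 := by
  rw [hc.symm]; exact hc.const _ _ _

theorem md_smul {v : M → ℝ} {p : M} (c : ℝ) (h : MDifferentiableAt 𝓘(ℝ, E) 𝓘(ℝ, ℝ) v p) :
    MDifferentiableAt 𝓘(ℝ, E) 𝓘(ℝ, ℝ) (fun q => c * v q) p := h.const_smul c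

theorem md_add {u v : M → ℝ} {p : M} (h1 : MDifferentiableAt 𝓘(ℝ, E) 𝓘(ℝ, ℝ) u p)
    (h : MDifferentiableAt 𝓘(ℝ, E) 𝓘(ℝ, ℝ) v p) :
    MDifferentiableAt 𝓘(ℝ, E) 𝓘(ℝ, ℝ) (fun q => u q + v q) p := h1.add h

theorem md_sub {u v : M → ℝ} {p : M} (h1 : MDifferentiableAt 𝓘(ℝ, E) 𝓘(ℝ, ℝ) u p)
    (h : MDifferentiableAt 𝓘(ℝ, E) 𝓘(ℝ, ℝ) v p) :
    MDifferentiableAt 𝓘(ℝ, E) 𝓘(ℝ, ℝ) (fun q => u q - v q) p := h1.sub h

theorem md_mul {u v : M → ℝ} {p : M} (h1 : MDifferentiableAt 𝓘(ℝ, E) 𝓘(ℝ, ℝ) u p)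
    (h : MDifferentiableAt 𝓘(ℝ, E) 𝓘(ℝ, ℝ) v p) :
    MDifferentiableAt 𝓘(ℝ, E) 𝓘(ℝ, ℝ) (fun q => u q * v q) p := h1.mul h

theorem sub (u v w : M → ℝ) (p : M) (h1 : MDifferentiableAt 𝓘(ℝ, E) 𝓘(ℝ, ℝ) u p)
    (h2 : MDifferentiableAt 𝓘(ℝ, E) 𝓘(ℝ, ℝ) v p) :
    Gam E (fun q => u q - v q) w p = Gam E u w p - Gam E v w p := by
  have := hc.add u (fun q => (-1 : ℝ) * v q) w p h1 (hc.md_smul _ h2)
  rw [hc.smul] at this
  simpa [sub_eq_add_neg] using this

theorem sub' (u v w : M → ℝ) (p : M) (h1 : MDifferentiableAt 𝓘(ℝ, E) 𝓘(ℝ, ℝ) v p)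
    (h2 : MDifferentiableAt 𝓘(ℝ, E) 𝓘(ℝ, ℝ) w p) :
    Gam E u (fun q => v q - w q) p = Gam E u v p - Gam E u w p := by
  rw [hc.symm u, hc.symm u v, hc.symm u w]; exact hc.sub _ _ _ _ h1 h2

/-- `Gam (u + s v, u + s v)` -/
theorem quad (u v : M → ℝ) (s : ℝ) (p : M) (h1 : MDifferentiableAt 𝓘(ℝ, E) 𝓘(ℝ, ℝ) u p)
    (h2 : MDifferentiableAt 𝓘(ℝ, E) 𝓘(ℝ, ℝ) v p) :
    Gam E (fun q => u q + s * v q) (fun q => u q + s * v q) p =
      Gam E u u p + 2 * s * Gam E u v p + s ^ 2 * Gam E v v p := by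
  rw [hc.add _ _ _ _ h1 (hc.md_smul _ h2), hc.add' _ _ _ _ h1 (hc.md_smul _ h2),
    hc.add' _ _ _ _ h1 (hc.md_smul _ h2), hc.smul', hc.smul, hc.smul, hc.smul', hc.symm v u]
  ring

theorem abs_le (u v : M → ℝ) (p : M) : |Gam E u v p| ≤ √(Gam E u u p) * √(Gam E v v p) := by
  rw [← Real.sqrt_mul (hc.nonneg _ _)]
  exact Real.abs_le_sqrt (hc.cs _ _ _)

theorem abs_le' (u v : M → ℝ) (p : M) {a b : ℝ} (ha : Gam E u u p ≤ a ^ 2)
    (hb : Gam E v v p ≤ b ^ 2) (ha0 : 0 ≤ a) (hb0 : 0 ≤ b) : |Gam E u v p| ≤ a * b := by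
  refine (hc.abs_le u v p).trans (mul_le_mul ?_ ?_ (Real.sqrt_nonneg _) ha0)
  · exact (Real.sqrt_le_left ha0).2 ha
  · exact (Real.sqrt_le_left hb0).2 hb

theorem young (u v : M → ℝ) (p : M) {t : ℝ} (ht : 0 < t) :
    |Gam E u v p| ≤ t / 2 * Gam E u u p + 1 / (2 * t) * Gam E v v p := by
  have h1 := hc.abs_le u v p
  have h2 := Real.sq_sqrt (hc.nonneg u p)
  have h3 := Real.sq_sqrt (hc.nonneg v p)
  set x := √(Gam E u u p)
  set y := √(Gam E v v p)
  rw [← h2, ← h3]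
  have h4 : t / 2 * x ^ 2 + 1 / (2 * t) * y ^ 2 - x * y = 1 / (2 * t) * (t * x - y) ^ 2 := by
    field_simp; ring
  have : 0 ≤ 1 / (2 * t) * (t * x - y) ^ 2 := by positivity
  linarith

theorem gam_zero_of_eventually (u v : M → ℝ) (p : M) (h : ∀ᶠ q in 𝓝 p, v q = 0) :
    Gam E u v p = 0 := by
  rw [hc.congr' u v (fun _ => 0) p h, hc.const']

theorem gam_zero_of_notMem (u : M → ℝ) {v : M → ℝ} {p : M} (h : p ∉ tsupport v) :
    Gam E u v p = 0 := by
  refine hc.gam_zero_of_eventually u v p ?_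
  have := (isClosed_tsupport v).isOpen_compl.mem_nhds h
  filter_upwards [this] with q hq using image_eq_zero_of_notMem_tsupport hq

theorem le_of_lip {C : ℝ≥0} {u : M → ℝ} (h : LipschitzWith C u) (p : M) :
    Gam E u u p ≤ (C : ℝ) ^ 2 :=
  hc.lip _ u p C.2 (Eventually.of_forall fun q => by
    have := h.dist_le_mul q p
    rwa [Real.dist_eq] at this)

theorem le_of_lip' {C : ℝ} (hC : 0 ≤ C) {u : M → ℝ} (h : ∀ p q, |u p - u q| ≤ C * Dist.dist p q)
    (p : M) : Gam E u u p ≤ C ^ 2 :=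
  hc.lip _ u p hC (Eventually.of_forall fun q => h q p)

theorem dist_le_one (x p : M) : Gam E (fun q => Dist.dist x q) (fun q => Dist.dist x q) p ≤ 1 := by
  simpa using hc.le_of_lip (LipschitzWith.dist_right x) p

/-- uniform bound of the gradient on a compact set -/
theorem bound {u : M → ℝ} (hu : LocallyLipschitz u) {K : Set M} (hK : IsCompact K) :
    ∃ C : ℝ, 0 ≤ C ∧ ∀ p ∈ K, Gam E u u p ≤ C ^ 2 := by
  have hK' : IsCompact (cthickening 1 K) := IsCompact.cthickening hK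
  obtain ⟨C, hC⟩ := (hu.locallyLipschitzOn (s := cthickening 1 K)
    ).exists_lipschitzOnWith_of_compact hK'
  refine ⟨C, C.2, fun p hp => hc.lip _ u p C.2 ?_⟩
  have : ball p 1 ∈ 𝓝 p := ball_mem_nhds _ one_pos
  filter_upwards [this] with q hq
  have hq' : Dist.dist q p < 1 := hq
  have := hC.dist_le_mul q (mem_cthickening_of_dist_le q p 1 _ hp hq'.le) p
    (self_subset_cthickening _ hp)
  rwa [Real.dist_eq] at this

/-- integrability of bounded functions with compact support -/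
theorem int_of {f : M → ℝ} (hm : AEStronglyMeasurable f μ) {K : Set M} (hK : IsCompact K)
    {C : ℝ} (hC : ∀ p ∈ K, |f p| ≤ C) (h0 : ∀ p ∉ K, f p = 0) : Integrable f μ := by
  have h1 : IntegrableOn f K μ := by
    refine Measure.integrableOn_of_bounded (M := C) (hc.fin K hK).ne hm ?_
    exact (ae_restrict_iff' hK.measurableSet).2 (Eventually.of_forall fun p hp => hC p hp)
  rwa [integrableOn_iff_integrable_of_support_subset] at h1
  intro p hp
  by_contra hn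
  exact hp (h0 p hn)

theorem gam_meas {u v : M → ℝ} (hu : LocallyLipschitz u) (hv : LocallyLipschitz v) :
    Measurable (Gam E u v) := hc.meas _ _ hu.continuous hv.continuous

/-- integrability of `a Gam(u, v)` with `v` of compact support -/
theorem int_mul_gam {a u v : M → ℝ} (ha : Continuous a) (hu : LocallyLipschitz u) (hv : LC v) :
    Integrable (fun p => a p * Gam E u v p) μ := by
  have hK : IsCompact (tsupport v) := hv.2
  obtain ⟨A, hA⟩ := hK.exists_bound_of_continuousOn ha.continuousOn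
  obtain ⟨C, hC0, hC⟩ := hc.bound hu hK
  obtain ⟨D, hD0, hD⟩ := hc.bound hv.ll hK
  have hm : AEStronglyMeasurable (fun p => a p * Gam E u v p) μ :=
    (ha.measurable.mul (hc.gam_meas hu hv.ll)).aestronglyMeasurable
  refine hc.int_of hm hK (C := A * (C * D)) (fun p hp => ?_) fun p hp => ?_
  · rw [abs_mul]
    have h1 := hc.abs_le' u v p (hC p hp) (hD p hp) hC0 hD0
    have h2 := hA p hp
    rw [Real.norm_eq_abs] at h2
    exact mul_le_mul h2 h1 (abs_nonneg _) ((abs_nonneg _).trans h2)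
  · rw [hc.gam_zero_of_notMem u hp, mul_zero]

theorem int_gam {u v : M → ℝ} (hu : LocallyLipschitz u) (hv : LC v) :
    Integrable (Gam E u v) μ := by
  simpa using hc.int_mul_gam continuous_const hu hv (a := fun _ => 1)

theorem int_cont {u : M → ℝ} (hu : Continuous u) (hs : HasCompactSupport u) :
    Integrable u μ := by
  have := hc.isFinOn
  exact hu.integrable_of_hasCompactSupport hs

/-- integrability on bounded sets of bounded measurable functions -/
theorem intOn_of {f : M → ℝ} (hm : Measurable f) {K B : Set M} (hK : IsCompact K) (hB : B ⊆ K)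
    {C : ℝ} (hC : ∀ p ∈ K, |f p| ≤ C) : IntegrableOn f B μ := by
  have h1 : IntegrableOn f K μ := by
    refine Measure.integrableOn_of_bounded (M := C) (hc.fin K hK).ne hm.aestronglyMeasurable ?_
    exact (ae_restrict_iff' hK.measurableSet).2 (Eventually.of_forall fun p hp => hC p hp)
  exact h1.mono_set hB

theorem intOn_gam {u v : M → ℝ} (hu : LocallyLipschitz u) (hv : LocallyLipschitz v) {K B : Set M}
    (hK : IsCompact K) (hB : B ⊆ K) : IntegrableOn (Gam E u v) B μ := by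
  obtain ⟨C, hC0, hC⟩ := hc.bound hu hK
  obtain ⟨D, hD0, hD⟩ := hc.bound hv hK
  exact hc.intOn_of (hc.gam_meas hu hv) hK hB fun p hp => hc.abs_le' u v p (hC p hp) (hD p hp)
    hC0 hD0

theorem intOn_cont {u : M → ℝ} (hu : Continuous u) {K B : Set M}
    (hK : IsCompact K) (hB : B ⊆ K) : IntegrableOn u B μ := by
  have := hc.isFinOn
  exact (hu.continuousOn.integrableOn_compact hK).mono_set hB

end Cal

end cal

end Vale.Agent.P210.R2.H53
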