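import Vale.Agent.P210.R2.H53.TSpec
import Vale.Agent.P210.R2.H546.EndR

/-! # Row ENDS: END with the spectral condition -/

open scoped Manifold ContDiff Topology Bundle ENNReal NNReal
open Set Metric Filter Bundle IsManifold MeasureTheory Manifold Asymptotics

set_option maxSynthPendingDepth 3
set_option linter.all false

noncomputable section

namespace Vale.Agent.P210.R2.H53

open Vale.Agent.P210.R2.H546

section Mfd

variable {E : Type} [NormedAddCommGroup E] [NormedSpace ℝ E] [FiniteDimensional ℝ E]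
  [MeasurableSpace E] [BorelSpace E]
  {M : Type} [MetricSpace M] [ChartedSpace E M]
  [RiemannianBundle (fun x : M => TangentSpace 𝓘(ℝ, E) x)]
  [MeasurableSpace M] [BorelSpace M] [ProperSpace M]

lemma ends_rhs {μ : Measure M} (hc : Cal E μ) {m : ℕ} (H : Fin m → M → ℝ)
    (hH : ∀ i q, 0 ≤ H i q) (hHc : ∀ i, Continuous (H i)) (y : M) {r t C4 μr : ℝ} (hr : 1 ≤ r)
    (hrt : 1 / t ≤ r) (ht0 : 0 < t) (ht1 : t ≤ 1) (hμr : 0 ≤ μr)
    (hC4 : μ.real (ball y (4 * r)) ≤ C4 * μr)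
    (hI : ∀ i, r ^ 2 * ∫ q in ball y (4 * r), H i q ∂μ ≤ t ^ 2 * μr)
    {Φ : M → ℝ} (hΦ0 : ∀ q, 0 ≤ Φ q) (hΦ1 : ∀ q, Φ q ≤ 1)
    (hz : ∀ q, 4 * r ≤ dist q y → Φ q = 0) (hgz : ∀ q, 4 * r ≤ dist q y → gr E Φ q = 0)
    (hg : ∀ᵐ q ∂μ, gr E Φ q ≤ r⁻¹ + ∑ i, 2 * √(H i q)) :
    ∫ q, (Φ q ^ 2 * ∑ i, H i q + Gam E Φ Φ q) ∂μ ≤
      t * (2 * C4 + (8 * m ^ 2 + 1) * m) * μr := by
  have hr0 : 0 < r := by linarith
  have hS0 : ∀ q, 0 ≤ ∑ i, H i q := fun q => Finset.sum_nonneg fun i _ => hH i q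
  have hgam : ∀ q, Gam E Φ Φ q = gr E Φ q ^ 2 := fun q => by
    rw [gr, Real.sq_sqrt (hc.nonneg _ _)]
  have hfin : μ (ball y (4 * r)) < ⊤ := lt_top_of_subset hc ball_subset_closedBall
  have hSi : IntegrableOn (fun q => ∑ i, H i q) (ball y (4 * r)) μ :=
    cont_int hc (continuous_finsetSum _ fun i _ => hHc i) ball_subset_closedBall
  have hcn : IntegrableOn (fun _ : M => 2 / r ^ 2) (ball y (4 * r)) μ :=
    integrableOn_const hfin.ne
  have hFi : IntegrableOn (fun q => 2 / r ^ 2 + (8 * m ^ 2 + 1) * ∑ i, H i q)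
      (ball y (4 * r)) μ := hcn.add (hSi.const_mul _)
  have hle : ∀ᵐ q ∂μ, Φ q ^ 2 * ∑ i, H i q + Gam E Φ Φ q ≤
      (ball y (4 * r)).indicator
        (fun q => 2 / r ^ 2 + (8 * m ^ 2 + 1) * ∑ i, H i q) q := by
    filter_upwards [hg] with q hq
    rw [hgam]
    by_cases hD : q ∈ ball y (4 * r)
    · rw [indicator_of_mem hD]
      have hs0 := Real.sqrt_nonneg (∑ i, H i q)
      have hs2 := Real.sq_sqrt (hS0 q)
      have e0 : Φ q ^ 2 ≤ 1 := pow_le_one₀ (hΦ0 q) (hΦ1 q)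
      have e1 : Φ q ^ 2 * ∑ i, H i q ≤ ∑ i, H i q := mul_le_of_le_one_left (hS0 q) e0
      have e2 : ∑ i, 2 * √(H i q) ≤ 2 * m * √(∑ i, H i q) := by
        have : ∀ i ∈ (Finset.univ : Finset (Fin m)), 2 * √(H i q) ≤ 2 * √(∑ i, H i q) :=
          fun i _ => mul_le_mul_of_nonneg_left (Real.sqrt_le_sqrt
            (Finset.single_le_sum (f := fun i => H i q) (fun j _ => hH j q) (Finset.mem_univ i)))
            zero_le_two
        refine (Finset.sum_le_sum this).trans (le_of_eq ?_)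
        rw [Finset.sum_const, Finset.card_univ, Fintype.card_fin, nsmul_eq_mul]
        ring
      have e3 : gr E Φ q ≤ r⁻¹ + 2 * m * √(∑ i, H i q) := by linarith
      have e4 : gr E Φ q ^ 2 ≤ (r⁻¹ + 2 * m * √(∑ i, H i q)) ^ 2 :=
        pow_le_pow_left₀ (gr_nonneg Φ q) e3 2
      have e5 : (r⁻¹ + 2 * m * √(∑ i, H i q)) ^ 2 ≤
          2 * (r⁻¹) ^ 2 + 2 * (2 * m * √(∑ i, H i q)) ^ 2 := by
        nlinarith [sq_nonneg (r⁻¹ - 2 * m * √(∑ i, H i q))]
      have e6 : (2 * m * √(∑ i, H i q)) ^ 2 = 4 * m ^ 2 * ∑ i, H i q := by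
        rw [mul_pow, hs2]; ring
      have e7 : 2 * (r⁻¹) ^ 2 = 2 / r ^ 2 := by rw [inv_pow]; rfl
      rw [e6, e7] at e5
      linarith
    · rw [indicator_of_notMem hD]
      rw [mem_ball, not_lt] at hD
      rw [hz q hD, hgz q hD]
      simp
  have h1 := integral_mono_of_nonneg (Eventually.of_forall fun q => add_nonneg
    (mul_nonneg (sq_nonneg (Φ q)) (hS0 q)) (hc.nonneg Φ q))
    ((integrable_indicator_iff measurableSet_ball).2 hFi) hle
  refine h1.trans ?_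
  rw [integral_indicator measurableSet_ball]
  have e0 : ∫ q in ball y (4 * r), (2 / r ^ 2 + (8 * m ^ 2 + 1) *
      ∑ i, H i q) ∂μ = 2 / r ^ 2 * μ.real (ball y (4 * r)) + (8 * m ^ 2 + 1) *
      ∫ q in ball y (4 * r), ∑ i, H i q ∂μ := by
    rw [integral_add hcn (hSi.const_mul _), setIntegral_const,
      integral_const_mul, smul_eq_mul, mul_comm (μ.real _)]
  rw [e0, integral_finsetSum _ fun i _ => cont_int hc (hHc i) ball_subset_closedBall]
  have hr2 : 1 ≤ r ^ 2 := one_le_pow₀ hr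
  have e1 : ∀ i ∈ (Finset.univ : Finset (Fin m)), ∫ q in ball y (4 * r), H i q ∂μ ≤
      t ^ 2 * μr := by
    intro i _
    have h0 : 0 ≤ ∫ q in ball y (4 * r), H i q ∂μ := integral_nonneg fun q => hH i q
    have := hI i
    nlinarith
  have e2 := Finset.sum_le_sum e1
  rw [Finset.sum_const, Finset.card_univ, Fintype.card_fin, nsmul_eq_mul] at e2
  have ht2 : t ^ 2 ≤ t := by nlinarith
  have e3 : 2 / r ^ 2 * μ.real (ball y (4 * r)) ≤ 2 * t * (C4 * μr) := by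
    refine mul_le_mul ?_ hC4 measureReal_nonneg (by positivity)
    rw [div_le_iff₀ (by positivity)]
    have h2 : 1 ≤ r * t := by
      rw [div_le_iff₀ ht0] at hrt
      exact hrt
    have h3 : 1 ≤ (r * t) ^ 2 := one_le_pow₀ h2
    have h4 : t ^ 2 * r ^ 2 ≤ t * r ^ 2 := mul_le_mul_of_nonneg_right ht2 (by positivity)
    nlinarith
  have e4 : ((8 : ℝ) * m ^ 2 + 1) * ∑ i, ∫ q in ball y (4 * r), H i q ∂μ ≤
      (8 * m ^ 2 + 1) * (m * (t * μr)) := by
    refine mul_le_mul_of_nonneg_left (e2.trans ?_) (by positivity)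
    exact mul_le_mul_of_nonneg_left (mul_le_mul_of_nonneg_right ht2 hμr) (by positivity)
  calc _ ≤ 2 * t * (C4 * μr) + (8 * m ^ 2 + 1) * (m * (t * μr)) := add_le_add e3 e4
    _ = _ := by ring

end Mfd

theorem ends (hA : Stmt.CALA) (hB : Stmt.CALB) (hC : Stmt.CALC) (hD : Stmt.CALD) (hBG : Stmt.BG)
    (hAN : Stmt.AN) (hSCX : Stmt.SCXS) : Stmt.ENDS := by
  intro n hn γ hγ c hc
  obtain ⟨C, hC1, hSC⟩ := hSCX n (by omega) γ hγ c hc
  obtain ⟨C4, hC4⟩ : ∃ C4 : ℝ, C4 = 3 * 4 ^ n := ⟨_, rfl⟩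
  have hC4p : 0 < C4 := by rw [hC4]; positivity
  obtain ⟨A, hAd⟩ : ∃ A : ℝ, A = 8 * n * ((n - 1 : ℕ) * (n - 1 : ℕ)) := ⟨_, rfl⟩
  have hAp : 0 ≤ A := by rw [hAd]; positivity
  obtain ⟨B, hBd⟩ : ∃ B : ℝ, B = 2 * C4 + (8 * (n - 1 : ℕ) ^ 2 + 1) * (n - 1 : ℕ) := ⟨_, rfl⟩
  have hBp : 0 ≤ B := by rw [hBd]; positivity
  obtain ⟨t, ht0, ht1, htX⟩ := exists_small (Ψ := 1 / 4) (X := A * (C4 + 2) + C * B)
    (by norm_num) (by positivity)
  obtain ⟨e, he0, he1, heX⟩ := exists_small (Ψ := 1 / 4) (X := A + C * C4)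
    (by norm_num) (by positivity)
  obtain ⟨η0, hη0, hAN'⟩ := hAN n (by omega) (t ^ 2) (by positivity)
  obtain ⟨η, hη, g1, g2, g3, g4⟩ : ∃ η > 0, η ≤ η0 ∧ η ≤ e ∧ η ≤ 1 / 16 ∧ η ≤ 1 / C :=
    ⟨min (min η0 e) (min (1 / 16) (1 / C)), by positivity,
      (min_le_left _ _).trans (min_le_left _ _), (min_le_left _ _).trans (min_le_right _ _),
      (min_le_right _ _).trans (min_le_left _ _), (min_le_right _ _).trans (min_le_right _ _)⟩
  refine ⟨η, hη, 1 / t, by positivity, ?_⟩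
  intro E _ _ _ _ _ M _ _ _ _ _ _ _ _ _ h1 hfr μ K hμ hK hRic hQ y r p hL' hKr hPole hGr
  obtain ⟨S, hS1, hS2, hS3⟩ := hQ
  have hL : 1 ≤ r := by
    refine le_trans ?_ hL'
    rw [le_div_iff₀ ht0]
    linarith
  have hcal : Cal E μ := cal_of hA hB hD h1 hμ
  have hr0 : 0 < r := by linarith
  have hr2 : 1 ≤ r ^ 2 := one_le_pow₀ hL
  have hKη : K ≤ η := by nlinarith
  obtain ⟨μr, hμr⟩ : ∃ μr, μr = μ.real (ball y r) := ⟨_, rfl⟩
  have hμr0 : 0 < μr := by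
    rw [hμr]
    exact ENNReal.toReal_pos (hcal.pos _ isOpen_ball ⟨y, mem_ball_self hr0⟩).ne'
      (lt_top_of_subset hcal ball_subset_closedBall).ne
  have hvol : μ.real (ball y (4 * r)) ≤ C4 * μr := by
    refine (hBG n (by omega) E M h1 hfr μ K hμ hK hRic y r (4 * r) hr0 (by linarith)).trans ?_
    rw [← hμr, hC4, mul_div_assoc, div_self hr0.ne', mul_one]
    have : Real.exp (K * (4 * r) ^ 2) ≤ 3 := exp_le_three (by nlinarith)
    refine mul_le_mul_of_nonneg_right ?_ hμr0.le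
    calc (4 : ℝ) ^ n * Real.exp (K * (4 * r) ^ 2) ≤ 4 ^ n * 3 :=
          mul_le_mul_of_nonneg_left this (by positivity)
      _ = _ := by ring
  choose u hu hu1 hu2 hu3 using fun i => hAN' E M h1 hfr μ K hμ hK hRic (p i) y r hr0
    (hKr.trans g1) (pole_mono hr0 g1 (hPole i))
  -- constants `σ`
  have hσ' : ∀ i j, ∃ σ : ℝ, |(if i = j then 1 else 0) - σ| ≤ 1 / (16 * n) ∧
      ∫ q in ball y (4 * r), |Gam E (fun q => dist (p i) q) (fun q => dist (p j) q) q - σ| ∂μ ≤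
        η * μr := by
    intro i j
    by_cases hij : i = j
    · subst hij
      refine ⟨1, ?_, ?_⟩
      · rw [if_pos rfl, sub_self, abs_zero]; positivity
      · rw [int_dist_self hcal]
        · positivity
        · have := (hPole i).1
          nlinarith [dist_nonneg (x := p i) (y := y)]
    · obtain ⟨σ, hσ1, hσ2⟩ := hGr i j hij
      refine ⟨σ, ?_, ?_⟩
      · rw [if_neg hij, zero_sub, abs_neg]; exact hσ1
      · rw [hμr]; exact hσ2
  choose σ hσ1 hσ2 using hσ'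
  have cc := hC E M h1
  have hGt : ∀ i, TF E (Gam E (u i) (u i)) := fun i => cc.1 _ _ (hu i) (hu i)
  have hHc : ∀ i, Continuous (HS E 0 (u i)) ∧ ∀ q, 0 ≤ HS E 0 (u i) q := fun i =>
    cc.2.2.1 0 _ (hu i)
  have hGG : ∀ i q, Gam E (Gam E (u i) (u i)) (Gam E (u i) (u i)) q ≤
      4 * HS E 0 (u i) q * Gam E (u i) (u i) q := fun i q => by
    have := cc.2.2.2.2.2.1 0 (u i) q (hu i)
    simpa using this
  obtain ⟨Φ, f1, f2, f3, f4, f5, f6, f7, f8⟩ := exists_test hcal (fun i => Gam E (u i) (u i))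
    (fun i => HS E 0 (u i)) (fun i => hcal.tfll _ (hGt i)) (fun i => (hHc i).2) hGG y hr0
  have f1' : LC fun q => Φ q ^ 2 := by
    have := LC.mul_left f1.ll f1
    simpa only [sq] using this
  have hl := end_lhs hcal (n := n) (by omega) hu p y hr0 ht0 ht1 hμr hvol σ hσ1
    (fun i => by rw [hμr]; exact hu2 i) hσ2 f1' (fun q => sq_nonneg _)
    (fun q h1 h2 => by rw [f5 q h1 h2]; norm_num)
  have hrr := ends_rhs hcal (fun i => HS E 0 (u i)) (fun i => (hHc i).2) (fun i => (hHc i).1) y hL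
    hL' ht0 ht1 hμr0.le hvol (fun i => by rw [hμr]; exact hu3 i) f2 f3 f6 f7 f8
  have hsc := hSC E M h1 hfr μ K hμ hK.le (by
      have : C * K ≤ C * (1 / C) := mul_le_mul_of_nonneg_left (hKη.trans g4) (by linarith)
      rwa [mul_one_div, div_self (by linarith)] at this) hRic S hS1 hS2 hS3 u Φ hu f1 f2 f4
  have hI := (int_test_le hcal y (Φ := fun q => Φ q ^ 2) (fun q => sq_nonneg _)
    (fun q => pow_le_one₀ (f2 q) (f3 q)) (fun q hq => by rw [f6 q hq]; norm_num)).trans hvol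
  refine end_num (J := A * (C4 + 2) + C * B) (D := A + C * C4) (B := B) (A := A) hC1 hμr0 hKη
    hη.le ?_ hsc ?_ hI (integral_nonneg fun q => sq_nonneg _) rfl rfl htX ?_
  · rw [hAd]
    refine hl.trans (le_of_eq ?_)
    ring
  · rw [hBd]
    exact hrr
  · exact (mul_le_mul_of_nonneg_right g2 (by positivity)).trans heX

end Vale.Agent.P210.R2.H53
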