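import Vale.Agent.P210.R2.H53.LinCore

/-!
# LIN (helper973): the contradiction and the final statement
-/

set_option autoImplicit false

open MeasureTheory Set Metric Module
open scoped ENNReal Topology Pointwise RealInnerProductSpace

namespace Vale.Agent.P210.R2.H53.LinAux

theorem isQ_of {V : Type*} [NormedAddCommGroup V] [InnerProductSpace ℝ V] {ι : Type*} [Fintype ι]
    (K : V → V → ℝ) (B : V → V →ₗ[ℝ] V →ₗ[ℝ] ℝ) (δ : ℝ)
    (hK : ∀ u v, K u v = B u v v)
    (hlow : ∀ u v, -δ * (‖u‖ ^ 2 * ‖v‖ ^ 2 - ⟪u, v⟫ ^ 2) ≤ K u v) (hδ : 0 ≤ δ)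
    (b : ι → V) (hb : ∀ i, ‖b i‖ = 1) :
    IsQ (fun v => ∑ i, K (b i) v + (Fintype.card ι : ℝ) * δ * ‖v‖ ^ 2) := by
  have hnn : ∀ v, 0 ≤ ∑ i, K (b i) v + (Fintype.card ι : ℝ) * δ * ‖v‖ ^ 2 := by
    intro v
    have h1 : ∀ i, -(δ * ‖v‖ ^ 2) ≤ K (b i) v := by
      intro i
      have := hlow (b i) v
      rw [hb i] at this
      have h2 : 0 ≤ δ * ⟪b i, v⟫ ^ 2 := by positivity
      nlinarith
    have h2 : ∑ i : ι, -(δ * ‖v‖ ^ 2) ≤ ∑ i, K (b i) v := Finset.sum_le_sum fun i _ => h1 i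
    rw [Finset.sum_const, Finset.card_univ, nsmul_eq_mul] at h2
    linarith
  refine ⟨hnn, ?_, ?_⟩
  · intro x y
    have h1 := hnn (x - y)
    have h2 : ∀ i, K (b i) (x + y) + K (b i) (x - y) = 2 * K (b i) x + 2 * K (b i) y := by
      intro i
      simp only [hK, map_add, map_sub, LinearMap.add_apply, LinearMap.sub_apply]
      ring
    have h3 : ∑ i, K (b i) (x + y) + ∑ i, K (b i) (x - y)
        = 2 * ∑ i, K (b i) x + 2 * ∑ i, K (b i) y := by
      rw [← Finset.sum_add_distrib, Finset.mul_sum, Finset.mul_sum, ← Finset.sum_add_distrib]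
      exact Finset.sum_congr rfl fun i _ => h2 i
    have h4 : ‖x + y‖ ^ 2 + ‖x - y‖ ^ 2 = 2 * ‖x‖ ^ 2 + 2 * ‖y‖ ^ 2 := by
      have := parallelogram_law_with_norm ℝ x y
      nlinarith
    have h5 : (Fintype.card ι : ℝ) * δ * ‖x + y‖ ^ 2 + (Fintype.card ι : ℝ) * δ * ‖x - y‖ ^ 2
        = 2 * ((Fintype.card ι : ℝ) * δ * ‖x‖ ^ 2) + 2 * ((Fintype.card ι : ℝ) * δ * ‖y‖ ^ 2) := by
      rw [← mul_add, h4]
      ring
    linarith
  · intro c x
    have h1 : ∀ i, K (b i) (c • x) = c ^ 2 * K (b i) x := by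
      intro i
      simp only [hK, map_smul, LinearMap.smul_apply, smul_eq_mul]
      ring
    simp only [h1, norm_smul, mul_pow, Real.norm_eq_abs, sq_abs, ← Finset.mul_sum]
    ring

theorem total_le {V : Type*} [NormedAddCommGroup V] [InnerProductSpace ℝ V] {m : ℕ}
    (K : V → V → ℝ) (δ ε : ℝ) (hδ : 0 ≤ δ)
    (hsymm : ∀ u v, K u v = K v u) (h0 : ∀ u, K u u = 0)
    (hlow : ∀ u v, -δ * (‖u‖ ^ 2 * ‖v‖ ^ 2 - ⟪u, v⟫ ^ 2) ≤ K u v)
    (b : Fin (m + 1) → V) (hb : ∀ i, ‖b i‖ = 1)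
    (hR : ∀ k : Fin m, ∑ i, K (b i) (b k.castSucc) ≤ ε) :
    ∑ i, ∑ j, K (b i) (b j) ≤ 2 * m * ε + (m : ℝ) ^ 2 * δ := by
  have hlow' : ∀ i j, -δ ≤ K (b i) (b j) := by
    intro i j
    have := hlow (b i) (b j)
    rw [hb i, hb j] at this
    have h2 : 0 ≤ δ * ⟪b i, b j⟫ ^ 2 := by positivity
    nlinarith
  rw [Finset.sum_comm, Fin.sum_univ_castSucc]
  have h1 : ∑ k : Fin m, ∑ i, K (b i) (b k.castSucc) ≤ m * ε := by
    have := Finset.sum_le_sum fun k (_ : k ∈ (Finset.univ : Finset (Fin m))) => hR k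
    simpa using this
  have h2 : ∀ k : Fin m, K (b k.castSucc) (b (Fin.last m)) ≤ ε + m * δ := by
    intro k
    have h3 := hR k
    rw [Fin.sum_univ_castSucc] at h3
    have h4 : -(m * δ) ≤ ∑ i : Fin m, K (b i.castSucc) (b k.castSucc) := by
      have := Finset.sum_le_sum fun i (_ : i ∈ (Finset.univ : Finset (Fin m))) =>
        hlow' i.castSucc k.castSucc
      simpa using this
    rw [hsymm]
    linarith
  have h3 : ∑ i, K (b i) (b (Fin.last m)) ≤ m * (ε + m * δ) := by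
    rw [Fin.sum_univ_castSucc, h0, add_zero]
    have := Finset.sum_le_sum fun k (_ : k ∈ (Finset.univ : Finset (Fin m))) => h2 k
    simpa [mul_add] using this
  calc _ ≤ m * ε + m * (ε + m * δ) := add_le_add h1 h3
    _ = _ := by ring

theorem packing_close {V : Type*} [NormedAddCommGroup V] [InnerProductSpace ℝ V]
    [FiniteDimensional ℝ V] {m N : ℕ} (e : Fin m → V) (u : Fin N → V)
    (d : Fin N → ℝ) (t κ : ℝ) (ht : 0 < t) (hκ : 0 < κ) (hκ1 : κ ≤ 1) (hu : ∀ j, ‖u j‖ = 1)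
    (hd : ∀ j, 0 ≤ d j ∧ d j ≤ 2 * t) (hclose : ∀ j, ‖u j - pr e (u j)‖ ≤ κ / 16)
    (hsep : ∀ i j, i ≠ j → κ * t / 2 ≤ ‖d i • u i - d j • u j‖) :
    (N : ℝ) ≤ (33 / κ) ^ m := by
  let F : Submodule ℝ V := Submodule.span ℝ (Set.range e)
  have hmem : ∀ x, pr e x ∈ F := by
    intro x
    rw [pr]
    exact Submodule.sum_mem _ fun i _ =>
      Submodule.smul_mem _ _ (Submodule.subset_span ⟨i, rfl⟩)
  let x : Fin N → F := fun i => ⟨d i • pr e (u i), F.smul_mem _ (hmem _)⟩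
  have hpr : ∀ i, ‖pr e (u i)‖ ≤ 2 := by
    intro i
    have h1 : ‖pr e (u i)‖ ≤ ‖u i‖ + ‖u i - pr e (u i)‖ := by
      calc ‖pr e (u i)‖ = ‖u i - (u i - pr e (u i))‖ := by rw [sub_sub_cancel]
        _ ≤ _ := norm_sub_le _ _
    have := hclose i
    rw [hu i] at h1
    linarith
  have hx : ∀ i, ‖x i‖ ≤ 4 * t := by
    intro i
    have h1 : ‖x i‖ = d i * ‖pr e (u i)‖ := by
      change ‖d i • pr e (u i)‖ = _
      rw [norm_smul, Real.norm_of_nonneg (hd i).1]
    rw [h1]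
    calc d i * ‖pr e (u i)‖ ≤ (2 * t) * 2 :=
          mul_le_mul (hd i).2 (hpr i) (norm_nonneg _) (by linarith)
      _ = _ := by ring
  have hs : ∀ i j, i ≠ j → κ * t / 4 ≤ ‖x i - x j‖ := by
    intro i j hij
    have h1 : ‖x i - x j‖ = ‖d i • pr e (u i) - d j • pr e (u j)‖ := rfl
    rw [h1]
    have h2 : d i • u i - d j • u j = (d i • pr e (u i) - d j • pr e (u j)) +
        (d i • (u i - pr e (u i)) - d j • (u j - pr e (u j))) := by
      simp only [smul_sub]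
      abel
    have h3 := hsep i j hij
    rw [h2] at h3
    have h4 := norm_add_le (d i • pr e (u i) - d j • pr e (u j))
        (d i • (u i - pr e (u i)) - d j • (u j - pr e (u j)))
    have h5 := norm_sub_le (d i • (u i - pr e (u i))) (d j • (u j - pr e (u j)))
    have h6 : ∀ i, ‖d i • (u i - pr e (u i))‖ ≤ κ * t / 8 := by
      intro i
      rw [norm_smul, Real.norm_of_nonneg (hd i).1]
      calc d i * ‖u i - pr e (u i)‖ ≤ (2 * t) * (κ / 16) :=
            mul_le_mul (hd i).2 (hclose i) (norm_nonneg _) (by linarith)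
        _ = _ := by ring
    have h7 := h6 i
    have h8 := h6 j
    linarith
  have h1 := card_le_sep x (r := κ * t / 4) (R := 4 * t) (by positivity) (by positivity) hx hs
  have h2 : finrank ℝ F ≤ m := by
    have := finrank_range_le_card (R := ℝ) e
    simpa [Set.finrank, F] using this
  have h3 : 2 * (4 * t / (κ * t / 4)) + 1 ≤ 33 / κ := by
    have h4 : 4 * t / (κ * t / 4) = 16 / κ := by
      field_simp
      norm_num
    rw [h4, le_div_iff₀ hκ]
    have : (2 * (16 / κ) + 1) * κ = 32 + κ := by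
      field_simp
      ring
    rw [this]
    linarith
  have h4 : (1 : ℝ) ≤ 33 / κ := by
    rw [le_div_iff₀ hκ]
    linarith
  calc (N : ℝ) ≤ _ := h1
    _ ≤ (33 / κ) ^ finrank ℝ F := by
      gcongr
    _ ≤ (33 / κ) ^ m := pow_le_pow_right₀ h4 h2

/-- the whole statement, for `n = k + 2`, `k ≥ 1` -/
theorem main (k : ℕ) : ∃ κ : ℝ, 0 < κ ∧ κ ≤ 1 / 8 ∧ ∃ L : ℕ,
    2 * ((L : ℝ) + 1) * κ ^ (k + 1) ≤ 1 ∧
    ∃ a : ℝ, 0 < a ∧ ∀ (V : Type) [NormedAddCommGroup V] [InnerProductSpace ℝ V]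
      [FiniteDimensional ℝ V], Module.finrank ℝ V = k + 2 →
      ∀ (K : V → V → ℝ) (B : V → V →ₗ[ℝ] V →ₗ[ℝ] ℝ) (δ : ℝ), 0 ≤ δ → δ ≤ a →
      (∀ u v, K u v = B u v v) → (∀ u v, K u v = K v u) → (∀ u, K u u = 0) →
      (∀ u v, -δ * (‖u‖ ^ 2 * ‖v‖ ^ 2 - ⟪u, v⟫ ^ 2) ≤ K u v) →
      (∀ b : OrthonormalBasis (Fin (k + 2)) ℝ V, 1 ≤ ∑ i, ∑ j, K (b i) (b j)) →
      ∀ (N : ℕ) (u : Fin N → V) (d : Fin N → ℝ) (t : ℝ), 0 < t →
      (∀ j, ‖u j‖ = 1) → (∀ j, 0 ≤ d j ∧ d j ≤ 2 * t) →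
      (∀ j, ∀ b : OrthonormalBasis (Fin (k + 2)) ℝ V, ∑ i, K (b i) (u j) ≤ a) →
      (∀ i j, i ≠ j → κ * t / 2 ≤ ‖d i • u i - d j • u j‖) → N ≤ L := by
  set κ : ℝ := 1 / (8 * 33 ^ k) with hκdef
  have h33 : (1 : ℝ) ≤ 33 ^ k := one_le_pow₀ (by norm_num)
  have hκ : 0 < κ := by positivity
  have hκ8 : κ ≤ 1 / 8 := by
    rw [hκdef]
    apply one_div_le_one_div_of_le (by norm_num)
    linarith
  have hκ1 : κ ≤ 1 := by linarith
  set L : ℕ := ⌊(33 / κ) ^ k⌋₊ with hL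
  have hbase : (1 : ℝ) ≤ 33 / κ := by
    rw [le_div_iff₀ hκ]
    linarith
  have hLle : (L : ℝ) ≤ (33 / κ) ^ k := Nat.floor_le (by positivity)
  obtain ⟨C, hC0, hC⟩ := greedy (κ / 16) (by positivity) (k + 1)
  set a : ℝ := 1 / (2 * (k + 1 : ℝ) * (C * (k + 3)) + (k + 1 : ℝ) ^ 2 + 1) with ha
  have hden : 0 < 2 * (k + 1 : ℝ) * (C * (k + 3)) + (k + 1 : ℝ) ^ 2 + 1 := by positivity
  have ha0 : 0 < a := by positivity
  refine ⟨κ, hκ, hκ8, L, ?_, a, ha0, ?_⟩
  · have h1 : (L : ℝ) + 1 ≤ 2 * (33 / κ) ^ k := by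
      have : (1 : ℝ) ≤ (33 / κ) ^ k := one_le_pow₀ hbase
      linarith
    calc 2 * ((L : ℝ) + 1) * κ ^ (k + 1) ≤ 2 * (2 * (33 / κ) ^ k) * κ ^ (k + 1) := by gcongr
      _ = 4 * 33 ^ k * κ := by
        rw [div_pow, pow_succ]
        field_simp
        ring
      _ = 1 / 2 := by
        rw [hκdef]
        field_simp
        norm_num
      _ ≤ 1 := by norm_num
  · intro V _ _ _ hfin K B δ hδ hδa hK hsymm h0 hlow hscal N u d t ht hu hd hRic hsep
    rcases hC V N u hu with ⟨m', hm', e, he, hclose⟩ | ⟨e, he, hQ⟩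
    · have h1 := packing_close e u d t κ ht hκ hκ1 hu hd hclose hsep
      have h2 : (N : ℝ) ≤ (33 / κ) ^ k :=
        h1.trans (pow_le_pow_right₀ hbase (Nat.lt_succ_iff.1 hm'))
      exact Nat.le_floor h2
    · exfalso
      -- extend to an orthonormal basis
      obtain ⟨b, hb⟩ := Orthonormal.exists_orthonormalBasis_extension_of_card_eq
        (𝕜 := ℝ) (E := V) (ι := Fin (k + 2)) (by rw [hfin, Fintype.card_fin])
        (v := Fin.snoc e 0) (s := {i | i ≠ Fin.last (k + 1)}) (by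
          constructor
          · rintro ⟨i, hi⟩
            revert hi
            refine Fin.lastCases ?_ (fun i => ?_) i
            · intro hi
              exact absurd rfl hi
            · intro hi
              simp only [Set.domRestrict_apply, Fin.snoc_castSucc]
              exact he.1 i
          · rintro ⟨i, hi⟩ ⟨j, hj⟩
            revert hi hj
            refine Fin.lastCases ?_ (fun i => ?_) i
            · intro hi
              exact absurd rfl hi
            · refine Fin.lastCases ?_ (fun j => ?_) j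
              · intro _ hj
                exact absurd rfl hj
              · intro _ _ hij
                simp only [Set.domRestrict_apply, Fin.snoc_castSucc]
                refine he.2 fun h => hij ?_
                simp [h])
      have hbe : ∀ i : Fin (k + 1), b i.castSucc = e i := by
        intro i
        rw [hb _ (Fin.castSucc_lt_last i).ne, Fin.snoc_castSucc]
      have hbn : ∀ i, ‖b i‖ = 1 := fun i => b.orthonormal.1 i
      have hIQ := isQ_of K B δ hK hlow hδ b hbn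
      have hQu : ∀ j, (∑ i, K (b i) (u j) + (Fintype.card (Fin (k + 2)) : ℝ) * δ * ‖u j‖ ^ 2)
          ≤ (k + 3) * a := by
        intro j
        have h1 := hRic j b
        rw [hu j, Fintype.card_fin]
        push_cast
        have : (k + 2 : ℝ) * δ ≤ (k + 2) * a := by gcongr
        nlinarith
      have h1 := hQ _ ((k + 3) * a) hIQ (by positivity) hQu
      have h2 : ∀ i : Fin (k + 1), ∑ j, K (b j) (b i.castSucc) ≤ C * ((k + 3) * a) := by
        intro i
        have := h1 i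
        rw [hbe i]
        refine le_trans ?_ this
        have : 0 ≤ (Fintype.card (Fin (k + 2)) : ℝ) * δ * ‖e i‖ ^ 2 := by positivity
        linarith
      have h3 := total_le K δ _ hδ hsymm h0 hlow b hbn h2
      have h4 := hscal b
      have h5 : 2 * ((k + 1 : ℕ) : ℝ) * (C * ((k + 3) * a)) + ((k + 1 : ℕ) : ℝ) ^ 2 * δ < 1 := by
        push_cast
        have h6 : (k + 1 : ℝ) ^ 2 * δ ≤ (k + 1) ^ 2 * a := by gcongr
        have h7 : (2 * (k + 1 : ℝ) * (C * (k + 3)) + (k + 1 : ℝ) ^ 2 + 1) * a = 1 := by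
          rw [ha]
          field_simp
        nlinarith
      linarith

end Vale.Agent.P210.R2.H53.LinAux
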