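import Vale.Agent.P210.R2.H53.StmtMod
import Vale.Agent.P210.R2.H53.LinCore2

/-!
# module LIN (helper973)
-/

set_option autoImplicit false

namespace Vale.Agent.P210.R2.H53

theorem lin_holds : Stmt.LIN := by
  intro n hn
  obtain ⟨k, rfl⟩ : ∃ k, n = k + 2 := ⟨n - 2, by omega⟩
  exact LinAux.main k

end Vale.Agent.P210.R2.H53
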