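import Mathlib.Analysis.InnerProductSpace.PiL2
import Mathlib.MeasureTheory.Measure.Lebesgue.EqHaar

/-!
# LIN (helper973): greedy selection and packing
-/

set_option autoImplicit false

open MeasureTheory Set Metric Module
open scoped ENNReal Topology Pointwise RealInnerProductSpace

namespace Vale.Agent.P210.R2.H53.LinAux

/-- packing in a finite-dimensional normed space -/
theorem card_le_sep {F : Type*} [NormedAddCommGroup F] [NormedSpace ℝ F] [FiniteDimensional ℝ F]
    {N : ℕ} (x : Fin N → F) {r R : ℝ} (hr : 0 < r) (hR : 0 ≤ R) (hx : ∀ i, ‖x i‖ ≤ R)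
    (hsep : ∀ i j, i ≠ j → r ≤ ‖x i - x j‖) :
    (N : ℝ) ≤ (2 * (R / r) + 1) ^ finrank ℝ F := by
  borelize F
  let μ : Measure F := Measure.addHaar
  set d := finrank ℝ F with hd
  have D : Pairwise (Function.onFun Disjoint fun i => ball (x i) (r / 2)) := by
    intro i j hij
    apply ball_disjoint_ball
    rw [dist_eq_norm]
    have := hsep i j hij
    linarith
  have A_subset : (⋃ i, ball (x i) (r / 2)) ⊆ ball (0 : F) ((2 * (R / r) + 1) * (r / 2)) := by
    refine iUnion_subset fun i => ?_
    apply ball_subset_ball'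
    have := hx i
    rw [dist_zero_right]
    have e : (2 * (R / r) + 1) * (r / 2) = R + r / 2 := by field_simp
    rw [e]
    linarith
  have hpos : 0 < (2 * (R / r) + 1) * (r / 2) := by positivity
  have I : (N : ℝ≥0∞) * ENNReal.ofReal ((r / 2) ^ d) * μ (ball 0 1) ≤
      ENNReal.ofReal (((2 * (R / r) + 1) * (r / 2)) ^ d) * μ (ball 0 1) := by
    calc (N : ℝ≥0∞) * ENNReal.ofReal ((r / 2) ^ d) * μ (ball 0 1)
        = μ (⋃ i, ball (x i) (r / 2)) := by
          rw [measure_iUnion D fun i => measurableSet_ball]
          have I : 0 < r / 2 := by positivity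
          simp only [μ.addHaar_ball_of_pos _ I]
          rw [tsum_fintype]
          simp only [Finset.sum_const, nsmul_eq_mul, mul_assoc, Finset.card_univ, Fintype.card_fin]
          rfl
      _ ≤ μ (ball 0 ((2 * (R / r) + 1) * (r / 2))) := measure_mono A_subset
      _ = _ := by simp only [μ.addHaar_ball_of_pos _ hpos]; rfl
  have J : (N : ℝ≥0∞) * ENNReal.ofReal ((r / 2) ^ d)
      ≤ ENNReal.ofReal (((2 * (R / r) + 1) * (r / 2)) ^ d) :=
    (ENNReal.mul_le_mul_iff_left (measure_ball_pos _ _ zero_lt_one).ne' measure_ball_lt_top.ne).1 I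
  have hnn : (0 : ℝ) ≤ (N : ℝ) := Nat.cast_nonneg _
  have K : (N : ℝ) * (r / 2) ^ d ≤ ((2 * (R / r) + 1) * (r / 2)) ^ d := by
    rw [← ENNReal.ofReal_le_ofReal_iff (by positivity), ENNReal.ofReal_mul hnn,
      ENNReal.ofReal_natCast]
    exact J
  rw [mul_pow] at K
  exact le_of_mul_le_mul_right K (by positivity)

/-- a nonnegative function behaving like a quadratic form -/
structure IsQ {V : Type*} [AddCommGroup V] [Module ℝ V] (Q : V → ℝ) : Prop where
  nonneg : ∀ x, 0 ≤ Q x
  add : ∀ x y, Q (x + y) ≤ 2 * Q x + 2 * Q y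
  smul : ∀ (c : ℝ) x, Q (c • x) = c ^ 2 * Q x

theorem IsQ.zero {V : Type*} [AddCommGroup V] [Module ℝ V] {Q : V → ℝ} (h : IsQ Q) : Q 0 = 0 := by
  have := h.smul 0 0
  simpa using this

theorem IsQ.sum_le {V : Type*} [AddCommGroup V] [Module ℝ V] {Q : V → ℝ} (h : IsQ Q) {ι : Type*}
    (s : Finset ι) (y : ι → V) {M : ℝ} (hM : ∀ i ∈ s, Q (y i) ≤ M) (hM0 : 0 ≤ M) :
    Q (∑ i ∈ s, y i) ≤ 4 ^ s.card * M := by
  classical
  induction s using Finset.induction_on with
  | empty => simp [h.zero, hM0]
  | insert a s ha ih =>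
    rw [Finset.sum_insert ha, Finset.card_insert_of_notMem ha]
    have h1 := h.add (y a) (∑ i ∈ s, y i)
    have h2 := ih fun i hi => hM i (Finset.mem_insert_of_mem hi)
    have h3 := hM a (Finset.mem_insert_self a s)
    have h4 : M ≤ 4 ^ s.card * M := by
      have : (1 : ℝ) ≤ 4 ^ s.card := one_le_pow₀ (by norm_num)
      nlinarith
    calc _ ≤ _ := h1
      _ ≤ 2 * M + 2 * (4 ^ s.card * M) := by linarith
      _ ≤ 4 ^ (s.card + 1) * M := by
        rw [pow_succ]
        linarith

variable {V : Type*} [NormedAddCommGroup V] [InnerProductSpace ℝ V]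

/-- projection on the span of an orthonormal system -/
noncomputable def pr {m : ℕ} (e : Fin m → V) (x : V) : V := ∑ i, ⟪e i, x⟫ • e i

theorem inner_pr {m : ℕ} {e : Fin m → V} (he : Orthonormal ℝ e) (x : V) (k : Fin m) :
    ⟪e k, pr e x⟫ = ⟪e k, x⟫ := by
  rw [pr]
  exact he.inner_right_fintype (fun i => ⟪e i, x⟫) k

theorem greedy (η : ℝ) (hη : 0 < η) (m : ℕ) : ∃ C : ℝ, 0 ≤ C ∧
    ∀ (V : Type) [NormedAddCommGroup V] [InnerProductSpace ℝ V] (N : ℕ) (u : Fin N → V),
      (∀ j, ‖u j‖ = 1) →
      (∃ m' < m, ∃ e : Fin m' → V, Orthonormal ℝ e ∧ ∀ j, ‖u j - pr e (u j)‖ ≤ η) ∨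
      ∃ e : Fin m → V, Orthonormal ℝ e ∧ ∀ (Q : V → ℝ) (A : ℝ), IsQ Q → 0 ≤ A →
        (∀ j, Q (u j) ≤ A) → ∀ k, Q (e k) ≤ C * A := by
  induction m with
  | zero =>
    refine ⟨0, le_rfl, fun V _ _ N u hu => Or.inr ⟨fun i => i.elim0, ?_, ?_⟩⟩
    · refine ⟨fun i => i.elim0, fun i => i.elim0⟩
    · intro Q A _ _ _ k
      exact k.elim0
  | succ m ih =>
    obtain ⟨C, hC0, hC⟩ := ih
    set C' : ℝ := (2 + 2 * (4 ^ m * C)) / η ^ 2 with hC'
    have hC'0 : 0 ≤ C' := by positivity
    refine ⟨max C C', le_max_of_le_left hC0, fun V _ _ N u hu => ?_⟩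
    rcases hC V N u hu with ⟨m', hm', e, he, hclose⟩ | ⟨e, he, hQ⟩
    · exact Or.inl ⟨m', hm'.trans (Nat.lt_succ_self m), e, he, hclose⟩
    · by_cases hall : ∀ j, ‖u j - pr e (u j)‖ ≤ η
      · exact Or.inl ⟨m, Nat.lt_succ_self m, e, he, hall⟩
      · push Not at hall
        obtain ⟨j, hj⟩ := hall
        right
        set v := u j - pr e (u j) with hv
        have hv0 : 0 < ‖v‖ := hη.trans hj
        have hvne : ‖v‖ ≠ 0 := hv0.ne'
        set f : V := (‖v‖⁻¹ : ℝ) • v with hf
        have hfn : ‖f‖ = 1 := by
          rw [hf, norm_smul, norm_inv, norm_norm, inv_mul_cancel₀ hvne]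
        have hort : ∀ i, ⟪e i, f⟫ = 0 := by
          intro i
          rw [hf, inner_smul_right, hv, inner_sub_right, inner_pr he, sub_self, mul_zero]
        refine ⟨Fin.snoc e f, ?_, ?_⟩
        · constructor
          · intro i
            refine Fin.lastCases ?_ (fun i => ?_) i
            · simp [hfn]
            · simp [he.1 i]
          · intro i k
            refine Fin.lastCases ?_ (fun i => ?_) i
            · refine Fin.lastCases ?_ (fun k => ?_) k
              · intro h
                exact absurd rfl h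
              · intro _
                simp only [Fin.snoc_last, Fin.snoc_castSucc]
                rw [real_inner_comm]
                exact hort k
            · refine Fin.lastCases ?_ (fun k => ?_) k
              · intro _
                simp only [Fin.snoc_last, Fin.snoc_castSucc]
                exact hort i
              · intro h
                simp only [Fin.snoc_castSucc]
                refine he.2 fun h' => h ?_
                rw [h']
        · intro Q A hIQ hA hu' k
          have hbd := hQ Q A hIQ hA hu'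
          refine Fin.lastCases ?_ (fun k => ?_) k
          · simp only [Fin.snoc_last]
            have h1 : Q f = (‖v‖⁻¹) ^ 2 * Q v := by rw [hf, hIQ.smul]
            have h2 : Q v ≤ 2 * A + 2 * (4 ^ m * (C * A)) := by
              have e1 : v = u j + (-1 : ℝ) • pr e (u j) := by
                rw [hv, neg_smul, one_smul, sub_eq_add_neg]
              have e2 := hIQ.add (u j) ((-1 : ℝ) • pr e (u j))
              rw [← e1, hIQ.smul] at e2
              have e3 : Q (pr e (u j)) ≤ 4 ^ m * (C * A) := by
                have := hIQ.sum_le (Finset.univ : Finset (Fin m))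
                  (fun i => ⟪e i, u j⟫ • e i) (M := C * A) (fun i _ => ?_) (by positivity)
                · simpa [pr] using this
                · rw [hIQ.smul]
                  have e4 : |⟪e i, u j⟫| ≤ 1 := by
                    have := abs_real_inner_le_norm (e i) (u j)
                    rwa [he.1 i, hu j, mul_one] at this
                  have e5 : ⟪e i, u j⟫ ^ 2 ≤ 1 := by
                    rw [← sq_abs]
                    exact pow_le_one₀ (abs_nonneg _) e4
                  have e6 := hbd i
                  have e7 := hIQ.nonneg (e i)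
                  calc ⟪e i, u j⟫ ^ 2 * Q (e i) ≤ 1 * Q (e i) := by gcongr
                    _ ≤ C * A := by rw [one_mul]; exact e6
              have e8 := hu' j
              nlinarith
            have h3 : (‖v‖⁻¹) ^ 2 ≤ (η⁻¹) ^ 2 := by
              have : ‖v‖⁻¹ ≤ η⁻¹ := inv_anti₀ hη hj.le
              gcongr
            have h4 : 0 ≤ Q v := hIQ.nonneg v
            rw [h1]
            calc (‖v‖⁻¹) ^ 2 * Q v ≤ (η⁻¹) ^ 2 * (2 * A + 2 * (4 ^ m * (C * A))) := by
                  gcongr
              _ = C' * A := by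
                rw [hC']
                field_simp
              _ ≤ max C C' * A := by
                gcongr
                exact le_max_right _ _
          · simp only [Fin.snoc_castSucc]
            refine (hbd k).trans ?_
            gcongr
            exact le_max_left _ _

end Vale.Agent.P210.R2.H53.LinAux
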