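import Vale.Agent.P210.R2.H53.Loc

set_option linter.all false

open scoped ContDiff Topology
open Set Metric Filter

set_option maxSynthPendingDepth 3

noncomputable section

namespace Vale.Agent.P210.R2.H53

/-- Uniform second order Taylor expansion on a compact set. -/
theorem uniform_taylor_vec {F F' : Type*} [NormedAddCommGroup F] [NormedSpace ℝ F]
    [NormedAddCommGroup F'] [NormedSpace ℝ F']
    {V P : Set F} (hV : IsOpen V) (hP : IsCompact P) (hPV : P ⊆ V) {q : F → F'}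
    (hq : ContDiffOn ℝ 2 q V) {η : ℝ} (hη : 0 < η) :
    ∃ δ > 0, ∀ p ∈ P, ∀ h : F, ‖h‖ ≤ δ → p + h ∈ V ∧
      ‖q (p + h) - q p - fderiv ℝ q p h - (2⁻¹ : ℝ) • fderiv ℝ (fderiv ℝ q) p h h‖
        ≤ η * ‖h‖ ^ 2 := by
  have hq1 : ContDiffOn ℝ 1 (fderiv ℝ q) V := hq.fderiv_of_isOpen hV (by norm_num)
  have hq2 : ContinuousOn (fderiv ℝ (fderiv ℝ q)) V := by
    have := hq1.fderiv_of_isOpen hV (m := 0) (by norm_num)
    exact this.continuousOn
  obtain ⟨δ₁, hδ₁, hthick⟩ := hP.exists_cthickening_subset_open hV hPV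
  -- uniform continuity of the second derivative near `P`
  obtain ⟨δ₂, hδ₂, huc⟩ : ∃ δ₂ > 0, ∀ p ∈ P, ∀ y, dist y p < δ₂ →
      dist (fderiv ℝ (fderiv ℝ q) y) (fderiv ℝ (fderiv ℝ q) p) < η := by
    have h1 : ∀ p ∈ P, ∃ δ > 0, ∀ y, dist y p < 2 * δ →
        dist (fderiv ℝ (fderiv ℝ q) y) (fderiv ℝ (fderiv ℝ q) p) < η / 2 := by
      intro p hp
      have hc : ContinuousAt (fderiv ℝ (fderiv ℝ q)) p :=
        hq2.continuousAt (hV.mem_nhds (hPV hp))
      obtain ⟨δ, hδ, h⟩ := Metric.continuousAt_iff.1 hc (η / 2) (by positivity)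
      exact ⟨δ / 2, by positivity, fun y hy => h (by linarith only [hy])⟩
    choose! δf hδf hδf2 using h1
    obtain ⟨T, hTP, hT⟩ := hP.elim_nhds_subcover (fun p => ball p (δf p))
      (fun p hp => ball_mem_nhds p (hδf p hp))
    rcases T.eq_empty_or_nonempty with rfl | hne
    · refine ⟨1, one_pos, fun p hp => ?_⟩
      have := hT hp
      simp at this
    refine ⟨T.inf' hne δf, (Finset.lt_inf'_iff hne).2 fun p hp => hδf p (hTP p hp), ?_⟩
    intro p hp y hy
    obtain ⟨p₀, hp₀, hpp₀⟩ := mem_iUnion₂.1 (hT hp)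
    have h2 : T.inf' hne δf ≤ δf p₀ := Finset.inf'_le _ hp₀
    have h3 := hδf2 p₀ (hTP p₀ hp₀) p (by
      have := mem_ball.1 hpp₀; have := hδf p₀ (hTP p₀ hp₀); linarith)
    have h4 := hδf2 p₀ (hTP p₀ hp₀) y (by
      have h5 := mem_ball.1 hpp₀
      calc dist y p₀ ≤ dist y p + dist p p₀ := dist_triangle _ _ _
        _ < 2 * δf p₀ := by linarith only [hne, hy, h2, h5])
    calc _ ≤ dist (fderiv ℝ (fderiv ℝ q) y) (fderiv ℝ (fderiv ℝ q) p₀)
          + dist (fderiv ℝ (fderiv ℝ q) p) (fderiv ℝ (fderiv ℝ q) p₀) := dist_triangle_right _ _ _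
      _ < η := by linarith only [h3, h4]
  refine ⟨min δ₁ (δ₂ / 2), by positivity, fun p hp h hh => ?_⟩
  have hhδ₁ : ‖h‖ ≤ δ₁ := hh.trans (min_le_left _ _)
  have hhδ₂ : ‖h‖ < δ₂ := by
    have := hh.trans (min_le_right _ _); linarith only [hδ₂, this]
  have hmem : ∀ k : F, ‖k‖ ≤ ‖h‖ → p + k ∈ V := by
    intro k hk
    apply hthick
    apply mem_cthickening_of_dist_le (p + k) p δ₁ P hp
    rw [dist_eq_norm]; simpa using hk.trans hhδ₁
  refine ⟨hmem h le_rfl, ?_⟩
  set B : Set F := closedBall 0 ‖h‖ with hB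
  have hconv : Convex ℝ B := convex_closedBall _ _
  have hsym : IsSymmSndFDerivAt ℝ q p :=
    (hq.contDiffAt (hV.mem_nhds (hPV hp))).isSymmSndFDerivAt (by simp)
  -- first derivative estimate
  have hd1 : ∀ k ∈ B, ‖fderiv ℝ q (p + k) - fderiv ℝ q p - fderiv ℝ (fderiv ℝ q) p k‖ ≤ η * ‖k‖ := by
    intro k hk
    have hkn : ‖k‖ ≤ ‖h‖ := by simpa [hB] using hk
    have hconv' : Convex ℝ (closedBall (0:F) ‖k‖) := convex_closedBall _ _
    have hder : ∀ l ∈ closedBall (0:F) ‖k‖, HasFDerivWithinAt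
        (fun l => fderiv ℝ q (p + l) - fderiv ℝ q p - fderiv ℝ (fderiv ℝ q) p l)
        (fderiv ℝ (fderiv ℝ q) (p + l) - fderiv ℝ (fderiv ℝ q) p) (closedBall (0:F) ‖k‖) l := by
      intro l hl
      have hln : ‖l‖ ≤ ‖h‖ := by
        have : ‖l‖ ≤ ‖k‖ := by simpa using hl
        linarith only [hkn, this]
      have h1 : HasFDerivAt (fderiv ℝ q) (fderiv ℝ (fderiv ℝ q) (p + l)) (p + l) :=
        ((hq1.contDiffAt (hV.mem_nhds (hmem l hln))).differentiableAt (by simp)).hasFDerivAt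
      have h2 : HasFDerivAt (fun l => fderiv ℝ q (p + l)) (fderiv ℝ (fderiv ℝ q) (p + l)) l := by
        have := h1.comp l ((hasFDerivAt_id l).const_add p)
        rwa [ContinuousLinearMap.comp_id] at this
      exact ((h2.sub_const _).sub (fderiv ℝ (fderiv ℝ q) p).hasFDerivAt).hasFDerivWithinAt
    have := hconv'.norm_image_sub_le_of_norm_hasFDerivWithin_le hder (C := η) (fun l hl => by
      have hln : ‖l‖ ≤ ‖h‖ := by
        have : ‖l‖ ≤ ‖k‖ := by simpa using hl
        linarith only [hkn, this]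
      have := huc p hp (p + l) (by rw [dist_eq_norm]; simpa using hln.trans_lt hhδ₂)
      rw [dist_eq_norm] at this
      exact this.le) (x := 0) (y := k) (by simp) (by simp)
    simpa using this
  have hder : ∀ k ∈ B, HasFDerivWithinAt
      (fun k => q (p + k) - q p - fderiv ℝ q p k - (2⁻¹ : ℝ) • fderiv ℝ (fderiv ℝ q) p k k)
      (fderiv ℝ q (p + k) - fderiv ℝ q p - fderiv ℝ (fderiv ℝ q) p k) B k := by
    intro k hk
    have hkn : ‖k‖ ≤ ‖h‖ := by simpa [hB] using hk
    have h1 : HasFDerivAt q (fderiv ℝ q (p + k)) (p + k) :=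
      ((hq.contDiffAt (hV.mem_nhds (hmem k hkn))).differentiableAt (by simp)).hasFDerivAt
    have h2 : HasFDerivAt (fun k => q (p + k)) (fderiv ℝ q (p + k)) k := by
      have := h1.comp k ((hasFDerivAt_id k).const_add p)
      rwa [ContinuousLinearMap.comp_id] at this
    have h3 : HasFDerivAt (fun k => (2⁻¹ : ℝ) • fderiv ℝ (fderiv ℝ q) p k k)
        (fderiv ℝ (fderiv ℝ q) p k) k := by
      have := ((fderiv ℝ (fderiv ℝ q) p).hasFDerivAt (x := k)).clm_apply (hasFDerivAt_id k)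
      have h4 := this.const_smul (2⁻¹ : ℝ)
      convert! h4 using 1
      ext l
      simp only [ContinuousLinearMap.comp_id, id, smul_apply, add_apply,
        ContinuousLinearMap.flip_apply]
      rw [hsym.eq l k, ← two_smul ℝ (fderiv ℝ (fderiv ℝ q) p k l), smul_smul]
      norm_num
    exact (((h2.sub_const _).sub (fderiv ℝ q p).hasFDerivAt).sub h3).hasFDerivWithinAt
  have := hconv.norm_image_sub_le_of_norm_hasFDerivWithin_le hder (C := η * ‖h‖) (fun k hk => by
      have hkn : ‖k‖ ≤ ‖h‖ := by simpa [hB] using hk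
      exact (hd1 k hk).trans (by gcongr)) (x := 0) (y := h) (by simp [hB]) (by simp [hB])
  simp only [add_zero, map_zero, smul_zero, sub_zero, sub_self] at this
  calc _ ≤ _ := this
    _ = η * ‖h‖ ^ 2 := by ring

/-- Uniform second order Taylor expansion on a compact set, scalar version. -/
theorem uniform_taylor {F : Type*} [NormedAddCommGroup F] [NormedSpace ℝ F]
    {V P : Set F} (hV : IsOpen V) (hP : IsCompact P) (hPV : P ⊆ V) {q : F → ℝ}
    (hq : ContDiffOn ℝ 2 q V) {η : ℝ} (hη : 0 < η) :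
    ∃ δ > 0, ∀ p ∈ P, ∀ h : F, ‖h‖ ≤ δ → p + h ∈ V ∧
      |q (p + h) - q p - fderiv ℝ q p h - fderiv ℝ (fderiv ℝ q) p h h / 2| ≤ η * ‖h‖ ^ 2 := by
  obtain ⟨δ, hδ, H⟩ := uniform_taylor_vec hV hP hPV hq hη
  refine ⟨δ, hδ, fun p hp h hh => ⟨(H p hp h hh).1, ?_⟩⟩
  have := (H p hp h hh).2
  rwa [smul_eq_mul, Real.norm_eq_abs, inv_mul_eq_div] at this


variable {E : Type*} [NormedAddCommGroup E] [NormedSpace ℝ E] [FiniteDimensional ℝ E]
  {G : E → E →L[ℝ] E →L[ℝ] ℝ} {U : Set E} {z : E}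

/-- the energy density as a function on the tangent bundle -/
def qf (G : E → E →L[ℝ] E →L[ℝ] ℝ) (p : E × E) : ℝ := G p.1 p.2 p.2

/-- the length density as a function on the tangent bundle -/
def sf (G : E → E →L[ℝ] E →L[ℝ] ℝ) (p : E × E) : ℝ := √(qf G p)

namespace LocalRiem

omit [FiniteDimensional ℝ E] in
theorem contDiffOn_qf (h : LocalRiem G U) : ContDiffOn ℝ ∞ (qf G) (U ×ˢ univ) := by
  have c0 : ContDiffOn ℝ ∞ (fun p : E × E => G p.1) (U ×ˢ univ) :=
    h.smooth.comp contDiff_fst.contDiffOn (fun p hp => hp.1)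
  exact (c0.clm_apply contDiff_snd.contDiffOn).clm_apply contDiff_snd.contDiffOn

omit [FiniteDimensional ℝ E] in
theorem fderiv_qf (h : LocalRiem G U) {p : E × E} (hp : p.1 ∈ U) (k : E × E) :
    fderiv ℝ (qf G) p k = fderiv ℝ G p.1 k.1 p.2 p.2 + 2 * G p.1 k.2 p.2 := by
  have h1 : HasFDerivAt (fun p : E × E => G p.1)
      ((fderiv ℝ G p.1).comp (ContinuousLinearMap.fst ℝ E E)) p :=
    (h.differentiableAt hp).hasFDerivAt.comp p hasFDerivAt_fst
  have h2 : HasFDerivAt (fun p : E × E => p.2) (ContinuousLinearMap.snd ℝ E E) p := hasFDerivAt_snd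
  have h3 := (h1.clm_apply h2).clm_apply h2
  have h4 : HasFDerivAt (qf G) _ p := h3
  rw [h4.fderiv]
  simp only [ContinuousLinearMap.comp_apply, add_apply, ContinuousLinearMap.flip_apply,
    ContinuousLinearMap.coe_fst', ContinuousLinearMap.coe_snd']
  rw [h.symm p.1 hp p.2 k.2]
  ring

omit [FiniteDimensional ℝ E] in
theorem fderiv2_qf (h : LocalRiem G U) {p : E × E} (hp : p.1 ∈ U) (k : E × E) :
    fderiv ℝ (fderiv ℝ (qf G)) p k k = fderiv ℝ (fderiv ℝ G) p.1 k.1 k.1 p.2 p.2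
      + 4 * fderiv ℝ G p.1 k.1 k.2 p.2 + 2 * G p.1 k.2 k.2 := by
  have hV : IsOpen (U ×ˢ (univ : Set E)) := h.isOpen.prod isOpen_univ
  have hpV : p ∈ U ×ˢ (univ : Set E) := ⟨hp, mem_univ _⟩
  have hd : DifferentiableAt ℝ (fderiv ℝ (qf G)) p :=
    ((h.contDiffOn_qf.fderiv_of_isOpen hV (m := ∞) (by simp)).contDiffAt
      (hV.mem_nhds hpV)).differentiableAt (by simp)
  have h0 : HasFDerivAt (fun y => fderiv ℝ (qf G) y k) ((fderiv ℝ (fderiv ℝ (qf G)) p).flip k) p := by
    have := hd.hasFDerivAt.clm_apply (hasFDerivAt_const k p)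
    convert! this using 1
    ext u <;> simp
  have h1 : HasFDerivAt (fun p : E × E => G p.1)
      ((fderiv ℝ G p.1).comp (ContinuousLinearMap.fst ℝ E E)) p :=
    (h.differentiableAt hp).hasFDerivAt.comp p hasFDerivAt_fst
  have h1' : HasFDerivAt (fun p : E × E => fderiv ℝ G p.1)
      ((fderiv ℝ (fderiv ℝ G) p.1).comp (ContinuousLinearMap.fst ℝ E E)) p :=
    (h.differentiableAt_fderiv hp).hasFDerivAt.comp p hasFDerivAt_fst
  have h2 : HasFDerivAt (fun p : E × E => p.2) (ContinuousLinearMap.snd ℝ E E) p := hasFDerivAt_snd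
  have h3 := (((h1'.clm_apply (hasFDerivAt_const k.1 p)).clm_apply h2).clm_apply h2).add
    (((h1.clm_apply (hasFDerivAt_const k.2 p)).clm_apply h2).const_mul 2)
  have h4 : (fun y : E × E => fderiv ℝ (qf G) y k) =ᶠ[𝓝 p]
      (fun p : E × E => fderiv ℝ G p.1 k.1 p.2 p.2 + 2 * G p.1 k.2 p.2) := by
    filter_upwards [hV.mem_nhds hpV] with y hy using h.fderiv_qf hy.1 k
  have h5 := (h0.congr_of_eventuallyEq h4.symm).unique h3
  have h6 := congrArg (fun T => T k) h5
  simp only [ContinuousLinearMap.comp_apply, add_apply, ContinuousLinearMap.flip_apply,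
    ContinuousLinearMap.coe_fst', ContinuousLinearMap.coe_snd', smul_apply,
    smul_eq_mul, ContinuousLinearMap.zero_apply, map_zero, zero_add] at h6
  rw [h6, h.fderiv_symm hp k.1 p.2 k.2]
  ring

/-- the domain of smoothness of the length density -/
def dom (U : Set E) : Set (E × E) := U ×ˢ {b | b ≠ 0}

omit [FiniteDimensional ℝ E] in
theorem isOpen_dom (h : LocalRiem G U) : IsOpen (dom U) := h.isOpen.prod isOpen_ne

omit [FiniteDimensional ℝ E] in
theorem qf_pos (h : LocalRiem G U) {p : E × E} (hp : p ∈ dom U) : 0 < qf G p :=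
  h.pos _ hp.1 _ hp.2

omit [FiniteDimensional ℝ E] in
theorem contDiffOn_sf (h : LocalRiem G U) : ContDiffOn ℝ ∞ (sf G) (dom U) := by
  intro p hp
  have h1 : ContDiffAt ℝ ∞ (qf G) p :=
    (h.contDiffOn_qf.mono (fun q hq => ⟨hq.1, mem_univ _⟩)).contDiffAt
      (h.isOpen_dom.mem_nhds hp)
  exact (h1.sqrt (h.qf_pos hp).ne').contDiffWithinAt

omit [FiniteDimensional ℝ E] in
theorem differentiableAt_sf (h : LocalRiem G U) {p : E × E} (hp : p ∈ dom U) :
    DifferentiableAt ℝ (sf G) p :=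
  (h.contDiffOn_sf.contDiffAt (h.isOpen_dom.mem_nhds hp)).differentiableAt (by simp)

omit [FiniteDimensional ℝ E] in
theorem differentiableAt_fderiv_sf (h : LocalRiem G U) {p : E × E} (hp : p ∈ dom U) :
    DifferentiableAt ℝ (fderiv ℝ (sf G)) p :=
  ((h.contDiffOn_sf.fderiv_of_isOpen h.isOpen_dom (m := ∞) (by simp)).contDiffAt
    (h.isOpen_dom.mem_nhds hp)).differentiableAt (by simp)

omit [FiniteDimensional ℝ E] in
theorem fderiv_sf (h : LocalRiem G U) {p : E × E} (hp : p ∈ dom U) (k : E × E) :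
    2 * sf G p * fderiv ℝ (sf G) p k = fderiv ℝ (qf G) p k := by
  have h1 : (fun y => sf G y * sf G y) =ᶠ[𝓝 p] qf G := by
    filter_upwards [h.isOpen_dom.mem_nhds hp] with y hy
    exact Real.mul_self_sqrt (h.qf_pos hy).le
  have h2 := (h.differentiableAt_sf hp).hasFDerivAt
  have h3 := ((h2.mul h2).congr_of_eventuallyEq h1.symm).fderiv
  rw [h3]
  simp
  ring

omit [FiniteDimensional ℝ E] in
theorem fderiv2_sf (h : LocalRiem G U) {p : E × E} (hp : p ∈ dom U) (k : E × E) :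
    2 * (fderiv ℝ (sf G) p k) ^ 2 + 2 * sf G p * fderiv ℝ (fderiv ℝ (sf G)) p k k =
      fderiv ℝ (fderiv ℝ (qf G)) p k k := by
  have h1 : (fun y => 2 * sf G y * fderiv ℝ (sf G) y k) =ᶠ[𝓝 p]
      (fun y => fderiv ℝ (qf G) y k) := by
    filter_upwards [h.isOpen_dom.mem_nhds hp] with y hy using h.fderiv_sf hy k
  have hV : IsOpen (U ×ˢ (univ : Set E)) := h.isOpen.prod isOpen_univ
  have hd : DifferentiableAt ℝ (fderiv ℝ (qf G)) p :=
    ((h.contDiffOn_qf.fderiv_of_isOpen hV (m := ∞) (by simp)).contDiffAt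
      (hV.mem_nhds ⟨hp.1, mem_univ _⟩)).differentiableAt (by simp)
  have h2 := (((h.differentiableAt_sf hp).hasFDerivAt.const_mul 2).mul
    ((h.differentiableAt_fderiv_sf hp).hasFDerivAt.clm_apply (hasFDerivAt_const k p)))
  have h3 := (hd.hasFDerivAt.clm_apply (hasFDerivAt_const k p))
  have h4 := (h2.congr_of_eventuallyEq h1.symm).unique h3
  have h5 := congrArg (fun T => T k) h4
  simp at h5
  linarith only [h5]

/-- the second order coefficient -/
theorem coeff (h : LocalRiem G U) {z b : E} (hz : z ∈ U) (hb : G z b b = 1) (X B : E) :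
    2 * fderiv ℝ (sf G) (z, b) (-(1 / 2 : ℝ) • chris G z X X,
        -(1 / 2 : ℝ) • (fderiv ℝ (chris G) z b X X + (2 : ℝ) • chris G z X B))
      + fderiv ℝ (fderiv ℝ (sf G)) (z, b) (X, B) (X, B) =
      G z (B + chris G z b X) (B + chris G z b X) - G z b (B + chris G z b X) ^ 2
        - secG G z X b := by
  have hb0 : b ≠ 0 := by rintro rfl; simp at hb
  have hp : ((z, b) : E × E) ∈ dom U := ⟨hz, hb0⟩
  have hs : sf G (z, b) = 1 := by
    unfold sf qf
    simp only
    rw [hb, Real.sqrt_one]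
  have e1 := h.fderiv_sf hp (-(1 / 2 : ℝ) • chris G z X X,
        -(1 / 2 : ℝ) • (fderiv ℝ (chris G) z b X X + (2 : ℝ) • chris G z X B))
  have e2 := h.fderiv2_sf hp (X, B)
  have e3 := h.fderiv_sf hp (X, B)
  rw [h.fderiv_qf hz] at e1 e3
  rw [h.fderiv2_qf hz] at e2
  rw [hs] at e1 e2 e3
  simp only [map_smul, smul_apply, smul_eq_mul, map_add, add_apply] at e1 e2 e3 ⊢
  have f1 := h.fderiv_eq hz (chris G z X X) b b
  have f2 := h.fderiv_eq hz X b b
  have f3 := h.fderiv_eq hz X B b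
  have f4 := h.fderiv_chris hz b X X b
  have s1 := h.symm z hz b (chris G z (chris G z X X) b)
  have s2 := h.symm z hz b (chris G z X b)
  have s3 := h.symm z hz b B
  have s4 := h.symm z hz B (chris G z X b)
  have c1 := h.chris_symm hz b X
  have c2 := h.chris_symm hz b (chris G z X X)
  have d1 := h.fderiv2_symm hz b X X b
  have s5 := h.symm z hz b (chris G z X B)
  have s6 := h.symm z hz (chris G z X b) B
  unfold secG
  rw [c1]
  rw [c2] at f4
  rw [s2] at f2
  have e3' : fderiv ℝ (sf G) (z, b) (X, B) = G z (chris G z X b) b + G z B b := by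
    linarith only [e3, f2]
  rw [e3'] at e2
  rw [s3, s2, s6]
  have hsq : (G z (chris G z X b) b + G z B b) ^ 2 = (G z B b + G z (chris G z X b) b) ^ 2 := by ring
  linarith only [e1, e2, f1, f3, f4, s1, s4, s5, s6, hsq, d1]

end LocalRiem

end Vale.Agent.P210.R2.H53
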