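import Vale.Agent.P210.R2.H53.SpecR
import Mathlib.MeasureTheory.Measure.Haar.OfBasis
import Mathlib.LinearAlgebra.Trace

open scoped Manifold ContDiff Topology Bundle ENNReal NNReal
open Set Metric Filter Bundle IsManifold MeasureTheory Manifold Asymptotics

set_option maxSynthPendingDepth 3

noncomputable section

namespace Vale.Agent.P210.R2.H53

section RicDef

variable {E : Type*} [NormedAddCommGroup E] [NormedSpace ℝ E]
  {M : Type*} [MetricSpace M] [ChartedSpace E M]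
  [RiemannianBundle (fun x : M => TangentSpace 𝓘(ℝ, E) x)]

variable (E M) in
/-- The Ricci curvature is at least `κ`. -/
def RicGE [IsManifold 𝓘(ℝ, E) ∞ M] (κ : ℝ) : Prop :=
  ∀ e ∈ maximalAtlas 𝓘(ℝ, E) ∞ M, ∀ z ∈ e.target, ∃ Γ, IsChristoffel e z Γ ∧
    ∀ b : Module.Basis (Fin (Module.finrank ℝ E)) ℝ E,
      (∀ i j, chartMetric e z (b i) (b j) = if i = j then 1 else 0) →
      ∀ v : E, κ * chartMetric e z v v ≤ ∑ i, sectNum e z Γ (b i) v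

end RicDef

section Flat

variable {E : Type*} [NormedAddCommGroup E] [NormedSpace ℝ E]

/-- gradient of `φ` for the metric `G` -/
def gradG (G : E → E →L[ℝ] E →L[ℝ] ℝ) (φ : E → ℝ) (z : E) : E :=
  ContinuousLinearMap.inverse (G z) (fderiv ℝ φ z)

/-- inner product of the gradients -/
def gamG (G : E → E →L[ℝ] E →L[ℝ] ℝ) (φ ψ : E → ℝ) (z : E) : ℝ :=
  fderiv ℝ φ z (gradG G ψ z)

/-- Hessian -/
def hessG (G : E → E →L[ℝ] E →L[ℝ] ℝ) (φ : E → ℝ) (z : E) : E →L[ℝ] E →L[ℝ] ℝ :=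
  fderiv ℝ (fderiv ℝ φ) z - (ContinuousLinearMap.compL ℝ E E ℝ (fderiv ℝ φ z)).comp (chris G z)

/-- Hessian as an endomorphism -/
def opG (G : E → E →L[ℝ] E →L[ℝ] ℝ) (φ : E → ℝ) (z : E) : E →L[ℝ] E :=
  (ContinuousLinearMap.inverse (G z)).comp (hessG G φ z)

/-- Laplacian -/
def lapG (G : E → E →L[ℝ] E →L[ℝ] ℝ) (φ : E → ℝ) (z : E) : ℝ :=
  LinearMap.trace ℝ E (opG G φ z : E →ₗ[ℝ] E)

/-- `|Hess φ - (α / 2) g|²` -/
def hsG (G : E → E →L[ℝ] E →L[ℝ] ℝ) (α : ℝ) (φ : E → ℝ) (z : E) : ℝ :=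
  LinearMap.trace ℝ E (((opG G φ z - (α / 2) • ContinuousLinearMap.id ℝ E).comp
    (opG G φ z - (α / 2) • ContinuousLinearMap.id ℝ E) : E →L[ℝ] E) : E →ₗ[ℝ] E)

/-- density of the Riemannian measure with respect to the Haar measure of `Module.finBasis` -/
def dens [FiniteDimensional ℝ E] (G : E → E →L[ℝ] E →L[ℝ] ℝ) (z : E) : ℝ :=
  √(Matrix.det (Matrix.of fun i j : Fin (Module.finrank ℝ E) =>
    G z (Module.finBasis ℝ E i) (Module.finBasis ℝ E j)))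

end Flat

section Mfd

variable (E : Type) [NormedAddCommGroup E] [NormedSpace ℝ E]
  {M : Type} [MetricSpace M] [ChartedSpace E M]
  [RiemannianBundle (fun x : M => TangentSpace 𝓘(ℝ, E) x)]

/-- inner product of the gradients of `u` and `v` -/
def Gam (u v : M → ℝ) (p : M) : ℝ :=
  gamG (chartG (chartAt E p)) (u ∘ (chartAt E p).symm) (v ∘ (chartAt E p).symm) (chartAt E p p)

/-- Laplacian -/
def Lap (u : M → ℝ) (p : M) : ℝ :=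
  lapG (chartG (chartAt E p)) (u ∘ (chartAt E p).symm) (chartAt E p p)

/-- `|Hess u - (α / 2) g|²` -/
def HS (α : ℝ) (u : M → ℝ) (p : M) : ℝ :=
  hsG (chartG (chartAt E p)) α (u ∘ (chartAt E p).symm) (chartAt E p p)

/-- smooth with compact support -/
def TF (u : M → ℝ) : Prop := ContMDiff 𝓘(ℝ, E) 𝓘(ℝ, ℝ) ∞ u ∧ HasCompactSupport u

/-- Lipschitz with compact support -/
def LC (u : M → ℝ) : Prop := (∃ C, LipschitzWith C u) ∧ HasCompactSupport u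

/-- `μ` is the Riemannian measure -/
def IsVol [FiniteDimensional ℝ E] [MeasurableSpace E] [BorelSpace E] [MeasurableSpace M]
    [BorelSpace M] [IsManifold 𝓘(ℝ, E) ∞ M] (μ : Measure M) : Prop :=
  ∀ e ∈ maximalAtlas 𝓘(ℝ, E) ∞ M, ∀ f : M → ℝ≥0∞, Measurable f → (∀ p ∉ e.source, f p = 0) →
    ∫⁻ p, f p ∂μ = ∫⁻ z in e.target, f (e.symm z) * ENNReal.ofReal (dens (chartG e) z)
      ∂(Module.finBasis ℝ E).addHaar

end Mfd

namespace Stmt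

/-- the standing assumptions for Theorem R -/
def ForR (P : ∀ (E : Type) [NormedAddCommGroup E] [NormedSpace ℝ E] [FiniteDimensional ℝ E]
    [MeasurableSpace E] [BorelSpace E]
    (M : Type) [MetricSpace M] [ChartedSpace E M]
    [RiemannianBundle (fun x : M => TangentSpace 𝓘(ℝ, E) x)]
    [IsManifold 𝓘(ℝ, E) ∞ M]
    [IsContMDiffRiemannianBundle 𝓘(ℝ, E) ∞ E (fun x : M => TangentSpace 𝓘(ℝ, E) x)]
    [IsRiemannianManifold 𝓘(ℝ, E) M] [MeasurableSpace M] [BorelSpace M] [ProperSpace M],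
    Prop) : Prop :=
  ∀ (E : Type) [NormedAddCommGroup E] [NormedSpace ℝ E] [FiniteDimensional ℝ E]
    [MeasurableSpace E] [BorelSpace E]
    (M : Type) [MetricSpace M] [ChartedSpace E M]
    [RiemannianBundle (fun x : M => TangentSpace 𝓘(ℝ, E) x)]
    [IsManifold 𝓘(ℝ, E) ∞ M]
    [IsContMDiffRiemannianBundle 𝓘(ℝ, E) ∞ E (fun x : M => TangentSpace 𝓘(ℝ, E) x)]
    [IsRiemannianManifold 𝓘(ℝ, E) M] [MeasurableSpace M] [BorelSpace M] [ProperSpace M],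
    1 ≤ Module.finrank ℝ E → P E M

/-- VOL: existence of the Riemannian measure -/
def VOL : Prop := ForR fun E _ _ _ _ _ M _ _ _ _ _ _ _ _ _ =>
  ∃ μ : Measure M, IsVol E μ

/-- CALA: Lipschitz calculus and integration by parts -/
def CALA : Prop := ForR fun E _ _ _ _ _ M _ _ _ _ _ _ _ _ _ =>
  ∀ μ : Measure M, IsVol E μ →
  (∀ K : Set M, IsCompact K → μ K < ⊤) ∧
  (∀ U : Set M, IsOpen U → U.Nonempty → 0 < μ U) ∧
  (∀ u : M → ℝ, LocallyLipschitz u → ∀ᵐ p ∂μ, MDifferentiableAt 𝓘(ℝ, E) 𝓘(ℝ, ℝ) u p) ∧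
  (∀ u v : M → ℝ, Continuous u → Continuous v → Measurable (Gam E u v)) ∧
  (∀ u v : M → ℝ, TF E u → LC v → ∫ p, Gam E u v p ∂μ = -∫ p, v p * Lap E u p ∂μ)

/-- CALB: pointwise rules for the gradients -/
def CALB : Prop := ForR fun E _ _ _ _ _ M _ _ _ _ _ _ _ _ _ =>
  (∀ (u v : M → ℝ) (p : M), ∀ e ∈ maximalAtlas 𝓘(ℝ, E) ∞ M, p ∈ e.source →
    Gam E u v p = gamG (chartG e) (u ∘ e.symm) (v ∘ e.symm) (e p)) ∧
  (∀ (u v : M → ℝ) (p : M), Gam E u v p = Gam E v u p) ∧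
  (∀ (u : M → ℝ) (p : M), 0 ≤ Gam E u u p) ∧
  (∀ (u v : M → ℝ) (p : M), Gam E u v p ^ 2 ≤ Gam E u u p * Gam E v v p) ∧
  (∀ (u v w : M → ℝ) (p : M), u =ᶠ[𝓝 p] v → Gam E u w p = Gam E v w p) ∧
  (∀ (u v w : M → ℝ) (p : M), MDifferentiableAt 𝓘(ℝ, E) 𝓘(ℝ, ℝ) u p →
    MDifferentiableAt 𝓘(ℝ, E) 𝓘(ℝ, ℝ) v p →
    Gam E (fun q => u q + v q) w p = Gam E u w p + Gam E v w p ∧
    Gam E (fun q => u q * v q) w p = u p * Gam E v w p + v p * Gam E u w p) ∧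
  (∀ (c : ℝ) (u w : M → ℝ) (p : M), Gam E (fun q => c * u q) w p = c * Gam E u w p) ∧
  (∀ (c : ℝ) (w : M → ℝ) (p : M), Gam E (fun _ => c) w p = 0) ∧
  (∀ (φ : ℝ → ℝ) (u w : M → ℝ) (p : M), MDifferentiableAt 𝓘(ℝ, E) 𝓘(ℝ, ℝ) u p →
    DifferentiableAt ℝ φ (u p) → Gam E (fun q => φ (u q)) w p = deriv φ (u p) * Gam E u w p) ∧
  (∀ (C : ℝ) (u : M → ℝ) (p : M), 0 ≤ C → (∀ᶠ q in 𝓝 p, |u q - u p| ≤ C * dist q p) →
    Gam E u u p ≤ C ^ 2) ∧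
  (∀ (x p : M), x ≠ p → MDifferentiableAt 𝓘(ℝ, E) 𝓘(ℝ, ℝ) (fun q => dist x q) p →
    Gam E (fun q => dist x q) (fun q => dist x q) p = 1)

/-- CALC: second order calculus of smooth functions -/
def CALC : Prop := ForR fun E _ _ _ _ _ M _ _ _ _ _ _ _ _ _ =>
  (∀ u v : M → ℝ, TF E u → TF E v → TF E (Gam E u v)) ∧
  (∀ u : M → ℝ, TF E u → TF E (Lap E u)) ∧
  (∀ (α : ℝ) (u : M → ℝ), TF E u → Continuous (HS E α u) ∧ ∀ p, 0 ≤ HS E α u p) ∧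
  (∀ (α : ℝ) (u : M → ℝ) (p : M), TF E u →
    HS E α u p = HS E 0 u p - α * Lap E u p + Module.finrank ℝ E * α ^ 2 / 4) ∧
  (∀ (α : ℝ) (u : M → ℝ) (p : M), TF E u →
    (Lap E u p - Module.finrank ℝ E * α / 2) ^ 2 ≤ Module.finrank ℝ E * HS E α u p) ∧
  (∀ (α : ℝ) (u : M → ℝ) (p : M), TF E u →
    Gam E (fun q => Gam E u u q - α * u q) (fun q => Gam E u u q - α * u q) p ≤
      4 * HS E α u p * Gam E u u p) ∧
  (∀ (K : ℝ) (u : M → ℝ) (p : M), RicGE E M (-K) → TF E u →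
    HS E 0 u p + Gam E u (Lap E u) p - K * Gam E u u p ≤ (1 / 2) * Lap E (Gam E u u) p) ∧
  (∀ (α : ℝ) (u v : M → ℝ) (p : M), TF E u → TF E v →
    HS E 0 (fun q => u q - v q) p ≤ 2 * (HS E α u p + HS E α v p)) ∧
  (∀ (c : ℝ) (u v : M → ℝ) (p : M), TF E u → TF E v →
    HS E 0 (fun q => c * u q) p = c ^ 2 * HS E 0 u p ∧
    HS E 0 (fun q => u q + v q) p ≤ 2 * (HS E 0 u p + HS E 0 v p) ∧
    Lap E (fun q => c * u q) p = c * Lap E u p ∧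
    Lap E (fun q => u q + v q) p = Lap E u p + Lap E v p)

/-- WLC: weak Laplacian comparison -/
def WLC : Prop := ForR fun E _ _ _ _ _ M _ _ _ _ _ _ _ _ _ =>
  ∀ (μ : Measure M) (K : ℝ), IsVol E μ → 0 < K → RicGE E M (-K) → ∀ (x : M) (ζ : M → ℝ),
    LC ζ → (∀ p, 0 ≤ ζ p) →
    -∫ p, Gam E (fun q => dist x q ^ 2 / 2) ζ p ∂μ ≤
      ∫ p, (Module.finrank ℝ E + K * dist x p ^ 2) * ζ p ∂μ

/-- RESL: approximate solutions of `u - τ Lap u = f` -/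
def RESL : Prop := ForR fun E _ _ _ _ _ M _ _ _ _ _ _ _ _ _ =>
  ∀ (μ : Measure M), IsVol E μ → ∀ (f : M → ℝ) (C : ℝ) (τ ε : ℝ) (S : Set M), LC f →
    (∀ p, |f p| ≤ C) → 0 < τ → 0 < ε → IsCompact S → ∃ u : M → ℝ, TF E u ∧
      ∫ p in S, (u p - τ * Lap E u p - f p) ^ 2 ∂μ ≤ ε ∧
      ∫ p in S ∩ {p | C + ε < |u p|}, (u p ^ 2 + Gam E u u p) ∂μ ≤ ε

/-- SCX: the scalar curvature inequality -/
def SCX : Prop := ∀ n : ℕ, 2 ≤ n → ∃ C : ℝ, 1 ≤ C ∧ ForR fun E _ _ _ _ _ M _ _ _ _ _ _ _ _ _ =>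
  Module.finrank ℝ E = n → ∀ (μ : Measure M) (K : ℝ), IsVol E μ → 0 ≤ K → C * K ≤ 1 →
    RicGE E M (-K) → ScalGE E M 1 → ∀ (u : Fin (n - 1) → M → ℝ) (Ψ : M → ℝ),
    (∀ i, TF E (u i)) → LC Ψ → (∀ p, 0 ≤ Ψ p) → (∀ p, Ψ p ≠ 0 → ∀ i, Gam E (u i) (u i) p ≤ 4) →
    ∫ p in {p | ∀ i j, |Gam E (u i) (u j) p - (if i = j then 1 else 0)| ≤ 1 / (4 * n)},
      Ψ p ∂μ ≤
    C * ∫ p, (Ψ p * ∑ i, HS E 0 (u i) p + √(Gam E Ψ Ψ p) * √(∑ i, HS E 0 (u i) p)) ∂μ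
      + C * K * ∫ p, Ψ p ∂μ

end Stmt

end Vale.Agent.P210.R2.H53
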