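import Vale.Agent.P210.R2.H53.TSpec
import Vale.Agent.P210.R2.H53.AnC

/-! # Row SPECF: the spectral condition for the functions of twisted products -/

open scoped Manifold ContDiff Topology Bundle ENNReal NNReal
open Set Metric Filter Bundle IsManifold MeasureTheory Manifold Asymptotics

set_option maxSynthPendingDepth 3
set_option linter.all false

noncomputable section

namespace Vale.Agent.P210.R2.H53

variable {E : Type} [NormedAddCommGroup E] [NormedSpace ℝ E] [FiniteDimensional ℝ E]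
  [MeasurableSpace E] [BorelSpace E] {M : Type} [MetricSpace M] [ChartedSpace E M]
  [RiemannianBundle (fun x : M => TangentSpace 𝓘(ℝ, E) x)]
  [MeasurableSpace M] [BorelSpace M] [ProperSpace M] {μ : Measure M}

/-- the pointwise inequality -/
theorem spec_pt (hc : Cal E μ) {n : ℝ} (hn : 3 ≤ n) (a φ ψ : M → ℝ) (p : M)
    (ha : MDifferentiableAt 𝓘(ℝ, E) 𝓘(ℝ, ℝ) a p) (hφ : MDifferentiableAt 𝓘(ℝ, E) 𝓘(ℝ, ℝ) φ p)
    (hψ : MDifferentiableAt 𝓘(ℝ, E) 𝓘(ℝ, ℝ) ψ p) (t : ℝ) :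
    0 ≤ ((n - 1) * (n - 2) * Gam E a a p + 2 * (n - 2) * Gam E a φ p + Gam E φ φ p) * t ^ 2
      - 4 * t * ((n - 1) * Gam E a ψ p + Gam E φ ψ p) + 8 * Gam E ψ ψ p := by
  have hg : MDifferentiableAt 𝓘(ℝ, E) 𝓘(ℝ, ℝ) (fun q => φ q + (n - 2) * a q) p :=
    hc.md_add hφ (hc.md_smul _ ha)
  have e1 := hc.quad φ a (n - 2) p hφ ha
  have e2 := hc.quad ψ (fun q => φ q + (n - 2) * a q) (-t / 2) p hψ hg
  have e3 := hc.quad ψ a (-t / 2) p hψ ha
  have e4 : Gam E ψ (fun q => φ q + (n - 2) * a q) p = Gam E ψ φ p + (n - 2) * Gam E ψ a p := by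
    rw [hc.add' _ _ _ _ hφ (hc.md_smul _ ha), hc.smul']
  have n2 := hc.nonneg (fun q => ψ q + -t / 2 * (fun q => φ q + (n - 2) * a q) q) p
  have n3 := hc.nonneg (fun q => ψ q + -t / 2 * a q) p
  have n4 : 0 ≤ (n - 3) * (t ^ 2 * Gam E a a p) :=
    mul_nonneg (by linarith) (mul_nonneg (sq_nonneg _) (hc.nonneg _ _))
  have s1 := hc.symm φ a p
  have s2 := hc.symm φ ψ p
  have s3 := hc.symm a ψ p
  rw [e2, e4, e1] at n2
  rw [e3] at n3
  rw [s3, s2, ← s1]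
  nlinarith [n2, n3, n4]

theorem TwS_congr (n : ℕ) {b a a' φ φ' : M → ℝ} (hc : Cal E μ) {p : M} (ha : a' =ᶠ[𝓝 p] a)
    (hφ : φ' =ᶠ[𝓝 p] φ) : TwS E n b a' φ' p = TwS E n b a φ p := by
  unfold TwS
  have h1 : (fun q => ((n : ℝ) - 1) * a' q + φ' q) =ᶠ[𝓝 p] fun q => ((n : ℝ) - 1) * a q + φ q := by
    filter_upwards [ha, hφ] with q h2 h3
    rw [h2, h3]
  rw [Lap_congr h1, hc.congr _ _ a' p ha, hc.congr' a _ _ p ha, hc.congr _ _ φ' p ha,
    hc.congr' a _ _ p hφ, hc.congr _ _ φ' p hφ, hc.congr' φ _ _ p hφ]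

theorem specf (hA : Stmt.CALA) (hB : Stmt.CALB) (hC : Stmt.CALC) (hD : Stmt.CALD) :
    Stmt.SPECF := by
  intro n hn E _ _ _ _ _ M _ _ _ _ _ _ _ _ _ h1 μ hμ c b a φ hb hcb ha hφ
  have hc := cal_of hA hB hD h1 hμ
  obtain ⟨c1, c2, -⟩ := hC E M h1
  haveI := hc.isFinOn
  have hnR : (3 : ℝ) ≤ n := by exact_mod_cast hn
  have hcut : ∀ K : Set M, IsCompact K → ∃ a' φ' : M → ℝ, TF E a' ∧ TF E φ' ∧
      ∀ p ∈ K, a' =ᶠ[𝓝 p] a ∧ φ' =ᶠ[𝓝 p] φ := by
    intro K hK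
    obtain ⟨χ, hχ, -, hχ1, -⟩ := hc.cut K univ hK isOpen_univ (subset_univ _)
    refine ⟨fun q => χ q * a q, fun q => χ q * φ q, ⟨hχ.1.mul ha, hχ.2.mul_right⟩,
      ⟨hχ.1.mul hφ, hχ.2.mul_right⟩, fun p hp => ?_⟩
    have h2 : ∀ᶠ q in 𝓝 p, χ q = 1 := (mem_nhdsSet_iff_forall.1 hχ1) p hp
    constructor <;> filter_upwards [h2] with q hq <;> rw [hq, one_mul]
  have htf : ∀ a' φ' : M → ℝ, TF E a' → TF E φ' → TF E fun q => ((n : ℝ) - 1) * a' q + φ' q :=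
    fun a' φ' h2 h3 => ⟨(contMDiff_const.mul h2.1).add h3.1, (h2.2.mul_left).add h3.2⟩
  have hcontTF : ∀ a' φ' : M → ℝ, TF E a' → TF E φ' → Continuous (TwS E n b a' φ') := by
    intro a' φ' h2 h3
    unfold TwS
    have k1 := (c2 _ (htf a' φ' h2 h3)).1.continuous
    have k2 := (c1 a' a' h2 h2).1.continuous
    have k3 := (c1 a' φ' h2 h3).1.continuous
    have k4 := (c1 φ' φ' h3 h3).1.continuous
    exact (((hb.add (continuous_const.mul k1)).add (continuous_const.mul k2)).add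
      (continuous_const.mul k3)).add k4
  have hcont : Continuous (TwS E n b a φ) := by
    rw [continuous_iff_continuousAt]
    intro p
    obtain ⟨a', φ', h2, h3, h4⟩ := hcut {p} isCompact_singleton
    obtain ⟨h5, h6⟩ := h4 p rfl
    refine (hcontTF a' φ' h2 h3).continuousAt.congr ?_
    filter_upwards [h5.eventuallyEq_nhds, h6.eventuallyEq_nhds] with q h7 h8
    exact TwS_congr n hc h7 h8
  refine ⟨hcont, fun ψ hψ => ?_⟩
  obtain ⟨a', φ', h2, h3, h4⟩ := hcut (tsupport ψ) hψ.2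
  set f : M → ℝ := fun q => ((n : ℝ) - 1) * a' q + φ' q with hf
  have hfT : TF E f := htf a' φ' h2 h3
  have hψ2 : LC fun q => ψ q * ψ q := LC.mul_left hψ.ll hψ
  have hψll := hψ.ll
  have hdiff : ∀ᵐ p ∂μ, MDifferentiableAt 𝓘(ℝ, E) 𝓘(ℝ, ℝ) ψ p := hc.diff ψ hψll
  have md : ∀ u : M → ℝ, TF E u → ∀ p, MDifferentiableAt 𝓘(ℝ, E) 𝓘(ℝ, ℝ) u p :=
    fun u hu p => (hu.1 p).mdifferentiableAt (by simp)
  -- integrability
  have i1 : Integrable (fun p => ψ p * Gam E f ψ p) μ :=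
    hc.int_mul_gam hψ.cont (hc.tfll f hfT) hψ
  have i2 : Integrable (Gam E ψ ψ) μ := hc.int_gam hψ.ll hψ
  have i3 : Integrable (fun p => (TwS E n b a φ p) * ψ p ^ 2) μ := by
    refine hc.int_cont (hcont.mul (hψ.cont.pow 2)) ?_
    exact HasCompactSupport.mul_left (hψ.2.comp_left (g := fun t : ℝ => t ^ 2) (by norm_num))
  have i4 : Integrable (fun p => (ψ p * ψ p) * Lap E f p) μ :=
    hc.int_cont (hψ2.cont.mul (c2 f hfT).1.continuous) hψ2.2.mul_right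
  have i5 : Integrable (fun p => c * ψ p ^ 2) μ := by
    refine hc.int_cont (continuous_const.mul (hψ.cont.pow 2)) ?_
    exact HasCompactSupport.mul_left (hψ.2.comp_left (g := fun t : ℝ => t ^ 2) (by norm_num))
  -- the weak identity
  have w1 : ∫ p, 2 * (ψ p * Gam E f ψ p) ∂μ = -∫ p, (ψ p * ψ p) * Lap E f p ∂μ := by
    rw [← hc.ibp f _ hfT hψ2]
    refine integral_congr_ae ?_
    filter_upwards [hdiff] with p hp
    rw [hc.mul' _ _ _ _ hp hp]
    ring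
  have w2 : ∫ p, (TwS E n b a φ p * ψ p ^ 2 + 8 * Gam E ψ ψ p) ∂μ =
      ∫ p, (TwS E n b a φ p * ψ p ^ 2 + 8 * Gam E ψ ψ p - 2 * ((ψ p * ψ p) * Lap E f p)
        - 4 * (ψ p * Gam E f ψ p)) ∂μ := by
    rw [integral_sub (by exact (i3.add (i2.const_mul 8)).sub (i4.const_mul 2)) (i1.const_mul 4),
      integral_sub (by exact i3.add (i2.const_mul 8)) (i4.const_mul 2), integral_const_mul,
      integral_const_mul]
    rw [integral_const_mul] at w1
    linarith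
  rw [w2, ← integral_const_mul]
  refine integral_mono_ae i5
    (((i3.add (i2.const_mul 8)).sub (i4.const_mul 2)).sub (i1.const_mul 4)) ?_
  filter_upwards [hdiff] with p hp
  by_cases hps : p ∈ tsupport ψ
  · obtain ⟨h5, h6⟩ := h4 p hps
    rw [← TwS_congr n hc (b := b) h5 h6]
    have k1 := spec_pt hc hnR a' φ' ψ p (md _ h2 p) (md _ h3 p) hp (ψ p)
    have k2 : Gam E f ψ p = ((n : ℝ) - 1) * Gam E a' ψ p + Gam E φ' ψ p := by
      rw [hf, hc.add _ _ _ _ (hc.md_smul _ (md _ h2 p)) (md _ h3 p), hc.smul]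
    have k3 : TwS E n b a' φ' p = b p + 2 * Lap E f p + (n - 1) * (n - 2) * Gam E a' a' p +
      2 * (n - 2) * Gam E a' φ' p + Gam E φ' φ' p := rfl
    rw [k3, k2]
    have k4 := mul_le_mul_of_nonneg_right (hcb p) (sq_nonneg (ψ p))
    nlinarith [k1, k4]
  · have k1 : ψ p = 0 := image_eq_zero_of_notMem_tsupport hps
    have k2 : Gam E ψ ψ p = 0 := hc.gam_zero_of_notMem ψ hps
    rw [k1, k2]
    simp

end Vale.Agent.P210.R2.H53
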