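import Vale.Agent.P210.R2.H53.TSpec
import Mathlib.Analysis.Normed.Group.AddCircle

/-! # Barycentric coordinates for maps to a torus -/

open Set

set_option linter.unusedVariables false

namespace Vale.Agent.P210.R2.H53

/-- hat functions on the circle -/
noncomputable def hatC (i : Fin 3) (x : UnitAddCircle) : ℝ :=
  max 0 (1 - 3 * ‖x - ((i / 3 : ℝ) : UnitAddCircle)‖)

theorem hatC_coe (i : Fin 3) (t : ℝ) : hatC i (t : UnitAddCircle) =
    max 0 (1 - 3 * min (Int.fract (t - i / 3)) (1 - Int.fract (t - i / 3))) := by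
  rw [hatC, ← AddCircle.coe_sub, UnitAddCircle.norm_eq, abs_sub_round_eq_min]

theorem fract_of {a b : ℝ} (n : ℤ) (h0 : 0 ≤ b) (h1 : b < 1) (h : a = b + n) :
    Int.fract a = b := by
  rw [h, Int.fract_add_intCast, Int.fract_eq_self.2 ⟨h0, h1⟩]

theorem hat_val {a b c : ℝ} (n : ℤ) (h0 : 0 ≤ b) (h1 : b < 1) (h : a = b + n)
    (hc : c = max 0 (1 - 3 * min b (1 - b))) :
    max 0 (1 - 3 * min (Int.fract a) (1 - Int.fract a)) = c := by
  rw [fract_of n h0 h1 h, hc]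

theorem hat_lt {b : ℝ} (h1 : b ≤ 1 / 3) (h0 : 0 ≤ b) :
    max 0 (1 - 3 * min b (1 - b)) = 1 - 3 * b := by
  rw [min_eq_left (by linarith), max_eq_right (by linarith)]

theorem hat_mid {b : ℝ} (h1 : 1 / 3 ≤ b) (h0 : b ≤ 2 / 3) :
    max 0 (1 - 3 * min b (1 - b)) = 0 := by
  refine max_eq_left ?_
  have : 1 / 3 ≤ min b (1 - b) := le_min h1 (by linarith)
  linarith

theorem hat_gt {b : ℝ} (h1 : 2 / 3 ≤ b) (h0 : b ≤ 1) :
    max 0 (1 - 3 * min b (1 - b)) = 1 - 3 * (1 - b) := by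
  rw [min_eq_right (by linarith), max_eq_right (by linarith)]

theorem hatC_one {t : ℝ} (h0 : 0 ≤ t) (h1 : t < 1 / 3) : hatC 0 (t : UnitAddCircle) = 1 - 3 * t ∧
    hatC 1 (t : UnitAddCircle) = 3 * t ∧ hatC 2 (t : UnitAddCircle) = 0 := by
  refine ⟨?_, ?_, ?_⟩
  · rw [hatC_coe, hat_val (b := t) 0 h0 (by linarith) (by simp) rfl, hat_lt h1.le h0]
  · rw [hatC_coe, hat_val (b := t + 2 / 3) (-1) (by linarith) (by linarith)
      (by push_cast; simp; ring) rfl, hat_gt (by linarith) (by linarith)]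
    ring
  · rw [hatC_coe, hat_val (b := t + 1 / 3) (-1) (by linarith) (by linarith)
      (by push_cast; simp; ring) rfl, hat_mid (by linarith) (by linarith)]

theorem hatC_two {t : ℝ} (h0 : 1 / 3 ≤ t) (h1 : t < 2 / 3) : hatC 0 (t : UnitAddCircle) = 0 ∧
    hatC 1 (t : UnitAddCircle) = 2 - 3 * t ∧ hatC 2 (t : UnitAddCircle) = 3 * t - 1 := by
  refine ⟨?_, ?_, ?_⟩
  · rw [hatC_coe, hat_val (b := t) 0 (by linarith) (by linarith) (by simp) rfl,
      hat_mid h0 h1.le]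
  · rw [hatC_coe, hat_val (b := t - 1 / 3) 0 (by linarith) (by linarith)
      (by push_cast; simp) rfl, hat_lt (by linarith) (by linarith)]
    ring
  · rw [hatC_coe, hat_val (b := t + 1 / 3) (-1) (by linarith) (by linarith)
      (by push_cast; simp; ring) rfl, hat_gt (by linarith) (by linarith)]
    ring

theorem hatC_three {t : ℝ} (h0 : 2 / 3 ≤ t) (h1 : t < 1) :
    hatC 0 (t : UnitAddCircle) = 3 * t - 2 ∧
    hatC 1 (t : UnitAddCircle) = 0 ∧ hatC 2 (t : UnitAddCircle) = 3 - 3 * t := by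
  refine ⟨?_, ?_, ?_⟩
  · rw [hatC_coe, hat_val (b := t) 0 (by linarith) (by linarith) (by simp) rfl,
      hat_gt h0 h1.le]
    ring
  · rw [hatC_coe, hat_val (b := t - 1 / 3) 0 (by linarith) (by linarith)
      (by push_cast; simp) rfl, hat_mid (by linarith) (by linarith)]
  · rw [hatC_coe, hat_val (b := t - 2 / 3) 0 (by linarith) (by linarith)
      (by push_cast; simp) rfl, hat_lt (by linarith) (by linarith)]
    ring

theorem exists_coe (x : UnitAddCircle) : ∃ t : ℝ, 0 ≤ t ∧ t < 1 ∧ (t : UnitAddCircle) = x := by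
  obtain ⟨t, ht, h⟩ : x ∈ ((↑) : ℝ → UnitAddCircle) '' Ico 0 1 := by
    have := AddCircle.coe_image_Ico_eq (p := (1 : ℝ)) 0
    rw [zero_add] at this
    rw [this]
    trivial
  exact ⟨t, ht.1, ht.2, h⟩

theorem hatC_cases (x : UnitAddCircle) : ∃ t : ℝ, (t : UnitAddCircle) = x ∧
    ((0 ≤ t ∧ t < 1 / 3 ∧ hatC 0 x = 1 - 3 * t ∧ hatC 1 x = 3 * t ∧ hatC 2 x = 0) ∨
    (1 / 3 ≤ t ∧ t < 2 / 3 ∧ hatC 0 x = 0 ∧ hatC 1 x = 2 - 3 * t ∧ hatC 2 x = 3 * t - 1) ∨
    (2 / 3 ≤ t ∧ t < 1 ∧ hatC 0 x = 3 * t - 2 ∧ hatC 1 x = 0 ∧ hatC 2 x = 3 - 3 * t)) := by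
  obtain ⟨t, h0, h1, rfl⟩ := exists_coe x
  refine ⟨t, rfl, ?_⟩
  rcases lt_or_ge t (1 / 3) with h | h
  · exact Or.inl ⟨h0, h, hatC_one h0 h⟩
  · rcases lt_or_ge t (2 / 3) with h' | h'
    · exact Or.inr (Or.inl ⟨h, h', hatC_two h h'⟩)
    · exact Or.inr (Or.inr ⟨h', h1, hatC_three h' h1⟩)

theorem hatC_inj {x y : UnitAddCircle} (h : ∀ i, hatC i x = hatC i y) : x = y := by
  obtain ⟨t, ht, H⟩ := hatC_cases x
  obtain ⟨s, hs, H'⟩ := hatC_cases y
  have a0 := h 0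
  have a1 := h 1
  have a2 := h 2
  have : t = s := by
    rcases H with ⟨b1, b2, b3, b4, b5⟩ | ⟨b1, b2, b3, b4, b5⟩ | ⟨b1, b2, b3, b4, b5⟩ <;>
    rcases H' with ⟨c1, c2, c3, c4, c5⟩ | ⟨c1, c2, c3, c4, c5⟩ | ⟨c1, c2, c3, c4, c5⟩ <;>
    linarith
  rw [← ht, ← hs, this]

theorem baryC {X : Type} [TopologicalSpace X] (q : X → UnitAddCircle) (hq : Continuous q) :
    TP.Bary X (Fin 3) 1 fun i x => hatC i (q x) := by
  refine ⟨fun i => ?_, fun i x => le_max_left _ _, locallyFinite_of_finite _, fun x => ?_,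
    fun x => ?_⟩
  · unfold hatC
    fun_prop
  · rw [finsum_eq_sum_of_fintype, Fin.sum_univ_three]
    obtain ⟨t, -, H⟩ := hatC_cases (q x)
    rcases H with ⟨-, -, b3, b4, b5⟩ | ⟨-, -, b3, b4, b5⟩ | ⟨-, -, b3, b4, b5⟩ <;>
    linarith
  · obtain ⟨t, -, H⟩ := hatC_cases (q x)
    obtain ⟨j, hj⟩ : ∃ j : Fin 3, hatC j (q x) = 0 := by
      rcases H with ⟨-, -, b3, b4, b5⟩ | ⟨-, -, b3, b4, b5⟩ | ⟨-, -, b3, b4, b5⟩
      exacts [⟨2, b5⟩, ⟨0, b3⟩, ⟨1, b4⟩]
    have h1 : {i : Fin 3 | hatC i (q x) ≠ 0} ⊆ ({j}ᶜ : Set (Fin 3)) := by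
      intro i hi hij
      rw [mem_singleton_iff] at hij
      exact hi (hij ▸ hj)
    refine (Set.ncard_le_ncard h1 (Set.toFinite _)).trans ?_
    have := Set.ncard_add_ncard_compl ({j} : Set (Fin 3))
    rw [Set.ncard_singleton, Nat.card_eq_fintype_card, Fintype.card_fin] at this
    omega

theorem bary0 (X : Type) [TopologicalSpace X] : TP.Bary X Unit 0 fun _ _ => 1 := by
  refine ⟨fun i => continuous_const, fun i x => zero_le_one, locallyFinite_of_finite _,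
    fun x => ?_, fun x => ?_⟩
  · rw [finsum_eq_sum_of_fintype]
    simp
  · refine (Set.ncard_le_ncard (Set.subset_univ _) (Set.toFinite _)).trans ?_
    rw [Set.ncard_univ]
    simp

theorem bary_torus (hP : Stmt.PRODB) {X : Type} [TopologicalSpace X] (k : ℕ)
    (q : X → Fin k → UnitAddCircle) (hq : Continuous q) :
    ∃ (W : Type) (mu : W → X → ℝ), TP.Bary X W k mu ∧
      ∀ x y, (∀ v, mu v x = mu v y) → q x = q y := by
  induction k with
  | zero => exact ⟨Unit, _, bary0 X, fun x y _ => Subsingleton.elim _ _⟩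
  | succ k ih =>
    have hc : ∀ i, Continuous fun x => q x i := fun i => (continuous_apply i).comp hq
    obtain ⟨W, mu, hmu, h⟩ := ih (fun x i => q x i.castSucc) (continuous_pi fun i => hc _)
    obtain ⟨nu, hnu, h'⟩ := hP.1 X W (Fin 3) k 1 mu _ hmu (baryC (fun x => q x (Fin.last k)) (hc _))
    refine ⟨_, nu, hnu, fun x y hxy => ?_⟩
    obtain ⟨h1, h2⟩ := h' x y hxy
    have h3 := h x y h1
    have h4 := hatC_inj h2
    funext i
    refine Fin.lastCases h4 (fun i => ?_) i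
    exact congrFun h3 i

end Vale.Agent.P210.R2.H53
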