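import Vale.Agent.P210.R2.H53.TSpec
import Vale.Agent.P210.R2.H53.Torus
import Vale.Agent.P210.R2.H912.Fin

open scoped Manifold ContDiff Topology Bundle ENNReal NNReal
open Set Metric Filter Bundle IsManifold MeasureTheory Manifold Asymptotics

set_option maxSynthPendingDepth 3

noncomputable section

namespace Vale.Agent.P210.R2.H53

theorem RicGE.mono {E : Type} [NormedAddCommGroup E] [NormedSpace ℝ E] {M : Type}
    [MetricSpace M] [ChartedSpace E M] [RiemannianBundle (fun x : M => TangentSpace 𝓘(ℝ, E) x)]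
    [IsManifold 𝓘(ℝ, E) ∞ M] {κ κ' : ℝ} (h : κ' ≤ κ) (hR : RicGE E M κ) : RicGE E M κ' := by
  intro e he z hz
  obtain ⟨Γ, hΓ, H⟩ := hR e he z hz
  refine ⟨Γ, hΓ, fun b hb v => le_trans ?_ (H b hb v)⟩
  have h0 : 0 ≤ chartMetric e z v v := real_inner_self_nonneg
  exact mul_le_mul_of_nonneg_right h h0

/-- uniform choice of the constants for finitely many `n` -/
theorem exists_unif (P : ℕ → ℝ → ℝ → Prop)
    (hmono : ∀ n δ δ' C C', 0 < δ' → δ' ≤ δ → C ≤ C' → P n δ C → P n δ' C')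
    (h : ∀ n, ∃ δ > 0, ∃ C : ℝ, P n δ C) (m : ℕ) : ∃ δ > 0, ∃ C : ℝ, ∀ n ≤ m, P n δ C := by
  induction m with
  | zero =>
    obtain ⟨δ, hδ, C, hP⟩ := h 0
    refine ⟨δ, hδ, C, fun n hn => ?_⟩
    obtain rfl : n = 0 := by omega
    exact hP
  | succ m ih =>
    obtain ⟨δ, hδ, C, hP⟩ := ih
    obtain ⟨δ', hδ', C', hP'⟩ := h (m + 1)
    refine ⟨min δ δ', lt_min hδ hδ', max C C', fun n hn => ?_⟩
    rcases Nat.lt_or_ge n (m + 1) with h1 | h1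
    · exact hmono n δ _ C _ (lt_min hδ hδ') (min_le_left _ _) (le_max_left _ _) (hP n (by omega))
    · obtain rfl : n = m + 1 := by omega
      exact hmono _ δ' _ C' _ (lt_min hδ hδ') (min_le_right _ _) (le_max_right _ _) hP'

/-- the theorem on twisted products, fibres in a complex or in a torus -/
def Stmt.FINALT2 : Prop := ∀ m : ℕ, 3 ≤ m → ∀ Λ > 0, ∃ δ > 0, ∃ C : ℝ, ∀ n k : ℕ, 3 ≤ n →
  n + k = m → Stmt.ForT fun E _ _ _ V _ _ _ N _ _ _ _ _ _ F _ _ _ M _ _ _ _ _ _ w Φ =>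
  Module.finrank ℝ E = n → Module.finrank ℝ V = k → CompleteSpace M →
  (∀ x, Λ⁻¹ ≤ w x ∧ w x ≤ Λ) →
  (EmbedsLE F k ∨ ∃ g : F → Fin k → UnitAddCircle, Continuous g ∧ Function.Injective g) →
  RicGE E N (-δ) → ScalGE (E × V) M 1 →
  (k ≤ 1 ∨ ∃ y : F, ∀ x : N,
    ScalLEAt (fibreMetric Φ x (chartAt V y)) (chartAt V y y) (1 / 2)) →
  UrysohnWidthLE M (m - 2) C

theorem finalt (hVOL : Stmt.VOL) (hF : Stmt.FINALS) (hS : Stmt.SPECF) (hT : Stmt.TWIST)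
    (hSL : Stmt.SLICE) (hP : Stmt.PRODB) : Stmt.FINALT2 := by
  classical
  intro m hm Λ hΛ
  have hc : 0 < (2 * Λ)⁻¹ := by positivity
  obtain ⟨δ, hδ, C, H⟩ := exists_unif
    (fun n δ C => 3 ≤ n → Stmt.ForR fun E _ _ _ _ _ M _ _ _ _ _ _ _ _ _ =>
      Module.finrank ℝ E = n → ∀ μ : Measure M, IsVol E μ → RicGE E M (-δ) →
      PropS 8 (2 * Λ)⁻¹ E M μ → BW M (n - 2) C)
    (by
      intro n δ δ' C C' hδ' hδ hC h h3 E _ _ _ _ _ M _ _ _ _ _ _ _ _ _ h1 hn μ hμ hR hQ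
      obtain ⟨V, lam, hB, hd⟩ := h h3 E M h1 hn μ hμ (hR.mono (by linarith)) hQ
      exact ⟨V, lam, hB, fun x y hxy => (hd x y hxy).trans hC⟩)
    (fun n => by
      by_cases h3 : 3 ≤ n
      · obtain ⟨δ, hδ, C, h⟩ := hF n h3 8 (by norm_num) (2 * Λ)⁻¹ hc
        exact ⟨δ, hδ, C, fun _ => h⟩
      · exact ⟨1, one_pos, 0, fun h => absurd h h3⟩) m
  refine ⟨δ, hδ, √Λ * C, ?_⟩
  intro n k hn hnk E _ _ _ V _ _ _ N _ _ _ _ _ _ F _ _ _ M _ _ _ _ _ _ w Φ hw hw0 hΦ hdE hdV hcM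
    hwΛ hemb hRic hScal hfib
  rcases isEmpty_or_nonempty M with hM | hM
  · exact H912.urysohn_of_isEmpty _ _
  obtain ⟨p₀⟩ := hM
  haveI : Nonempty F := ⟨(Φ p₀).2⟩
  have hsq : ∀ x, w x ≤ √Λ ^ 2 := fun x => by
    rw [Real.sq_sqrt hΛ.le]
    exact (hwΛ x).2
  obtain ⟨hsl1, hsl2⟩ := hSL E V N F M w Φ hw hw0 hΦ
  haveI : CompleteSpace N := hsl2 √Λ (Real.sqrt_nonneg _) hsq hcM inferInstance
  haveI : ProperSpace N := properSpace_riemannian E N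
  letI : MeasurableSpace E := borel E
  haveI : BorelSpace E := ⟨rfl⟩
  letI : MeasurableSpace N := borel N
  haveI : BorelSpace N := ⟨rfl⟩
  have h1 : 1 ≤ Module.finrank ℝ E := by omega
  obtain ⟨μ, hμ⟩ := hVOL E N h1
  -- the point of `F`
  obtain ⟨y, hy⟩ : ∃ y : F, (Module.finrank ℝ V ≤ 1 ∨
      ∀ x : N, ScalLEAt (fibreMetric Φ x (chartAt V y)) (chartAt V y y) (1 / 2)) := by
    rcases hfib with h | ⟨y, hy⟩
    · exact ⟨(Φ p₀).2, Or.inl (by omega)⟩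
    · exact ⟨y, Or.inr hy⟩
  obtain ⟨φ, hφ, hSc⟩ := hT E V N F M w Φ hw hw0 hΦ h1 hScal y hy
  have hlog : ContMDiff 𝓘(ℝ, E) 𝓘(ℝ, ℝ) ∞ fun x => Real.log (w x) / 2 := by
    have h2 : ContMDiff 𝓘(ℝ, E) 𝓘(ℝ, ℝ) ∞ fun x => Real.log (w x) := fun x =>
      ((Real.contDiffAt_log.2 (hw0 x).ne').contMDiffAt).comp x (hw x)
    exact (h2.div_const 2)
  have hcb : ∀ p, (2 * Λ)⁻¹ ≤ w p / 2 := fun p => by
    rw [mul_inv]
    linarith [(hwΛ p).1]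
  obtain ⟨hcont, hspec⟩ := hS n hn E N h1 μ hμ (2 * Λ)⁻¹ (fun x => w x / 2)
    (fun x => Real.log (w x) / 2) φ (hw.continuous.div_const 2) hcb hlog hφ
  rw [hdE] at hSc
  obtain ⟨V₁, lam, hB, hd⟩ := H n (by omega) hn E N h1 hdE μ hμ hRic ⟨_, hcont, hSc, hspec⟩
  -- pull back to `M`
  have hπ : Continuous fun p : M => (Φ p).1 := continuous_fst.comp Φ.continuous
  have hq : Continuous fun p : M => (Φ p).2 := continuous_snd.comp Φ.continuous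
  have hB' : TP.Bary M V₁ (n - 2) fun v p => lam v (Φ p).1 :=
    ⟨fun v => (hB.cont v).comp hπ, fun v x => hB.nonneg v _, hB.fin.preimage_continuous hπ,
      fun x => hB.sum _, fun x => hB.card _⟩
  haveI : LocallyCompactSpace M := Manifold.locallyCompact_of_finiteDimensional 𝓘(ℝ, E × V)
  obtain ⟨W, mu, hmu, hmu'⟩ : ∃ (W : Type) (mu : W → M → ℝ), TP.Bary M W k mu ∧
      ∀ x y, (∀ v, mu v x = mu v y) → (Φ x).2 = (Φ y).2 := by
    rcases hemb with hemb | ⟨g, hg, hgi⟩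
    · exact hP.2 M F k _ hq hemb
    · obtain ⟨W, mu, hmu, h⟩ := bary_torus hP k (fun p : M => g (Φ p).2) (hg.comp hq)
      exact ⟨W, mu, hmu, fun x y hxy => hgi (h x y hxy)⟩
  obtain ⟨nu, hnu, hnu'⟩ := hP.1 M V₁ W (n - 2) k _ mu hB' hmu
  have hnm : n - 2 + k = m - 2 := by omega
  rw [← hnm]
  refine H912.urysohn_of_bary ⟨_, nu, hnu, fun x y hxy => ?_⟩
  obtain ⟨h5, h6⟩ := hnu' x y hxy
  have h7 := hmu' x y h6
  have h8 := hd _ _ h5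
  have h9 := hsl1 √Λ (Real.sqrt_nonneg _) hsq (Φ x).1 (Φ y).1 (Φ x).2
  have e1 : Φ.symm ((Φ x).1, (Φ x).2) = x := Φ.symm_apply_apply x
  have e2 : Φ.symm ((Φ y).1, (Φ x).2) = y := by
    rw [h7]
    exact Φ.symm_apply_apply y
  rw [e1, e2] at h9
  exact h9.trans (mul_le_mul_of_nonneg_left h8 (Real.sqrt_nonneg _))

end Vale.Agent.P210.R2.H53
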