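import Vale.Agent.P210.R2.H912.AllR
import Vale.Agent.P210.R2.H912.FinS
import Vale.Agent.P210.R2.H912.ProdC
import Vale.Agent.P210.R2.H34.DensC
import Vale.Agent.P210.R2.H973.SFin
import Vale.Agent.P210.R2.H265.Slc
import Vale.Agent.P210.R2.H265.Tws
import Vale.Agent.P210.R2.H53.Spf
import Vale.Agent.P210.R2.H53.Ends
import Vale.Agent.P210.R2.H53.TFin

/-! # P210, assembly of the theorem on twisted products -/

namespace Vale.Agent.P210.R2.H53

open H912

theorem abs' : H401.Stmt.ABS :=
  H401.abs_of (H401.step H285.cover H34.DC.dens H597.pairC (H475.bad H285.cover H401.vit)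
    H635.flat H635.pig H635.lim) H285.cover H34.DC.dens H635.lim

theorem scxs' : Stmt.SCXS := H973.scxs H934.cala H34.calb H34.cald

theorem specf' : Stmt.SPECF := specf H934.cala H34.calb H755.calc_holds H34.cald

theorem ends' : Stmt.ENDS :=
  ends H934.cala H34.calb H755.calc_holds H34.cald bg' an' scxs'

theorem finals' : Stmt.FINALS :=
  H912.finals H934.cala H34.calb bg' mass' coni' slope' ends' abs'

theorem finalt2 : Stmt.FINALT2 :=
  finalt H999.vol finals' specf' H265.twist H265.slice H912.prodb

end Vale.Agent.P210.R2.H53
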