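import Vale.Agent.P210.R2.H53.Defs
import Mathlib.Geometry.Manifold.Diffeomorph

open scoped Manifold ContDiff Topology
open Bundle IsManifold

set_option maxSynthPendingDepth 3

noncomputable section

namespace Vale.Agent.P210.R2.H53

section Fibre

variable {V : Type*} [NormedAddCommGroup V] [NormedSpace ℝ V]

/-- The scalar curvature at `z` of the Riemannian metric `G` on an open subset of `V` is at most
`σ`. -/
def ScalLEAt (G : V → V → V → ℝ) (z : V) (σ : ℝ) : Prop :=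
  ∃ (Γ : V → V → V) (b : Module.Basis (Fin (Module.finrank ℝ V)) ℝ V),
    (∀ u v w : V, 2 * G z (Γ u v) w = fderiv ℝ (fun y => G y v w) z u
      + fderiv ℝ (fun y => G y u w) z v - fderiv ℝ (fun y => G y u v) z w) ∧
    (∀ i j, G z (b i) (b j) = if i = j then 1 else 0) ∧
    ∑ i, ∑ j, (-(fderiv ℝ (fun y => fderiv ℝ (fun x => G x (b j) (b j)) y (b i)) z (b i)
        + fderiv ℝ (fun y => fderiv ℝ (fun x => G x (b i) (b i)) y (b j)) z (b j)
        - 2 * fderiv ℝ (fun y => fderiv ℝ (fun x => G x (b i) (b j)) y (b i)) z (b j)) / 2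
      + G z (Γ (b i) (b j)) (Γ (b i) (b j)) - G z (Γ (b i) (b i)) (Γ (b j) (b j))) ≤ σ

end Fibre

section Twist

variable {E : Type} [NormedAddCommGroup E] [NormedSpace ℝ E]
  {V : Type} [NormedAddCommGroup V] [NormedSpace ℝ V]
  {N : Type} [MetricSpace N] [ChartedSpace E N]
  [RiemannianBundle (fun x : N => TangentSpace 𝓘(ℝ, E) x)]
  {F : Type} [TopologicalSpace F] [ChartedSpace V F]
  {M : Type} [MetricSpace M] [ChartedSpace (E × V) M]
  [RiemannianBundle (fun x : M => TangentSpace 𝓘(ℝ, E × V) x)]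

/-- `M` is `N × F` (by the diffeomorphism `Φ`) and its metric is `w h + k`, with `h` the metric of
`N` and `k` a family of metrics on `F` that may depend on both variables. -/
def IsTwisted (w : N → ℝ)
    (Φ : Diffeomorph 𝓘(ℝ, E × V) (𝓘(ℝ, E).prod 𝓘(ℝ, V)) M (N × F) ∞) : Prop :=
  ∀ (p : M) (v v' : TangentSpace 𝓘(ℝ, E × V) p),
    mfderiv 𝓘(ℝ, E × V) 𝓘(ℝ, V) (fun q => (Φ q).2) p v = 0 →
    inner ℝ v v' = w (Φ p).1 *
      inner ℝ (mfderiv 𝓘(ℝ, E × V) 𝓘(ℝ, E) (fun q => (Φ q).1) p v :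
          TangentSpace 𝓘(ℝ, E) (Φ p).1)
        (mfderiv 𝓘(ℝ, E × V) 𝓘(ℝ, E) (fun q => (Φ q).1) p v' :
          TangentSpace 𝓘(ℝ, E) (Φ p).1)

/-- The metric induced by `M` on the fibre over `x`, in the chart `e` of `F`. -/
def fibreMetric (Φ : Diffeomorph 𝓘(ℝ, E × V) (𝓘(ℝ, E).prod 𝓘(ℝ, V)) M (N × F) ∞) (x : N)
    (e : OpenPartialHomeomorph F V) (z v v' : V) : ℝ :=
  inner ℝ (mfderiv 𝓘(ℝ, V) 𝓘(ℝ, E × V) (fun y => Φ.symm (x, e.symm y)) z v :
      TangentSpace 𝓘(ℝ, E × V) (Φ.symm (x, e.symm z)))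
    (mfderiv 𝓘(ℝ, V) 𝓘(ℝ, E × V) (fun y => Φ.symm (x, e.symm y)) z v' :
      TangentSpace 𝓘(ℝ, E × V) (Φ.symm (x, e.symm z)))

end Twist

/-- Some continuous map of `X` to a simplicial complex of dimension at most `d` is injective. -/
def EmbedsLE (X : Type*) [TopologicalSpace X] (d : ℕ) : Prop :=
  ∃ (V : Type) (K : PreAbstractSimplicialComplex V) (f : X → Realization K),
    (∀ s ∈ K.faces, s.card ≤ d + 1) ∧ Continuous f ∧ Function.Injective f

end Vale.Agent.P210.R2.H53
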