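import Vale.Agent.P210.R2.H53.TDefs

open scoped Manifold ContDiff Topology
open Bundle IsManifold

set_option maxSynthPendingDepth 3

noncomputable section

namespace Vale.Agent.P210.R2.H53

section Riem

variable (E : Type) [NormedAddCommGroup E] [NormedSpace ℝ E]

/-- The metric of `M` is smooth and the distance of `M` is the Riemannian distance. -/
def IsRiem (M : Type) [MetricSpace M] [ChartedSpace E M]
    [RiemannianBundle (fun x : M => TangentSpace 𝓘(ℝ, E) x)] [IsManifold 𝓘(ℝ, E) ∞ M] : Prop :=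
  IsContMDiffRiemannianBundle 𝓘(ℝ, E) ∞ E (fun x : M => TangentSpace 𝓘(ℝ, E) x) ∧
    IsRiemannianManifold 𝓘(ℝ, E) M

/-- The pull-back by `ψ` of the metric of `M`: the inner product of `dψ_z v` and `dψ_z v'`. -/
def pullMetric {H M : Type} [NormedAddCommGroup H] [NormedSpace ℝ H] [MetricSpace M]
    [ChartedSpace E M] [RiemannianBundle (fun x : M => TangentSpace 𝓘(ℝ, E) x)] (ψ : H → M)
    (z v v' : H) : ℝ :=
  inner ℝ (mfderiv 𝓘(ℝ, H) 𝓘(ℝ, E) ψ z v : TangentSpace 𝓘(ℝ, E) (ψ z))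
    (mfderiv 𝓘(ℝ, H) 𝓘(ℝ, E) ψ z v' : TangentSpace 𝓘(ℝ, E) (ψ z))

end Riem

section Twist

variable (E : Type) [NormedAddCommGroup E] [NormedSpace ℝ E]
  (V : Type) [NormedAddCommGroup V] [NormedSpace ℝ V]
  {N : Type} [MetricSpace N] [ChartedSpace E N]
  {F : Type} [TopologicalSpace F] [ChartedSpace V F]
  {M : Type} [MetricSpace M] [ChartedSpace (E × V) M]

/-- `Ψ` is a diffeomorphism of `N × F` onto `M`. -/
def IsProductDiffeo (Ψ : N × F → M) : Prop :=
  ∃ Φ : Diffeomorph (𝓘(ℝ, E).prod 𝓘(ℝ, V)) 𝓘(ℝ, E × V) (N × F) M ∞, ⇑Φ = Ψ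

variable [RiemannianBundle (fun x : N => TangentSpace 𝓘(ℝ, E) x)]
  [RiemannianBundle (fun x : M => TangentSpace 𝓘(ℝ, E × V) x)]

/-- In the parametrization `Ψ` of `M` by `N × F` and the charts of `N` and `F` the metric of `M`
has the blocks `w h` and `0`, with `h` the metric of `N`; the block of `F` is arbitrary. -/
def IsTwistedProduct (w : N → ℝ) (Ψ : N × F → M) : Prop :=
  ∀ e ∈ atlas E N, ∀ f ∈ atlas V F, ∀ z ∈ e.target, ∀ y ∈ f.target, ∀ (v : E) (v' : E × V),
    pullMetric (E × V) (fun q : E × V => Ψ (e.symm q.1, f.symm q.2)) (z, y) (v, 0) v' =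
      w (e.symm z) * chartMetric e z v v'.1

end Twist

end Vale.Agent.P210.R2.H53
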