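import Vale.Agent.P210.R2.H53.TwDefs
import Vale.Agent.P210.R2.H53.TAll

open scoped Manifold ContDiff Topology
open Bundle IsManifold

set_option maxSynthPendingDepth 3

noncomputable section

namespace Vale.Agent.P210.R2.H53

open H265

theorem symm_inj {H : Type} [NormedAddCommGroup H] [NormedSpace ℝ H] {X : Type}
    [TopologicalSpace X] [ChartedSpace H X] [IsManifold 𝓘(ℝ, H) ∞ X]
    {e : OpenPartialHomeomorph X H} (he : e ∈ maximalAtlas 𝓘(ℝ, H) ∞ X) {z : H}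
    (hz : z ∈ e.target) (v w : H)
    (h0 : (mfderiv 𝓘(ℝ, H) 𝓘(ℝ, H) e.symm z v : H) = mfderiv 𝓘(ℝ, H) 𝓘(ℝ, H) e.symm z w) :
    v = w := by
  have hm : e.MDifferentiable 𝓘(ℝ, H) 𝓘(ℝ, H) :=
    ⟨(contMDiffOn_of_mem_maximalAtlas he).mdifferentiableOn (by simp),
      (contMDiffOn_symm_of_mem_maximalAtlas he).mdifferentiableOn (by simp)⟩
  have h := hm.comp_symm_deriv hz
  have := congrArg (fun T => T v) h
  have h2 := congrArg (fun T => T w) h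
  refine Eq.trans this.symm (Eq.trans ?_ h2)
  exact congrArg (mfderiv 𝓘(ℝ, H) 𝓘(ℝ, H) e (e.symm z)) h0

variable {E : Type} [NormedAddCommGroup E] [NormedSpace ℝ E] [FiniteDimensional ℝ E]
  {V : Type} [NormedAddCommGroup V] [NormedSpace ℝ V] [FiniteDimensional ℝ V]
  {N : Type} [MetricSpace N] [ChartedSpace E N]
  [RiemannianBundle (fun x : N => TangentSpace 𝓘(ℝ, E) x)] [IsManifold 𝓘(ℝ, E) ∞ N]
  {F : Type} [TopologicalSpace F] [ChartedSpace V F] [IsManifold 𝓘(ℝ, V) ∞ F]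
  {M : Type} [MetricSpace M] [ChartedSpace (E × V) M]
  [RiemannianBundle (fun x : M => TangentSpace 𝓘(ℝ, E × V) x)] [IsManifold 𝓘(ℝ, E × V) ∞ M]
  {Φ : Diffeomorph 𝓘(ℝ, E × V) (𝓘(ℝ, E).prod 𝓘(ℝ, V)) M (N × F) ∞}
  {e : OpenPartialHomeomorph N E} {f : OpenPartialHomeomorph F V}

theorem pch_d2' (he : e ∈ maximalAtlas 𝓘(ℝ, E) ∞ N)
    (hf : f ∈ maximalAtlas 𝓘(ℝ, V) ∞ F) {z : E × V} (hz : z ∈ e.target ×ˢ f.target) (v : E × V) :
    (mfderiv 𝓘(ℝ, E × V) 𝓘(ℝ, V) (fun q => (Φ q).2) ((pch Φ e f).symm z)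
      (mfderiv 𝓘(ℝ, E × V) 𝓘(ℝ, E × V) (pch Φ e f).symm z v) : V) =
      mfderiv 𝓘(ℝ, V) 𝓘(ℝ, V) f.symm z.2 v.2 := by
  have hz' : z ∈ (pch Φ e f).target := by rw [pch_target]; exact hz
  have hD : MDifferentiableAt 𝓘(ℝ, E × V) 𝓘(ℝ, E × V) (pch Φ e f).symm z :=
    ((contMDiffOn_symm_of_mem_maximalAtlas (pch_mem (Φ := Φ) he hf)).contMDiffAt
      ((pch Φ e f).open_target.mem_nhds hz')).mdifferentiableAt (by simp)
  have hΦ2 : MDifferentiableAt 𝓘(ℝ, E × V) 𝓘(ℝ, V) (fun q => (Φ q).2) ((pch Φ e f).symm z) :=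
    ((Φ.contMDiff.snd) _).mdifferentiableAt (by simp)
  have k := mfderiv_comp z hΦ2 hD
  have hsnd : MDifferentiableAt 𝓘(ℝ, E × V) 𝓘(ℝ, V) (Prod.snd : E × V → V) z :=
    differentiableAt_snd.mdifferentiableAt
  have hfs : MDifferentiableAt 𝓘(ℝ, V) 𝓘(ℝ, V) f.symm z.2 :=
    ((contMDiffOn_symm_of_mem_maximalAtlas hf).contMDiffAt
      (f.open_target.mem_nhds hz.2)).mdifferentiableAt (by simp)
  have k2 := mfderiv_comp z hfs hsnd
  have k3 : ((fun q => (Φ q).2) ∘ (pch Φ e f).symm) = (f.symm ∘ Prod.snd) := by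
    funext y
    simp [pch_symm]
  have k4 := congrArg (fun T => T v) k
  have k5 := congrArg (fun T => T v) k2
  refine Eq.trans k4.symm ?_
  rw [k3]
  refine Eq.trans k5 ?_
  rw [mfderiv_eq_fderiv (f := (Prod.snd : E × V → V))]
  rw [fderiv_snd]
  rfl

theorem isTwisted_of_isTwistedProduct {w : N → ℝ} (h : IsTwistedProduct E V w Φ.symm) : IsTwisted w Φ := by
  have aux : ∀ e ∈ atlas E N, ∀ f ∈ atlas V F, ∀ z ∈ e.target ×ˢ f.target,
      ∀ p : M, (pch Φ e f).symm z = p → ∀ v v' : TangentSpace 𝓘(ℝ, E × V) p,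
      mfderiv 𝓘(ℝ, E × V) 𝓘(ℝ, V) (fun q => (Φ q).2) p v = 0 →
      inner ℝ v v' = w (Φ p).1 *
      inner ℝ (mfderiv 𝓘(ℝ, E × V) 𝓘(ℝ, E) (fun q => (Φ q).1) p v :
          TangentSpace 𝓘(ℝ, E) (Φ p).1)
        (mfderiv 𝓘(ℝ, E × V) 𝓘(ℝ, E) (fun q => (Φ q).1) p v' :
          TangentSpace 𝓘(ℝ, E) (Φ p).1) := by
    rintro e he f hf z hz p rfl v v' hv
    have he' : e ∈ maximalAtlas 𝓘(ℝ, E) ∞ N := subset_maximalAtlas he
    have hf' : f ∈ maximalAtlas 𝓘(ℝ, V) ∞ F := subset_maximalAtlas hf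
    have hz' : z ∈ (pch Φ e f).target := by rw [pch_target]; exact hz
    have hsurj : ∀ v : E × V, ∃ u : E × V,
        (mfderiv 𝓘(ℝ, E × V) 𝓘(ℝ, E × V) (pch Φ e f).symm z u : E × V) = v := by
      set D : E × V →L[ℝ] E × V := mfderiv 𝓘(ℝ, E × V) 𝓘(ℝ, E × V) (pch Φ e f).symm z
      exact (LinearMap.injective_iff_surjective (f := (D : E × V →ₗ[ℝ] E × V))).1
        fun a b hab => symm_inj (pch_mem (Φ := Φ) he' hf') hz' a b hab
    obtain ⟨u, hu⟩ := hsurj v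
    obtain ⟨u', hu'⟩ := hsurj v'
    subst hu
    subst hu'
    have h2 : u.2 = 0 := by
      have h3 := (pch_d2' (Φ := Φ) he' hf' hz u).symm.trans hv
      exact symm_inj hf' hz.2 _ _ (h3.trans (map_zero (mfderiv 𝓘(ℝ, V) 𝓘(ℝ, V) f.symm z.2)).symm)
    have h4 := h e he f hf z.1 hz.1 z.2 hz.2 u.1 u'
    have h5 : (u.1, (0 : V)) = u := by rw [← h2]
    rw [h5] at h4
    have hx : (Φ ((pch Φ e f).symm z)).1 = e.symm z.1 := by rw [pch_symm]; simp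
    have key : ∀ x : N, x = e.symm z.1 → ∀ a a' : E,
        a = mfderiv 𝓘(ℝ, E) 𝓘(ℝ, E) e.symm z.1 u.1 →
        a' = mfderiv 𝓘(ℝ, E) 𝓘(ℝ, E) e.symm z.1 u'.1 →
        innerAt (E := E × V) ((pch Φ e f).symm z)
          (mfderiv 𝓘(ℝ, E × V) 𝓘(ℝ, E × V) (pch Φ e f).symm z u)
          (mfderiv 𝓘(ℝ, E × V) 𝓘(ℝ, E × V) (pch Φ e f).symm z u') =
        w x * innerAt (E := E) x a a' := by
      rintro x rfl a a' rfl rfl
      exact h4
    exact key _ hx _ _ (pch_d1 he' hf' hz u) (pch_d1 he' hf' hz u')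
  intro p v v' hv
  refine aux (chartAt E (Φ p).1) (chart_mem_atlas _ _) (chartAt V (Φ p).2) (chart_mem_atlas _ _)
    (pch Φ (chartAt E (Φ p).1) (chartAt V (Φ p).2) p) ?_ p ?_ v v' hv
  · rw [pch_apply]
    exact ⟨(chartAt E (Φ p).1).map_source (mem_chart_source _ _),
      (chartAt V (Φ p).2).map_source (mem_chart_source _ _)⟩
  · refine (pch Φ (chartAt E (Φ p).1) (chartAt V (Φ p).2)).left_inv ?_
    rw [pch_source]
    exact ⟨mem_chart_source _ _, mem_chart_source _ _⟩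

end Vale.Agent.P210.R2.H53
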