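import Vale.Agent.P210.R2.H53.Pw

set_option linter.all false

open scoped ContDiff Topology
open Set Metric Filter MeasureTheory

set_option maxSynthPendingDepth 3

noncomputable section

namespace Vale.Agent.P210.R2.H53

variable {E : Type*} [NormedAddCommGroup E] [NormedSpace ℝ E] [FiniteDimensional ℝ E]
  {G : E → E →L[ℝ] E →L[ℝ] ℝ} {U : Set E} {z : E}

/-- the varied curve -/
def vc (G : E → E →L[ℝ] E →L[ℝ] ℝ) (c X : ℝ → E) (r t : ℝ) : E :=
  c t + r • X t - (r ^ 2 / 2) • chris G (c t) (X t) (X t)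

/-- the velocity of the varied curve -/
def vc' (G : E → E →L[ℝ] E →L[ℝ] ℝ) (c c' X X' : ℝ → E) (r t : ℝ) : E :=
  c' t + r • X' t - (r ^ 2 / 2) • (fderiv ℝ (chris G) (c t) (c' t) (X t) (X t)
    + (2 : ℝ) • chris G (c t) (X t) (X' t))

/-- the curve of increments -/
def hh (G : E → E →L[ℝ] E →L[ℝ] ℝ) (c c' X X' : ℝ → E) (r t : ℝ) : E × E :=
  r • (X t, X' t) + r ^ 2 • (-(1 / 2 : ℝ) • chris G (c t) (X t) (X t),
    -(1 / 2 : ℝ) • (fderiv ℝ (chris G) (c t) (c' t) (X t) (X t)
      + (2 : ℝ) • chris G (c t) (X t) (X' t)))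

omit [FiniteDimensional ℝ E] in
theorem vc_pair (c c' X X' : ℝ → E) (r t : ℝ) :
    ((vc G c X r t, vc' G c c' X X' r t) : E × E) = (c t, c' t) + hh G c c' X X' r t := by
  unfold vc vc' hh
  ext
  · simp only [Prod.fst_add, Prod.smul_fst]
    module
  · simp only [Prod.snd_add, Prod.smul_snd]
    module

namespace LocalRiem

/-- data of a curve and of a field along it -/
structure CF (U : Set E) (c c' X X' : ℝ → E) (a b : ℝ) : Prop where
  hc : ∀ t ∈ Icc a b, HasDerivWithinAt c (c' t) (Icc a b) t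
  hc' : ContinuousOn c' (Icc a b)
  hU : ∀ t ∈ Icc a b, c t ∈ U
  hX : ∀ t ∈ Icc a b, HasDerivWithinAt X (X' t) (Icc a b) t
  hX' : ContinuousOn X' (Icc a b)

theorem hasDerivWithinAt_vc (h : LocalRiem G U) {c c' X X' : ℝ → E} {a b : ℝ}
    (H : CF U c c' X X' a b) (r : ℝ) {t : ℝ} (ht : t ∈ Icc a b) :
    HasDerivWithinAt (vc G c X r) (vc' G c c' X X' r t) (Icc a b) t := by
  have h1 : HasDerivWithinAt (fun t => chris G (c t)) (fderiv ℝ (chris G) (c t) (c' t))
      (Icc a b) t := (h.hasFDerivAt_chris (H.hU t ht)).comp_hasDerivWithinAt t (H.hc t ht)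
  have h2 := (h1.clm_apply (H.hX t ht)).clm_apply (H.hX t ht)
  have h3 := ((H.hc t ht).add ((H.hX t ht).const_smul r)).sub (h2.const_smul (r ^ 2 / 2))
  refine h3.congr_deriv ?_
  unfold vc'
  rw [add_apply, h.chris_symm (H.hU t ht) (X' t) (X t)]
  module

theorem continuousOn_G (h : LocalRiem G U) {c c' X X' : ℝ → E} {a b : ℝ}
    (H : CF U c c' X X' a b) : ContinuousOn (fun t => G (c t)) (Icc a b) :=
  h.smooth.continuousOn.comp (fun t ht => (H.hc t ht).continuousWithinAt) H.hU

theorem continuousOn_chris (h : LocalRiem G U) {c c' X X' : ℝ → E} {a b : ℝ}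
    (H : CF U c c' X X' a b) : ContinuousOn (fun t => chris G (c t)) (Icc a b) :=
  h.contDiffOn_chris.continuousOn.comp (fun t ht => (H.hc t ht).continuousWithinAt) H.hU

theorem continuousOn_dchris (h : LocalRiem G U) {c c' X X' : ℝ → E} {a b : ℝ}
    (H : CF U c c' X X' a b) : ContinuousOn (fun t => fderiv ℝ (chris G) (c t)) (Icc a b) :=
  (h.contDiffOn_chris.fderiv_of_isOpen h.isOpen (m := ∞) (by simp)).continuousOn.comp
    (fun t ht => (H.hc t ht).continuousWithinAt) H.hU

theorem continuousOn_X {c c' X X' : ℝ → E} {a b : ℝ}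
    (H : CF U c c' X X' a b) : ContinuousOn X (Icc a b) :=
  fun t ht => (H.hX t ht).continuousWithinAt

theorem continuousOn_c {c c' X X' : ℝ → E} {a b : ℝ}
    (H : CF U c c' X X' a b) : ContinuousOn c (Icc a b) :=
  fun t ht => (H.hc t ht).continuousWithinAt

theorem continuousOn_A (h : LocalRiem G U) {c c' X X' : ℝ → E} {a b : ℝ}
    (H : CF U c c' X X' a b) : ContinuousOn (fun t =>
      ((-(1 / 2 : ℝ) • chris G (c t) (X t) (X t),
      -(1 / 2 : ℝ) • (fderiv ℝ (chris G) (c t) (c' t) (X t) (X t)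
      + (2 : ℝ) • chris G (c t) (X t) (X' t))) : E × E)) (Icc a b) := by
  have hX := continuousOn_X H
  have h1 := h.continuousOn_chris H
  have h2 := h.continuousOn_dchris H
  refine ContinuousOn.prodMk ?_ ?_
  · exact ((h1.clm_apply hX).clm_apply hX).const_smul _
  · exact ((((h2.clm_apply H.hc').clm_apply hX).clm_apply hX).add
      (((h1.clm_apply hX).clm_apply H.hX').const_smul _)).const_smul _

theorem continuousOn_vc' (h : LocalRiem G U) {c c' X X' : ℝ → E} {a b : ℝ}
    (H : CF U c c' X X' a b) (r : ℝ) : ContinuousOn (vc' G c c' X X' r) (Icc a b) := by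
  have hX := continuousOn_X H
  have h1 := h.continuousOn_chris H
  have h2 := h.continuousOn_dchris H
  exact (H.hc'.add (H.hX'.const_smul r)).sub (((((h2.clm_apply H.hc').clm_apply hX).clm_apply hX).add
      (((h1.clm_apply hX).clm_apply H.hX').const_smul _)).const_smul _)

theorem continuousOn_vc (h : LocalRiem G U) {c c' X X' : ℝ → E} {a b : ℝ}
    (H : CF U c c' X X' a b) (r : ℝ) : ContinuousOn (vc G c X r) (Icc a b) :=
  fun t ht => (h.hasDerivWithinAt_vc H r ht).continuousWithinAt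

/-- the compact set of velocities -/
theorem compact_vel {c c' X X' : ℝ → E} {a b : ℝ}
    (H : CF U c c' X X' a b) : IsCompact ((fun t => ((c t, c' t) : E × E)) '' Icc a b) :=
  isCompact_Icc.image_of_continuousOn ((continuousOn_c H).prodMk H.hc')

theorem vel_subset {c c' X X' : ℝ → E} {a b : ℝ}
    (H : CF U c c' X X' a b) (hu : ∀ t ∈ Icc a b, G (c t) (c' t) (c' t) = 1) :
    ((fun t => ((c t, c' t) : E × E)) '' Icc a b) ⊆ dom U := by
  rintro _ ⟨t, ht, rfl⟩
  refine ⟨H.hU t ht, ?_⟩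
  intro h0
  have := hu t ht
  simp only [mem_setOf_eq] at h0
  rw [h0] at this
  simp at this

/-- bound for the increments -/
theorem exists_bound (h : LocalRiem G U) {c c' X X' : ℝ → E} {a b : ℝ}
    (H : CF U c c' X X' a b) : ∃ C : ℝ, 1 ≤ C ∧ ∀ t ∈ Icc a b,
      ‖((X t, X' t) : E × E)‖ ≤ C ∧ ‖((-(1 / 2 : ℝ) • chris G (c t) (X t) (X t),
      -(1 / 2 : ℝ) • (fderiv ℝ (chris G) (c t) (c' t) (X t) (X t)
      + (2 : ℝ) • chris G (c t) (X t) (X' t))) : E × E)‖ ≤ C := by
  obtain ⟨C₁, hC₁⟩ := isCompact_Icc.exists_bound_of_continuousOn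
    ((continuousOn_X H).prodMk H.hX')
  obtain ⟨C₂, hC₂⟩ := isCompact_Icc.exists_bound_of_continuousOn (h.continuousOn_A H)
  refine ⟨max 1 (max C₁ C₂), le_max_left _ _, fun t ht => ⟨?_, ?_⟩⟩
  · exact (hC₁ t ht).trans ((le_max_left _ _).trans (le_max_right _ _))
  · exact (hC₂ t ht).trans ((le_max_right _ _).trans (le_max_right _ _))

theorem norm_hh_le {c c' X X' : ℝ → E} {C r t : ℝ} (hr : |r| ≤ 1)
    (h1 : ‖((X t, X' t) : E × E)‖ ≤ C) (h2 : ‖((-(1 / 2 : ℝ) • chris G (c t) (X t) (X t),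
      -(1 / 2 : ℝ) • (fderiv ℝ (chris G) (c t) (c' t) (X t) (X t)
      + (2 : ℝ) • chris G (c t) (X t) (X' t))) : E × E)‖ ≤ C) :
    ‖hh G c c' X X' r t‖ ≤ 2 * C * |r| := by
  unfold hh
  have hC : 0 ≤ C := (norm_nonneg _).trans h1
  have h3 : r ^ 2 ≤ |r| := by
    rw [← sq_abs, pow_two]
    exact mul_le_of_le_one_left (abs_nonneg _) hr
  calc _ ≤ ‖r • ((X t, X' t) : E × E)‖ + ‖r ^ 2 • ((-(1 / 2 : ℝ) • chris G (c t) (X t) (X t),
      -(1 / 2 : ℝ) • (fderiv ℝ (chris G) (c t) (c' t) (X t) (X t)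
      + (2 : ℝ) • chris G (c t) (X t) (X' t))) : E × E)‖ := norm_add_le _ _
    _ ≤ |r| * C + |r| * C := by
      rw [norm_smul, norm_smul, Real.norm_eq_abs, Real.norm_of_nonneg (sq_nonneg r)]
      gcongr
    _ = 2 * C * |r| := by ring

/-- the varied curves stay in the domain -/
theorem eventually_dom (h : LocalRiem G U) {c c' X X' : ℝ → E} {a b : ℝ}
    (H : CF U c c' X X' a b) (hu : ∀ t ∈ Icc a b, G (c t) (c' t) (c' t) = 1) :
    ∀ᶠ r in 𝓝 (0 : ℝ), ∀ t ∈ Icc a b,
      ((vc G c X r t, vc' G c c' X X' r t) : E × E) ∈ dom U := by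
  obtain ⟨C, hC1, hC⟩ := h.exists_bound H
  obtain ⟨δ, hδ, hsub⟩ := (compact_vel H).exists_cthickening_subset_open h.isOpen_dom
    (vel_subset H hu)
  have hev : ∀ᶠ r in 𝓝 (0 : ℝ), |r| < min 1 (δ / (2 * C)) := by
    have : Tendsto (fun r : ℝ => |r|) (𝓝 0) (𝓝 |0|) := continuous_abs.tendsto 0
    rw [abs_zero] at this
    exact this.eventually (gt_mem_nhds (by positivity))
  filter_upwards [hev] with r hr t ht
  rw [lt_min_iff] at hr
  have h1 := norm_hh_le (G := G) (c := c) (c' := c') hr.1.le (hC t ht).1 (hC t ht).2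
  rw [vc_pair]
  apply hsub
  apply mem_cthickening_of_dist_le _ ((c t, c' t) : E × E) δ
    ((fun t => ((c t, c' t) : E × E)) '' Icc a b) ⟨t, ht, rfl⟩
  rw [dist_eq_norm, add_sub_cancel_left]
  refine h1.trans ?_
  have h2 := hr.2.le
  rw [le_div_iff₀ (by positivity)] at h2
  linarith only [h2]

/-- second order estimate for the sum of the two lengths -/
theorem variation2 (h : LocalRiem G U) {c c' X X' : ℝ → E} {a b : ℝ} (hab : a ≤ b)
    (H : CF U c c' X X' a b) (hu : ∀ t ∈ Icc a b, G (c t) (c' t) (c' t) = 1)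
    {η : ℝ} (hη : 0 < η) :
    ∀ᶠ r in 𝓝 (0 : ℝ),
      (∫ t in a..b, sf G (vc G c X r t, vc' G c c' X X' r t))
        + (∫ t in a..b, sf G (vc G c X (-r) t, vc' G c c' X X' (-r) t))
      ≤ 2 * (b - a) + r ^ 2 * ((∫ t in a..b,
        (G (c t) (X' t + chris G (c t) (c' t) (X t)) (X' t + chris G (c t) (c' t) (X t))
          - G (c t) (c' t) (X' t + chris G (c t) (c' t) (X t)) ^ 2
          - secG G (c t) (X t) (c' t))) + η) := by
  obtain ⟨C, hC1, hC⟩ := h.exists_bound H
  have hC0 : 0 < C := by linarith only [hC1]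
  set P := (fun t => ((c t, c' t) : E × E)) '' Icc a b with hP
  have hPc : IsCompact P := compact_vel H
  have hPd : P ⊆ dom U := vel_subset H hu
  have hq2 : ContDiffOn ℝ 2 (sf G) (dom U) := h.contDiffOn_sf.of_le (by
    simpa using! (WithTop.coe_le_coe.2 le_top : ((2 : ℕ∞) : WithTop ℕ∞) ≤ ((⊤ : ℕ∞) : WithTop ℕ∞)))
  set ζ := η / (2 * (b - a + 1)) with hζ
  have hba : 0 < b - a + 1 := by linarith only [hab]
  have hζ0 : 0 < ζ := by positivity
  obtain ⟨δ, hδ, htay⟩ := uniform_taylor h.isOpen_dom hPc hPd hq2 (η := ζ / (8 * C ^ 2))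
    (by positivity)
  have c2 : ContinuousOn (fderiv ℝ (fderiv ℝ (sf G))) (dom U) :=
    ((h.contDiffOn_sf.fderiv_of_isOpen h.isOpen_dom (m := ∞) (by simp)).fderiv_of_isOpen
      h.isOpen_dom (m := ∞) (by simp)).continuousOn
  obtain ⟨C₂, hC₂⟩ := hPc.exists_bound_of_continuousOn (c2.mono hPd)
  set D := max C₂ 1 with hD
  have hD1 : 1 ≤ D := le_max_right _ _
  have hD0 : 0 < D := by linarith only [hD1]
  have hev : ∀ᶠ r in 𝓝 (0 : ℝ), |r| < min 1 (min (δ / (2 * C)) (ζ / (D * C ^ 2))) := by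
    have : Tendsto (fun r : ℝ => |r|) (𝓝 0) (𝓝 |0|) := continuous_abs.tendsto 0
    rw [abs_zero] at this
    exact this.eventually (gt_mem_nhds (by positivity))
  filter_upwards [hev, h.eventually_dom H hu, (continuous_neg.tendsto' (0:ℝ) 0 neg_zero).eventually
    (h.eventually_dom H hu)] with r hr hdom hdom'
  rw [lt_min_iff, lt_min_iff] at hr
  obtain ⟨hr1, hr2, hr3⟩ := hr
  set I : ℝ → ℝ := fun t =>
    (G (c t) (X' t + chris G (c t) (c' t) (X t)) (X' t + chris G (c t) (c' t) (X t))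
          - G (c t) (c' t) (X' t + chris G (c t) (c' t) (X t)) ^ 2
          - secG G (c t) (X t) (c' t)) with hI
  -- pointwise bound
  have hpt : ∀ t ∈ Icc a b, sf G (vc G c X r t, vc' G c c' X X' r t)
      + sf G (vc G c X (-r) t, vc' G c c' X X' (-r) t) ≤ 2 + r ^ 2 * (I t + 2 * ζ) := by
    intro t ht
    set p : E × E := (c t, c' t) with hp
    have hpP : p ∈ P := ⟨t, ht, rfl⟩
    set k : E × E := (X t, X' t) with hk
    set A : E × E := (-(1 / 2 : ℝ) • chris G (c t) (X t) (X t),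
      -(1 / 2 : ℝ) • (fderiv ℝ (chris G) (c t) (c' t) (X t) (X t)
      + (2 : ℝ) • chris G (c t) (X t) (X' t))) with hA
    have e1 : hh G c c' X X' r t = r • k + r ^ 2 • A := rfl
    have e2 : hh G c c' X X' (-r) t = -(r • k) + r ^ 2 • A := by
      unfold hh
      rw [neg_smul, neg_sq]
    have n1 : ‖hh G c c' X X' r t‖ ≤ 2 * C * |r| := norm_hh_le hr1.le (hC t ht).1 (hC t ht).2
    have n2 : ‖hh G c c' X X' (-r) t‖ ≤ 2 * C * |r| := by
      have := norm_hh_le (G := G) (c := c) (c' := c') (r := -r) (by rw [abs_neg]; exact hr1.le)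
        (hC t ht).1 (hC t ht).2
      rwa [abs_neg] at this
    have n3 : 2 * C * |r| ≤ δ := by
      have h2 := hr2.le
      rw [le_div_iff₀ (by positivity)] at h2
      linarith only [h2]
    have t1 := (htay p hpP _ (n1.trans n3)).2
    have t2 := (htay p hpP _ (n2.trans n3)).2
    rw [vc_pair, vc_pair]
    have hs : sf G p = 1 := by
      unfold sf qf
      simp only [hp]
      rw [hu t ht, Real.sqrt_one]
    have hco := h.coeff (H.hU t ht) (hu t ht) (X t) (X' t)
    have hcs := h.chris_symm (H.hU t ht) (c' t) (X t)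
    change 2 * fderiv ℝ (sf G) p A + fderiv ℝ (fderiv ℝ (sf G)) p k k = _ at hco
    have hIt : I t = 2 * fderiv ℝ (sf G) p A + fderiv ℝ (fderiv ℝ (sf G)) p k k := by
      rw [hco]
    set T := fderiv ℝ (fderiv ℝ (sf G)) p with hT
    set D1 := fderiv ℝ (sf G) p with hD1'
    have q1 : D1 (hh G c c' X X' r t) = r * D1 k + r ^ 2 * D1 A := by
      rw [e1, map_add, map_smul, map_smul]; rfl
    have q2 : D1 (hh G c c' X X' (-r) t) = -(r * D1 k) + r ^ 2 * D1 A := by
      rw [e2, map_add, map_neg, map_smul, map_smul]; rfl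
    have q3 : T (hh G c c' X X' r t) (hh G c c' X X' r t) = r ^ 2 * T k k
        + r ^ 3 * (T k A + T A k) + r ^ 4 * T A A := by
      rw [e1]
      simp only [map_add, map_smul, add_apply, smul_apply, smul_eq_mul]
      ring
    have q4 : T (hh G c c' X X' (-r) t) (hh G c c' X X' (-r) t) = r ^ 2 * T k k
        - r ^ 3 * (T k A + T A k) + r ^ 4 * T A A := by
      rw [e2]
      simp only [map_add, map_smul, map_neg, add_apply, smul_apply, neg_apply, smul_eq_mul]
      ring
    have q5 : |T A A| ≤ D * C ^ 2 := by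
      have := T.le_opNorm₂ A A
      rw [Real.norm_eq_abs] at this
      refine this.trans ?_
      have h5 : ‖T‖ ≤ D := (hC₂ p hpP).trans (le_max_left _ _)
      have h6 := (hC t ht).2
      calc ‖T‖ * ‖A‖ * ‖A‖ ≤ D * C * C := by gcongr
        _ = _ := by ring
    have q6 : r ^ 2 * |T A A| ≤ ζ := by
      have h3 := hr3.le
      rw [le_div_iff₀ (by positivity)] at h3
      have h4 : r ^ 2 ≤ |r| := by
        rw [← sq_abs, pow_two]
        exact mul_le_of_le_one_left (abs_nonneg _) hr1.le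
      calc r ^ 2 * |T A A| ≤ |r| * (D * C ^ 2) := by gcongr
        _ ≤ ζ := h3
    have q7 : r ^ 4 * T A A ≤ r ^ 2 * ζ := by
      have : r ^ 4 * T A A = r ^ 2 * (r ^ 2 * T A A) := by ring
      rw [this]
      apply mul_le_mul_of_nonneg_left _ (sq_nonneg r)
      exact (mul_le_mul_of_nonneg_left (le_abs_self _) (sq_nonneg r)).trans q6
    have q8 : ∀ x : E × E, ‖x‖ ≤ 2 * C * |r| → ζ / (8 * C ^ 2) * ‖x‖ ^ 2 ≤ ζ / 2 * r ^ 2 := by
      intro x hx
      calc ζ / (8 * C ^ 2) * ‖x‖ ^ 2 ≤ ζ / (8 * C ^ 2) * (2 * C * |r|) ^ 2 := by gcongr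
        _ = ζ / 2 * r ^ 2 := by
          rw [mul_pow, mul_pow, sq_abs]; field_simp; ring
    have t3 := (abs_le.1 t1).2
    have t4 := (abs_le.1 t2).2
    have t5 := q8 _ n1
    have t6 := q8 _ n2
    rw [hIt]
    rw [q1, q3, hs] at t3
    rw [q2, q4, hs] at t4
    linarith only [t3, t4, t5, t6, q7]
  -- integrate
  have hcont : ∀ r : ℝ, (∀ t ∈ Icc a b, ((vc G c X r t, vc' G c c' X X' r t) : E × E) ∈ dom U) →
      ContinuousOn (fun t => sf G (vc G c X r t, vc' G c c' X X' r t)) (Icc a b) := by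
    intro r hd
    exact h.contDiffOn_sf.continuousOn.comp ((h.continuousOn_vc H r).prodMk
      (h.continuousOn_vc' H r)) hd
  have hsec : ContinuousOn (fun t => secG G (c t) (X t) (c' t)) (Icc a b) := by
    have c1 := h.continuousOn_G H
    have c3 := h.continuousOn_chris H
    have cX := continuousOn_X H
    have cb := H.hc'
    have c4 : ContinuousOn (fun t => fderiv ℝ (fderiv ℝ G) (c t)) (Icc a b) :=
      (h.contDiffOn_fderiv.fderiv_of_isOpen h.isOpen (m := ∞) (by simp)).continuousOn.comp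
        (continuousOn_c H) H.hU
    unfold secG
    have d1 := ((((c4.clm_apply cX).clm_apply cX).clm_apply cb).clm_apply cb)
    have d2 := ((((c4.clm_apply cb).clm_apply cb).clm_apply cX).clm_apply cX)
    have d3 := ((((c4.clm_apply cb).clm_apply cX).clm_apply cX).clm_apply cb)
    have d4 := ((c1.clm_apply ((c3.clm_apply cX).clm_apply cb)).clm_apply
      ((c3.clm_apply cX).clm_apply cb))
    have d5 := ((c1.clm_apply ((c3.clm_apply cX).clm_apply cX)).clm_apply
      ((c3.clm_apply cb).clm_apply cb))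
    exact ((((d1.add d2).sub (d3.const_smul (2:ℝ))).neg.div_const 2).add d4).sub d5
  have hIc : ContinuousOn I (Icc a b) := by
    have c1 := h.continuousOn_G H
    have c3 := h.continuousOn_chris H
    have cX := continuousOn_X H
    have cb := H.hc'
    have cn : ContinuousOn (fun t => X' t + chris G (c t) (c' t) (X t)) (Icc a b) :=
      H.hX'.add ((c3.clm_apply cb).clm_apply cX)
    exact ((((c1.clm_apply cn).clm_apply cn)).sub (((c1.clm_apply cb).clm_apply cn).pow 2)).sub hsec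
  rw [← intervalIntegral.integral_add ((hcont r hdom).intervalIntegrable_of_Icc hab)
    ((hcont (-r) hdom').intervalIntegrable_of_Icc hab)]
  have hIi : IntervalIntegrable I volume a b := hIc.intervalIntegrable_of_Icc hab
  have hk2 : IntervalIntegrable (fun _ : ℝ => (2 : ℝ)) volume a b :=
    continuous_const.intervalIntegrable _ _
  have hkz : IntervalIntegrable (fun _ : ℝ => 2 * ζ) volume a b :=
    continuous_const.intervalIntegrable _ _
  have hmono : (∫ t in a..b, (sf G (vc G c X r t, vc' G c c' X X' r t)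
      + sf G (vc G c X (-r) t, vc' G c c' X X' (-r) t))) ≤
      ∫ t in a..b, (2 + r ^ 2 * (I t + 2 * ζ)) :=
    intervalIntegral.integral_mono_on (μ := volume) hab
    (((hcont r hdom).add (hcont (-r) hdom')).intervalIntegrable_of_Icc hab)
    (hk2.add ((hIi.add hkz).const_mul _)) hpt
  refine hmono.trans ?_
  have e0 : (∫ t in a..b, (2 + r ^ 2 * (I t + 2 * ζ))) =
      (b - a) * 2 + r ^ 2 * ((∫ t in a..b, I t) + (b - a) * (2 * ζ)) := by
    rw [intervalIntegral.integral_add hk2 ((hIi.add hkz).const_mul _),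
      intervalIntegral.integral_const_mul, intervalIntegral.integral_add hIi
        hkz, intervalIntegral.integral_const,
        intervalIntegral.integral_const]
    simp only [smul_eq_mul]
  rw [e0]
  have e9 : (b - a) * (2 * ζ) ≤ η := by
    rw [hζ]
    have : (b - a) * (2 * (η / (2 * (b - a + 1)))) = η * ((b - a) / (b - a + 1)) := by
      field_simp
    rw [this]
    have h10 : (b - a) / (b - a + 1) ≤ 1 := by
      rw [div_le_one hba]; linarith only
    exact mul_le_of_le_one_right hη.le h10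
  have e10 := mul_le_mul_of_nonneg_left e9 (sq_nonneg r)
  linarith only [e10]

/-- first order estimate for the length -/
theorem variation1 (h : LocalRiem G U) {c c' X X' : ℝ → E} {a b : ℝ} (hab : a ≤ b)
    (H : CF U c c' X X' a b) (hu : ∀ t ∈ Icc a b, G (c t) (c' t) (c' t) = 1)
    (hg : ∀ t ∈ Icc a b, HasDerivWithinAt c' (-(chris G (c t) (c' t) (c' t))) (Icc a b) t) :
    ∃ C : ℝ, ∀ᶠ r in 𝓝 (0 : ℝ),
      (∫ t in a..b, sf G (vc G c X r t, vc' G c c' X X' r t))
      ≤ (b - a) + r * (G (c b) (c' b) (X b) - G (c a) (c' a) (X a)) + C * r ^ 2 := by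
  obtain ⟨C, hC1, hC⟩ := h.exists_bound H
  have hC0 : 0 < C := by linarith only [hC1]
  set P := (fun t => ((c t, c' t) : E × E)) '' Icc a b with hP
  have hPc : IsCompact P := compact_vel H
  have hPd : P ⊆ dom U := vel_subset H hu
  have hq2 : ContDiffOn ℝ 2 (sf G) (dom U) := h.contDiffOn_sf.of_le (by
    simpa using! (WithTop.coe_le_coe.2 le_top : ((2 : ℕ∞) : WithTop ℕ∞) ≤ ((⊤ : ℕ∞) : WithTop ℕ∞)))
  obtain ⟨δ, hδ, htay⟩ := uniform_taylor h.isOpen_dom hPc hPd hq2 (η := 1) one_pos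
  have c2 : ContinuousOn (fderiv ℝ (fderiv ℝ (sf G))) (dom U) :=
    ((h.contDiffOn_sf.fderiv_of_isOpen h.isOpen_dom (m := ∞) (by simp)).fderiv_of_isOpen
      h.isOpen_dom (m := ∞) (by simp)).continuousOn
  have c1 : ContinuousOn (fderiv ℝ (sf G)) (dom U) :=
    (h.contDiffOn_sf.fderiv_of_isOpen h.isOpen_dom (m := ∞) (by simp)).continuousOn
  obtain ⟨C₂, hC₂⟩ := hPc.exists_bound_of_continuousOn (c2.mono hPd)
  obtain ⟨C₁, hC₁⟩ := hPc.exists_bound_of_continuousOn (c1.mono hPd)
  set D := max 1 (max C₁ C₂) with hD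
  have hD1 : 1 ≤ D := le_max_left _ _
  have hD0 : 0 < D := by linarith only [hD1]
  have hev : ∀ᶠ r in 𝓝 (0 : ℝ), |r| < min 1 (δ / (2 * C)) := by
    have : Tendsto (fun r : ℝ => |r|) (𝓝 0) (𝓝 |0|) := continuous_abs.tendsto 0
    rw [abs_zero] at this
    exact this.eventually (gt_mem_nhds (by positivity))
  set B := D * C + D * (2 * C) ^ 2 + (2 * C) ^ 2 with hB
  refine ⟨(b - a) * B, ?_⟩
  filter_upwards [hev, h.eventually_dom H hu] with r hr hdom
  rw [lt_min_iff] at hr
  obtain ⟨hr1, hr2⟩ := hr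
  set J : ℝ → ℝ := fun t => G (c t) (c' t) (X' t + chris G (c t) (c' t) (X t)) with hJ
  have hpt : ∀ t ∈ Icc a b, sf G (vc G c X r t, vc' G c c' X X' r t)
      ≤ 1 + (r * J t + B * r ^ 2) := by
    intro t ht
    set p : E × E := (c t, c' t) with hp
    have hpP : p ∈ P := ⟨t, ht, rfl⟩
    set k : E × E := (X t, X' t) with hk
    set A : E × E := (-(1 / 2 : ℝ) • chris G (c t) (X t) (X t),
      -(1 / 2 : ℝ) • (fderiv ℝ (chris G) (c t) (c' t) (X t) (X t)
      + (2 : ℝ) • chris G (c t) (X t) (X' t))) with hA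
    have e1 : hh G c c' X X' r t = r • k + r ^ 2 • A := rfl
    have n1 : ‖hh G c c' X X' r t‖ ≤ 2 * C * |r| := norm_hh_le hr1.le (hC t ht).1 (hC t ht).2
    have n3 : 2 * C * |r| ≤ δ := by
      have h2 := hr2.le
      rw [le_div_iff₀ (by positivity)] at h2
      linarith only [h2]
    have t1 := (htay p hpP _ (n1.trans n3)).2
    rw [vc_pair]
    have hs : sf G p = 1 := by
      unfold sf qf
      simp only [hp]
      rw [hu t ht, Real.sqrt_one]
    set T := fderiv ℝ (fderiv ℝ (sf G)) p with hT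
    set D1 := fderiv ℝ (sf G) p with hD1'
    have hJt : D1 k = J t := by
      have f1 := h.fderiv_sf (hPd hpP) k
      rw [h.fderiv_qf (H.hU t ht), hs] at f1
      have f2 := h.fderiv_eq (H.hU t ht) (X t) (c' t) (c' t)
      have f3 := h.symm _ (H.hU t ht) (c' t) (chris G (c t) (X t) (c' t))
      have f4 := h.symm _ (H.hU t ht) (c' t) (X' t)
      have f5 := h.chris_symm (H.hU t ht) (c' t) (X t)
      simp only [hJ, map_add]
      rw [f5, f4]
      simp only [hk, hp] at f1
      change 2 * 1 * D1 (X t, X' t) = _ at f1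
      rw [hk]
      linarith only [f1, f2, f3]
    have q1 : D1 (hh G c c' X X' r t) = r * D1 k + r ^ 2 * D1 A := by
      rw [e1, map_add, map_smul, map_smul]; rfl
    have q2 : |D1 A| ≤ D * C := by
      have := D1.le_opNorm A
      rw [Real.norm_eq_abs] at this
      refine this.trans ?_
      have h5 : ‖D1‖ ≤ D := (hC₁ p hpP).trans ((le_max_left _ _).trans (le_max_right _ _))
      have h6 := (hC t ht).2
      gcongr
    have q3 : |T (hh G c c' X X' r t) (hh G c c' X X' r t)| ≤ D * (2 * C * |r|) ^ 2 := by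
      have := T.le_opNorm₂ (hh G c c' X X' r t) (hh G c c' X X' r t)
      rw [Real.norm_eq_abs] at this
      refine this.trans ?_
      have h5 : ‖T‖ ≤ D := (hC₂ p hpP).trans ((le_max_right _ _).trans (le_max_right _ _))
      calc ‖T‖ * ‖hh G c c' X X' r t‖ * ‖hh G c c' X X' r t‖
          ≤ D * (2 * C * |r|) * (2 * C * |r|) := by gcongr
        _ = _ := by ring
    have q4 : 1 * ‖hh G c c' X X' r t‖ ^ 2 ≤ (2 * C * |r|) ^ 2 := by
      rw [one_mul]
      gcongr
    have q5 : (2 * C * |r|) ^ 2 = (2 * C) ^ 2 * r ^ 2 := by rw [mul_pow, sq_abs]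
    have t3 := (abs_le.1 t1).2
    rw [q1, hs, hJt] at t3
    rw [q5] at q3 q4
    have q6 := (abs_le.1 q3).2
    have q7 : r ^ 2 * D1 A ≤ r ^ 2 * (D * C) :=
      mul_le_mul_of_nonneg_left ((le_abs_self _).trans q2) (sq_nonneg r)
    have q8 : 0 ≤ D * ((2 * C) ^ 2 * r ^ 2) := by positivity
    simp only [hB]
    linarith only [t3, q4, q6, q7, q8]
  have hcont : ContinuousOn (fun t => sf G (vc G c X r t, vc' G c c' X X' r t)) (Icc a b) :=
    h.contDiffOn_sf.continuousOn.comp ((h.continuousOn_vc H r).prodMk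
      (h.continuousOn_vc' H r)) hdom
  have hJc : ContinuousOn J (Icc a b) := by
    have c1 := h.continuousOn_G H
    have c3 := h.continuousOn_chris H
    have cX := continuousOn_X H
    have cb := H.hc'
    exact (c1.clm_apply cb).clm_apply (H.hX'.add ((c3.clm_apply cb).clm_apply cX))
  have hJi : IntervalIntegrable J volume a b := hJc.intervalIntegrable_of_Icc hab
  have hk1 : IntervalIntegrable (fun _ : ℝ => (1 : ℝ)) volume a b :=
    continuous_const.intervalIntegrable _ _
  have hkz : IntervalIntegrable (fun _ : ℝ => B * r ^ 2) volume a b :=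
    continuous_const.intervalIntegrable _ _
  have hmono : (∫ t in a..b, sf G (vc G c X r t, vc' G c c' X X' r t)) ≤
      ∫ t in a..b, (1 + (r * J t + B * r ^ 2)) :=
    intervalIntegral.integral_mono_on (μ := volume) hab
    (hcont.intervalIntegrable_of_Icc hab)
    (hk1.add ((hJi.const_mul _).add hkz)) hpt
  refine hmono.trans (le_of_eq ?_)
  rw [intervalIntegral.integral_add hk1
    ((hJi.const_mul _).add hkz),
    intervalIntegral.integral_add (hJi.const_mul _) hkz,
    intervalIntegral.integral_const_mul, intervalIntegral.integral_const,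
      intervalIntegral.integral_const]
  have hFT : ∫ t in a..b, J t = G (c b) (c' b) (X b) - G (c a) (c' a) (X a) := by
    rcases hab.eq_or_lt with rfl | hlt
    · simp
    have hder : ∀ t ∈ Icc a b, HasDerivWithinAt (fun t => G (c t) (c' t) (X t)) (J t)
        (Icc a b) t := by
      intro t ht
      have h1 : HasDerivWithinAt (fun t => G (c t)) (fderiv ℝ G (c t) (c' t)) (Icc a b) t :=
        (h.differentiableAt (H.hU t ht)).hasFDerivAt.comp_hasDerivWithinAt t (H.hc t ht)
      have h2 := (h1.clm_apply (hg t ht)).clm_apply (H.hX t ht)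
      refine h2.congr_deriv ?_
      have f1 := h.fderiv_eq (H.hU t ht) (c' t) (c' t) (X t)
      simp only [add_apply, map_neg, neg_apply, hJ, map_add]
      rw [f1]
      ring
    refine intervalIntegral.integral_eq_sub_of_hasDerivAt_of_le hab
      (fun t ht => (hder t ht).continuousWithinAt)
      (fun t ht => (hder t (Ioo_subset_Icc_self ht)).hasDerivAt (Icc_mem_nhds ht.1 ht.2))
      (hJc.intervalIntegrable_of_Icc hab)
  rw [hFT]
  simp only [smul_eq_mul]
  ring

end LocalRiem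

end Vale.Agent.P210.R2.H53
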