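import Vale.Agent.P210.R2.H53.Cal

open scoped Manifold ContDiff Topology Bundle ENNReal NNReal
open Set Metric Filter Bundle IsManifold MeasureTheory Manifold Asymptotics

set_option maxSynthPendingDepth 3
set_option linter.unusedSectionVars false

noncomputable section

namespace Vale.Agent.P210.R2.H53

variable {E : Type} [NormedAddCommGroup E] [NormedSpace ℝ E] [FiniteDimensional ℝ E]
  [MeasurableSpace E] [BorelSpace E]
  {M : Type} [MetricSpace M] [ChartedSpace E M]
  [RiemannianBundle (fun x : M => TangentSpace 𝓘(ℝ, E) x)]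
  [MeasurableSpace M] [BorelSpace M] [ProperSpace M]

variable (E) in
/-- the weak Laplacian comparison on one manifold -/
def Wl (μ : Measure M) (K n : ℝ) : Prop :=
  ∀ (x : M) (ζ : M → ℝ), LC ζ → (∀ p, 0 ≤ ζ p) →
    -∫ p, Gam E (fun q => dist x q ^ 2 / 2) ζ p ∂μ ≤ ∫ p, (n + K * dist x p ^ 2) * ζ p ∂μ

theorem ll_inv_max {r : ℝ} (hr : 0 < r) : LocallyLipschitz fun t : ℝ => (max t r)⁻¹ := by
  have h : LipschitzWith (Real.toNNReal (r⁻¹ * r⁻¹)) fun t : ℝ => (max t r)⁻¹ := by
    refine LipschitzWith.of_dist_le_mul fun s t => ?_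
    rw [Real.dist_eq, Real.dist_eq, Real.coe_toNNReal _ (by positivity)]
    have hs : 0 < max s r := lt_max_of_lt_right hr
    have ht : 0 < max t r := lt_max_of_lt_right hr
    have h1 : (max s r)⁻¹ - (max t r)⁻¹ = (max t r - max s r) * ((max s r)⁻¹ * (max t r)⁻¹) := by
      field_simp
    rw [h1, abs_mul, abs_of_pos (by positivity : 0 < (max s r)⁻¹ * (max t r)⁻¹), mul_comm]
    refine mul_le_mul (mul_le_mul ?_ ?_ (by positivity) (by positivity)) ?_ (abs_nonneg _)
      (by positivity)
    · exact inv_anti₀ hr (le_max_right _ _)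
    · exact inv_anti₀ hr (le_max_right _ _)
    · rw [abs_sub_comm s t]; exact abs_max_sub_max_le_abs _ _ _
  exact h.locallyLipschitz

namespace Cal

variable {μ : Measure M} (hc : Cal E μ)

include hc

/-- weak Laplacian comparison for the distance itself -/
theorem wl_dist {K n : ℝ} (hw : Wl E μ K n) {x : M} {r : ℝ} (hr : 0 < r) {ζ : M → ℝ} (hζ : LC ζ)
    (h0 : ∀ p, 0 ≤ ζ p) (hz : ∀ p, Dist.dist x p < r → ζ p = 0) :
    -∫ p, Gam E (fun q => Dist.dist x q) ζ p ∂μ ≤
      ∫ p, ((n - 1) / Dist.dist x p + K * Dist.dist x p) * ζ p ∂μ := by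
  set d : M → ℝ := fun q => Dist.dist x q with hd
  have hdl : LocallyLipschitz d := ll_dist x
  set m : M → ℝ := fun q => (max (d q) (r / 2))⁻¹ with hm
  have hml : LocallyLipschitz m := (ll_inv_max (half_pos hr)).comp hdl
  have hζ' : LC (fun q => m q * ζ q) := LC.mul_left hml hζ
  have h0' : ∀ p, 0 ≤ m p * ζ p := fun p =>
    mul_nonneg (inv_nonneg.2 (le_max_of_le_right (half_pos hr).le)) (h0 p)
  have key := hw x _ hζ' h0'
  -- pointwise identity
  have e1 : ∀ᵐ p ∂μ, Gam E (fun q => Dist.dist x q ^ 2 / 2) (fun q => m q * ζ q) p =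
      Gam E d ζ p - ζ p / d p := by
    filter_upwards [hc.diff d hdl, hc.diff ζ hζ.ll, hc.diff m hml] with p h1 h2 h3
    have e2 : Gam E (fun q => Dist.dist x q ^ 2 / 2) (fun q => m q * ζ q) p =
        d p * Gam E d (fun q => m q * ζ q) p := by
      have := hc.comp (fun t => t ^ 2 / 2) d (fun q => m q * ζ q) p h1 (by fun_prop)
      rw [show (fun q => Dist.dist x q ^ 2 / 2) = fun q => (fun t : ℝ => t ^ 2 / 2) (d q) from rfl,
        this]
      congr 1
      simp
    rw [e2]
    by_cases hp : d p < r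
    · have h4 : ∀ᶠ q in 𝓝 p, ζ q = 0 := by
        have : ∀ᶠ q in 𝓝 p, d q < r := hdl.continuous.continuousAt.eventually_lt
          continuousAt_const hp
        filter_upwards [this] with q hq using hz q hq
      rw [hc.gam_zero_of_eventually d _ p h4, hc.gam_zero_of_eventually d _ p
        (by filter_upwards [h4] with q hq; rw [hq, mul_zero]), h4.self_of_nhds]
      simp
    · push Not at hp
      have hdp : 0 < d p := hr.trans_le hp
      have h5 : m =ᶠ[𝓝 p] fun q => (fun t : ℝ => t⁻¹) (d q) := by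
        have : ∀ᶠ q in 𝓝 p, r / 2 < d q := continuousAt_const.eventually_lt
          hdl.continuous.continuousAt (by linarith)
        filter_upwards [this] with q hq
        simp only [hm, max_eq_left hq.le]
      have h6 : Gam E d m p = -(1 / d p ^ 2) := by
        rw [hc.congr' d m _ p h5, hc.symm, hc.comp (fun t => t⁻¹) d d p h1
          (differentiableAt_inv hdp.ne'), hc.dist x p (by
            rintro rfl; simp [hd] at hdp) h1]
        simp
      rw [hc.mul' d m ζ p h3 h2, h6]
      have h7 : m p = (d p)⁻¹ := h5.self_of_nhds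
      rw [h7]
      field_simp
      ring
  have hne : ∀ p, ζ p ≠ 0 → r ≤ d p := fun p hp => by
    by_contra hn; exact hp (hz p (not_le.1 hn))
  have i1 : Integrable (fun p => ζ p / d p) μ := by
    have : (fun p => ζ p / d p) = fun p => m p * ζ p := by
      funext p
      by_cases hp : ζ p = 0
      · simp [hp]
      · have := hne p hp
        simp only [hm, max_eq_left (by linarith : r / 2 ≤ d p)]
        rw [div_eq_mul_inv, mul_comm]
    rw [this]
    exact hc.int_cont hζ'.cont hζ'.2
  have e3 : ∫ p, Gam E (fun q => Dist.dist x q ^ 2 / 2) (fun q => m q * ζ q) p ∂μ =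
      ∫ p, Gam E d ζ p ∂μ - ∫ p, ζ p / d p ∂μ := by
    rw [integral_congr_ae e1, integral_sub (hc.int_gam hdl hζ) i1]
  have e4 : ∫ p, (n + K * Dist.dist x p ^ 2) * (m p * ζ p) ∂μ =
      ∫ p, ((n - 1) / d p + K * d p) * ζ p ∂μ + ∫ p, ζ p / d p ∂μ := by
    rw [← integral_add _ i1]
    · refine integral_congr_ae (Eventually.of_forall fun p => ?_)
      by_cases hp : ζ p = 0
      · simp [hp]
      · have h8 := hne p hp
        have h9 : 0 < d p := hr.trans_le h8
        have : m p = (d p)⁻¹ := by simp only [hm, max_eq_left (by linarith : r / 2 ≤ d p)]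
        simp only [this]
        change (n + K * d p ^ 2) * ((d p)⁻¹ * ζ p) = _
        field_simp
        ring
    · have h10 : Integrable (fun p => ((n - 1) * m p + K * d p) * ζ p) μ := by
        refine hc.int_cont ?_ (hζ.2.mul_left)
        have := hml.continuous
        have := hdl.continuous
        have := hζ.cont
        fun_prop
      refine h10.congr (Eventually.of_forall fun p => ?_)
      by_cases hp : ζ p = 0
      · simp [hp]
      · have h8 := hne p hp
        have : m p = (d p)⁻¹ := by simp only [hm, max_eq_left (by linarith : r / 2 ≤ d p)]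
        simp only [this]
        ring
  rw [e3, e4] at key
  linarith

/-- upper bound of `∫ Gam(dist x, w)` by a test function `φ ≥ w` -/
theorem wl_le {K n : ℝ} (hw : Wl E μ K n) {x : M} {r : ℝ} (hr : 0 < r) {w φ : M → ℝ} (h1 : LC w)
    (h2 : LC φ) (h0 : ∀ p, w p ≤ φ p) (hz : ∀ p, Dist.dist x p < r → w p = 0 ∧ φ p = 0) :
    ∫ p, Gam E (fun q => Dist.dist x q) w p ∂μ ≤ ∫ p, Gam E (fun q => Dist.dist x q) φ p ∂μ +
      ∫ p, ((n - 1) / Dist.dist x p + K * Dist.dist x p) * (φ p - w p) ∂μ := by
  have key := hc.wl_dist hw hr (h2.sub h1) (fun p => sub_nonneg.2 (h0 p)) (fun p hp => by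
    rw [(hz p hp).1, (hz p hp).2, sub_zero])
  have e : ∫ p, Gam E (fun q => Dist.dist x q) (fun q => φ q - w q) p ∂μ =
      ∫ p, Gam E (fun q => Dist.dist x q) φ p ∂μ - ∫ p, Gam E (fun q => Dist.dist x q) w p ∂μ := by
    rw [← integral_sub (hc.int_gam (ll_dist x) h2) (hc.int_gam (ll_dist x) h1)]
    refine integral_congr_ae ?_
    filter_upwards [hc.diff φ h2.ll, hc.diff w h1.ll] with p h3 h4
    exact hc.sub' _ _ _ _ h3 h4
  rw [e] at key
  linarith

end Cal

end Vale.Agent.P210.R2.H53
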